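import Vale.Agent.P125.Dich.Iter

/-!
# P125 (alpha) : from one good time to all large times

For a fixed stationary reversible chain `(μ, P)`, a map `f : S → V` and a subadditive functional
`N : V → ℝ`, the quantity `En N t = ∑ μ i (P ^ t) i j N (f j - f i) ^ 2` is subadditive in the
`L_2` sense.  Hence a bound `En NJ t1 ≤ (κ t1) ^ 2 W` at one time `t1` gives
`En NJ T ≤ (2 κ T) ^ 2 W` for all `T ≥ max (t1, t1 / κ)`.
-/

namespace Vale.Agent.P125.Alpha.AllT

open scoped BigOperators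
open Vale.Agent.P125.Dich

variable {S : Type} [Fintype S] [DecidableEq S] {V : Type*} [AddCommGroup V]

/-- second moment of `N (f (Z_t) - f (Z_0))` -/
def En (μ : S → ℝ) (P : Matrix S S ℝ) (N : V → ℝ) (f : S → V) (t : ℕ) : ℝ :=
  ∑ i, ∑ j, μ i * (P ^ t) i j * N (f j - f i) ^ 2

lemma sq_add_le (x y s : ℝ) (hs : 0 < s) : (x + y) ^ 2 ≤ (1 + s) * x ^ 2 + (1 + 1 / s) * y ^ 2 := by
  have h : 0 ≤ (s * x - y) ^ 2 / s := div_nonneg (sq_nonneg _) hs.le
  have e : (1 + s) * x ^ 2 + (1 + 1 / s) * y ^ 2 - (x + y) ^ 2 = (s * x - y) ^ 2 / s := by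
    field_simp
    ring
  linarith

lemma En_nonneg {μ : S → ℝ} {P : Matrix S S ℝ} (hP : IsChain μ P) (N : V → ℝ) (f : S → V)
    (t : ℕ) : 0 ≤ En μ P N f t := by
  obtain ⟨h1, _, h3, _, _⟩ := isChain_pow hP t
  exact Finset.sum_nonneg fun i _ => Finset.sum_nonneg fun j _ =>
    mul_nonneg (mul_nonneg (h1 i) (h3 i j)) (sq_nonneg _)

/-- weighted form of the `L_2` triangle inequality -/
theorem En_add_le {μ : S → ℝ} {P : Matrix S S ℝ} (hP : IsChain μ P) (N : V → ℝ)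
    (hN0 : ∀ x, 0 ≤ N x) (hNadd : ∀ x y, N (x + y) ≤ N x + N y) (f : S → V) (a b : ℕ)
    (s : ℝ) (hs : 0 < s) :
    En μ P N f (a + b) ≤ (1 + s) * En μ P N f a + (1 + 1 / s) * En μ P N f b := by
  obtain ⟨a1, _, a3, a4, a5⟩ := isChain_pow hP a
  obtain ⟨_, _, b3, b4, _⟩ := isChain_pow hP b
  have e0 : En μ P N f (a + b)
      = ∑ i, ∑ k, ∑ j, μ i * (P ^ a) i j * (P ^ b) j k * N (f k - f i) ^ 2 := by
    unfold En
    refine Finset.sum_congr rfl fun i _ => Finset.sum_congr rfl fun k _ => ?_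
    rw [pow_add, Matrix.mul_apply, Finset.mul_sum, Finset.sum_mul]
    refine Finset.sum_congr rfl fun j _ => ?_
    ring
  have e1 : ∑ i, ∑ k, ∑ j, μ i * (P ^ a) i j * (P ^ b) j k * N (f j - f i) ^ 2
      = En μ P N f a := by
    unfold En
    refine Finset.sum_congr rfl fun i _ => ?_
    rw [Finset.sum_comm]
    refine Finset.sum_congr rfl fun j _ => ?_
    calc ∑ k, μ i * (P ^ a) i j * (P ^ b) j k * N (f j - f i) ^ 2
        = μ i * (P ^ a) i j * N (f j - f i) ^ 2 * ∑ k, (P ^ b) j k := by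
          rw [Finset.mul_sum]
          refine Finset.sum_congr rfl fun k _ => ?_
          ring
      _ = μ i * (P ^ a) i j * N (f j - f i) ^ 2 := by rw [b4 j, mul_one]
  have e2 : ∑ i, ∑ k, ∑ j, μ i * (P ^ a) i j * (P ^ b) j k * N (f k - f j) ^ 2
      = En μ P N f b := by
    unfold En
    calc ∑ i, ∑ k, ∑ j, μ i * (P ^ a) i j * (P ^ b) j k * N (f k - f j) ^ 2
        = ∑ i, ∑ j, ∑ k, μ i * (P ^ a) i j * (P ^ b) j k * N (f k - f j) ^ 2 := by
          refine Finset.sum_congr rfl fun i _ => ?_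
          rw [Finset.sum_comm]
      _ = ∑ j, ∑ i, ∑ k, μ i * (P ^ a) i j * (P ^ b) j k * N (f k - f j) ^ 2 := by
          rw [Finset.sum_comm]
      _ = ∑ j, ∑ k, μ j * (P ^ b) j k * N (f k - f j) ^ 2 := by
          refine Finset.sum_congr rfl fun j _ => ?_
          rw [Finset.sum_comm]
          refine Finset.sum_congr rfl fun k _ => ?_
          calc ∑ i, μ i * (P ^ a) i j * (P ^ b) j k * N (f k - f j) ^ 2
              = ∑ i, μ j * (P ^ a) j i * ((P ^ b) j k * N (f k - f j) ^ 2) := by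
                refine Finset.sum_congr rfl fun i _ => ?_
                rw [a5 i j]
                ring
            _ = μ j * (∑ i, (P ^ a) j i) * ((P ^ b) j k * N (f k - f j) ^ 2) := by
                rw [Finset.mul_sum, Finset.sum_mul]
            _ = μ j * (P ^ b) j k * N (f k - f j) ^ 2 := by
                rw [a4 j]
                ring
  rw [e0, ← e1, ← e2, Finset.mul_sum, Finset.mul_sum, ← Finset.sum_add_distrib]
  refine Finset.sum_le_sum fun i _ => ?_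
  rw [Finset.mul_sum, Finset.mul_sum, ← Finset.sum_add_distrib]
  refine Finset.sum_le_sum fun k _ => ?_
  rw [Finset.mul_sum, Finset.mul_sum, ← Finset.sum_add_distrib]
  refine Finset.sum_le_sum fun j _ => ?_
  have hw : 0 ≤ μ i * (P ^ a) i j * (P ^ b) j k := mul_nonneg (mul_nonneg (a1 i) (a3 i j)) (b3 j k)
  have h1 : N (f k - f i) ≤ N (f j - f i) + N (f k - f j) := by
    have := hNadd (f j - f i) (f k - f j)
    have e : f j - f i + (f k - f j) = f k - f i := by abel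
    rwa [e] at this
  have h2 : N (f k - f i) ^ 2 ≤ (N (f j - f i) + N (f k - f j)) ^ 2 :=
    pow_le_pow_left₀ (hN0 _) h1 2
  have h3 := sq_add_le (N (f j - f i)) (N (f k - f j)) s hs
  calc μ i * (P ^ a) i j * (P ^ b) j k * N (f k - f i) ^ 2
      ≤ μ i * (P ^ a) i j * (P ^ b) j k
          * ((1 + s) * N (f j - f i) ^ 2 + (1 + 1 / s) * N (f k - f j) ^ 2) :=
        mul_le_mul_of_nonneg_left (h2.trans h3) hw
    _ = _ := by ring

/-- addition of bounds -/
theorem bd_add {μ : S → ℝ} {P : Matrix S S ℝ} (hP : IsChain μ P) (N : V → ℝ)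
    (hN0 : ∀ x, 0 ≤ N x) (hNadd : ∀ x y, N (x + y) ≤ N x + N y) (f : S → V) (W : ℝ)
    (a b : ℕ) (α β : ℝ) (hα : 0 < α) (hβ : 0 < β)
    (ha : En μ P N f a ≤ α ^ 2 * W) (hb : En μ P N f b ≤ β ^ 2 * W) :
    En μ P N f (a + b) ≤ (α + β) ^ 2 * W := by
  have h := En_add_le hP N hN0 hNadd f a b (β / α) (div_pos hβ hα)
  have h1 : (1 + β / α) * En μ P N f a ≤ (1 + β / α) * (α ^ 2 * W) :=
    mul_le_mul_of_nonneg_left ha (by positivity)
  have h2 : (1 + 1 / (β / α)) * En μ P N f b ≤ (1 + 1 / (β / α)) * (β ^ 2 * W) :=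
    mul_le_mul_of_nonneg_left hb (by positivity)
  have e : (1 + β / α) * (α ^ 2 * W) + (1 + 1 / (β / α)) * (β ^ 2 * W) = (α + β) ^ 2 * W := by
    field_simp
    ring
  linarith

/-- multiples of a good time -/
theorem bd_mul {μ : S → ℝ} {P : Matrix S S ℝ} (hP : IsChain μ P) (N : V → ℝ)
    (hN0 : ∀ x, 0 ≤ N x) (hNadd : ∀ x y, N (x + y) ≤ N x + N y) (f : S → V) (W : ℝ)
    (a : ℕ) (α : ℝ) (hα : 0 < α) (ha : En μ P N f a ≤ α ^ 2 * W) (q : ℕ) :
    En μ P N f ((q + 1) * a) ≤ (((q : ℝ) + 1) * α) ^ 2 * W := by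
  induction q with
  | zero => simpa using ha
  | succ q ih =>
    have h := bd_add hP N hN0 hNadd f W ((q + 1) * a) a (((q : ℝ) + 1) * α) α (by positivity) hα
      ih ha
    have e1 : (q + 1 + 1) * a = (q + 1) * a + a := by ring
    have e2 : (((q + 1 : ℕ) : ℝ) + 1) * α = ((q : ℝ) + 1) * α + α := by
      push_cast
      ring
    rw [e1, e2]
    exact h

/-- comparison of two functionals at time one -/
theorem En_one_le {μ : S → ℝ} {P : Matrix S S ℝ} (hP : IsChain μ P) (NJ N1 : V → ℝ)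
    (hN0 : ∀ x, 0 ≤ NJ x) (hle : ∀ x, NJ x ≤ N1 x) (f : S → V) (t : ℕ) :
    En μ P NJ f t ≤ En μ P N1 f t := by
  obtain ⟨h1, _, h3, _, _⟩ := isChain_pow hP t
  refine Finset.sum_le_sum fun i _ => Finset.sum_le_sum fun j _ => ?_
  exact mul_le_mul_of_nonneg_left (pow_le_pow_left₀ (hN0 _) (hle _) 2)
    (mul_nonneg (h1 i) (h3 i j))

/-- from one good time to all large times, for one chain and one map -/
theorem all_large {μ : S → ℝ} {P : Matrix S S ℝ} (hP : IsChain μ P) (NJ N1 : V → ℝ)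
    (hN0 : ∀ x, 0 ≤ NJ x) (hNadd : ∀ x y, NJ (x + y) ≤ NJ x + NJ y) (hle : ∀ x, NJ x ≤ N1 x)
    (f : S → V) (t1 : ℕ) (ht1 : 1 ≤ t1) (κ : ℝ) (hκ : 0 < κ)
    (h : En μ P NJ f t1 ≤ (κ * t1) ^ 2 * En μ P N1 f 1)
    (T : ℕ) (hT : t1 ≤ T) (hT' : (t1 : ℝ) ≤ κ * T) :
    En μ P NJ f T ≤ (2 * κ * T) ^ 2 * En μ P N1 f 1 := by
  set W := En μ P N1 f 1 with hW
  have hW0 : 0 ≤ W := En_nonneg hP N1 f 1
  have ht1' : (0 : ℝ) < t1 := by exact_mod_cast ht1
  have hone : En μ P NJ f 1 ≤ (1 : ℝ) ^ 2 * W := by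
    rw [one_pow, one_mul]
    exact En_one_le hP NJ N1 hN0 hle f 1
  -- division with remainder
  obtain ⟨q, hq⟩ : ∃ q, T / t1 = q + 1 := by
    have : 1 ≤ T / t1 := (Nat.one_le_div_iff (by omega)).2 hT
    exact ⟨T / t1 - 1, by omega⟩
  have hdiv : T = (q + 1) * t1 + T % t1 := by
    have := Nat.div_add_mod T t1
    rw [hq] at this
    rw [mul_comm]
    exact this.symm
  have hmod : T % t1 < t1 := Nat.mod_lt _ (by omega)
  have hA := bd_mul hP NJ hN0 hNadd f W t1 (κ * t1) (by positivity) h q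
  have hTr : (T : ℝ) = ((q : ℝ) + 1) * t1 + ((T % t1 : ℕ) : ℝ) := by
    have : ((T : ℕ) : ℝ) = (((q + 1) * t1 + T % t1 : ℕ) : ℝ) := by rw [← hdiv]
    rw [this]
    push_cast
    ring
  have hr0 : (0 : ℝ) ≤ ((T % t1 : ℕ) : ℝ) := Nat.cast_nonneg _
  have hr1 : ((T % t1 : ℕ) : ℝ) ≤ t1 := by exact_mod_cast hmod.le
  have hmono : ∀ α : ℝ, 0 ≤ α → α ≤ 2 * κ * T → α ^ 2 * W ≤ (2 * κ * T) ^ 2 * W := by
    intro α h0 h1
    exact mul_le_mul_of_nonneg_right (pow_le_pow_left₀ h0 h1 2) hW0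
  rcases Nat.eq_zero_or_pos (T % t1) with hr | hr
  · rw [hr, Nat.add_zero] at hdiv
    rw [hr] at hTr
    have e : En μ P NJ f T = En μ P NJ f ((q + 1) * t1) := by rw [← hdiv]
    rw [e]
    refine hA.trans (hmono _ (by positivity) ?_)
    have : ((q : ℝ) + 1) * (κ * t1) = κ * T := by
      rw [hTr]
      push_cast
      ring
    rw [this]
    have : 0 ≤ κ * T := by positivity
    linarith
  · obtain ⟨r, hr'⟩ : ∃ r, T % t1 = r + 1 := ⟨T % t1 - 1, by omega⟩
    have hB := bd_mul hP NJ hN0 hNadd f W 1 1 one_pos hone r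
    rw [mul_one, mul_one] at hB
    have hC := bd_add hP NJ hN0 hNadd f W ((q + 1) * t1) (r + 1) (((q : ℝ) + 1) * (κ * t1))
      ((r : ℝ) + 1) (by positivity) (by positivity) hA hB
    have e : En μ P NJ f T = En μ P NJ f ((q + 1) * t1 + (r + 1)) := by
      rw [← hr', ← hdiv]
    rw [e]
    refine hC.trans (hmono _ (by positivity) ?_)
    have hrr : ((T % t1 : ℕ) : ℝ) = (r : ℝ) + 1 := by
      rw [hr']
      push_cast
      ring
    have h5 : ((q : ℝ) + 1) * (κ * t1) ≤ κ * T := by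
      rw [hTr]
      nlinarith
    rw [hrr] at hr1
    linarith

end Vale.Agent.P125.Alpha.AllT
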