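import Vale.Agent.P125.Alpha.Alt

/-!
# P125 (alpha) : every alternation costs variation
-/

namespace Vale.Agent.P125.Alpha

open Finset

/-- increment bounded by the variation on the interval -/
theorem abs_sub_le_var (G : ℕ → ℝ) {x y : ℕ} (h : x ≤ y) :
    |G y - G x| ≤ ∑ i ∈ Finset.Ico x y, |G (i + 1) - G i| := by
  induction y, h using Nat.le_induction with
  | base => simp
  | succ y hxy ih =>
    rw [Finset.sum_Ico_succ_top hxy]
    have e : G (y + 1) - G x = (G y - G x) + (G (y + 1) - G y) := by ring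
    rw [e]
    exact (abs_add_le _ _).trans (by linarith)

variable {α : Type*} [LinearOrder α]

private theorem var_aux (A B : Finset α) (pos : α → ℕ) (hpos : StrictMono pos) (n : ℕ)
    (hn : ∀ x ∈ A ∪ B, pos x ≤ n) (G : ℕ → ℝ) (a : ℝ) (hA : ∀ x ∈ A, a ≤ G (pos x))
    (hB : ∀ x ∈ B, G (pos x) ≤ -a) :
    ∀ (l : List α) (b : Bool) (x : α), IsAlt A B b (x :: l) →
      (l.length : ℝ) * (2 * a) ≤ ∑ i ∈ Finset.Ico (pos x) n, |G (i + 1) - G i| := by
  intro l
  induction l with
  | nil =>
    intro b x _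
    simp only [List.length_nil, Nat.cast_zero, zero_mul]
    exact Finset.sum_nonneg (fun i _ => abs_nonneg _)
  | cons y l ih =>
    intro b x h
    have hxy : x < y := (List.pairwise_cons.1 h.1).1 y (List.mem_cons_self)
    have htail : IsAlt A B (!b) (y :: l) := by
      refine ⟨(List.pairwise_cons.1 h.1).2, ?_⟩
      cases b
      · exact h.2.2
      · exact h.2.2
    have h1 := ih (!b) y htail
    have hpxy : pos x ≤ pos y := (hpos hxy).le
    have hyn : pos y ≤ n := hn y (Pat.subset _ _ htail.2 y (List.mem_cons_self))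
    have h2 := abs_sub_le_var G hpxy
    have h3 : 2 * a ≤ |G (pos y) - G (pos x)| := by
      cases b
      · have hx : G (pos x) ≤ -a := hB x h.2.1
        have hy : a ≤ G (pos y) := hA y h.2.2.1
        exact le_trans (by linarith) (le_abs_self _)
      · have hx : a ≤ G (pos x) := hA x h.2.1
        have hy : G (pos y) ≤ -a := hB y h.2.2.1
        exact le_trans (by linarith) (neg_le_abs _)
    rw [← Finset.sum_Ico_consecutive _ hpxy hyn]
    simp only [List.length_cons, Nat.cast_add, Nat.cast_one]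
    linarith

/-- (e)/(P1): `(altLen - 1) * 2 a` is at most the total variation -/
theorem altLen_var (A B : Finset α) (pos : α → ℕ) (hpos : StrictMono pos) (n : ℕ)
    (hn : ∀ x ∈ A ∪ B, pos x ≤ n) (G : ℕ → ℝ) (a : ℝ) (hA : ∀ x ∈ A, a ≤ G (pos x))
    (hB : ∀ x ∈ B, G (pos x) ≤ -a) (hne : (A ∪ B).Nonempty) :
    ((altLen A B : ℝ) - 1) * (2 * a) ≤ ∑ i ∈ Finset.range n, |G (i + 1) - G i| := by
  obtain ⟨b, l, hl, hlen⟩ := exists_altLen A B
  have hp := altLen_pos hne
  cases l with
  | nil => simp at hlen; omega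
  | cons x l =>
    have h1 := var_aux A B pos hpos n hn G a hA hB l b x hl
    have h2 : ∑ i ∈ Finset.Ico (pos x) n, |G (i + 1) - G i| ≤
        ∑ i ∈ Finset.range n, |G (i + 1) - G i| := by
      apply Finset.sum_le_sum_of_subset_of_nonneg
      · intro i hi
        exact Finset.mem_range.2 (Finset.mem_Ico.1 hi).2
      · intro i _ _
        exact abs_nonneg _
    have h3 : (altLen A B : ℝ) - 1 = (l.length : ℝ) := by
      rw [← hlen]
      simp
    rw [h3]
    exact h1.trans h2

end Vale.Agent.P125.Alpha
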