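import Vale.Agent.P125.Alpha.Final53
import Vale.Agent.P125.Alpha.Window
import Vale.Agent.P125.Alpha.AltVar
import Vale.Agent.P125.BV.Abs27

set_option linter.unusedSectionVars false
set_option linter.unusedVariables false

/-!
# P125 (alpha): the concrete instance of (BV) and the final theorem
-/

namespace Vale.Agent.P125.Alpha

open Vale.Agent.P125.Dich Vale.Agent.P125.Char
open scoped BigOperators

section norms

variable {n : ℕ}

lemma pre_add (u v : Fin n → ℝ) (k : ℕ) : pre (u + v) k = pre u k + pre v k := by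
  unfold pre
  rw [← Finset.sum_add_distrib]
  refine Finset.sum_congr rfl fun i _ => ?_
  split_ifs <;> simp

lemma pre_zero (k : ℕ) : pre (0 : Fin n → ℝ) k = 0 := by simp [pre]

lemma pre_neg (v : Fin n → ℝ) (k : ℕ) : pre (-v) k = - pre v k := by
  unfold pre
  rw [← Finset.sum_neg_distrib]
  refine Finset.sum_congr rfl fun i _ => ?_
  split_ifs <;> simp

lemma pre_sm {M : Type} (w : M → Fin n → ℝ) (l : List M) (k : ℕ) :
    pre (sm w l) k = (l.map (fun m => pre (w m) k)).sum := by
  induction l with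
  | nil => simp [sm, pre_zero]
  | cons m l ih =>
    have h2 : sm w (m :: l) = w m + sm w l := by simp [sm]
    rw [h2, pre_add, ih]
    simp

lemma abs_pre_le_nJ (v : Fin n → ℝ) (k : ℕ) (hk : k ≤ n) : |pre v k| ≤ nJ v :=
  Finset.le_sup' (fun k => |pre v k|) (Finset.mem_range.2 (Nat.lt_succ_of_le hk))

lemma exists_nJ (v : Fin n → ℝ) : ∃ k, k ≤ n ∧ nJ v = |pre v k| := by
  obtain ⟨k, hk, h⟩ := Finset.exists_mem_eq_sup' (⟨0, by simp⟩ : (Finset.range (n + 1)).Nonempty)
    (fun k => |pre v k|)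
  exact ⟨k, Nat.lt_succ_iff.1 (Finset.mem_range.1 hk), h⟩

lemma nJ_neg (v : Fin n → ℝ) : nJ (-v) = nJ v := by
  unfold nJ
  simp only [pre_neg, abs_neg]

lemma abs_list_sum_le {M : Type} (f N : M → ℝ) (h : ∀ m, |f m| ≤ N m) (l : List M) :
    |(l.map f).sum| ≤ (l.map N).sum := by
  induction l with
  | nil => simp
  | cons m l ih =>
    simp only [List.map_cons, List.sum_cons]
    exact (abs_add_le _ _).trans (add_le_add (h m) ih)

lemma nJ_sm_le {M : Type} (w : M → Fin n → ℝ) (l : List M) :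
    nJ (sm w l) ≤ (l.map (fun m => nJ (w m))).sum := by
  obtain ⟨k, hk, h⟩ := exists_nJ (sm w l)
  rw [h, pre_sm]
  exact abs_list_sum_le _ _ (fun m => abs_pre_le_nJ (w m) k hk) l

lemma pre_succ_sub (v : Fin n → ℝ) (i : Fin n) : pre v (i.val + 1) - pre v i.val = v i := by
  unfold pre
  rw [← Finset.sum_sub_distrib, Finset.sum_eq_single i]
  · simp
  · intro j _ hj
    have hne : j.val ≠ i.val := fun h => hj (Fin.ext h)
    by_cases h1 : j.val < i.val
    · have h2 : j.val < i.val + 1 := by omega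
      simp [h1, h2]
    · have h2 : ¬ j.val < i.val + 1 := by omega
      simp [h1, h2]
  · intro h
    exact absurd (Finset.mem_univ _) h

lemma var_pre (v : Fin n → ℝ) :
    ∑ i ∈ Finset.range n, |pre v (i + 1) - pre v i| = n1 v := by
  rw [Finset.sum_range]
  unfold n1
  refine Finset.sum_congr rfl fun i _ => ?_
  rw [pre_succ_sub]

end norms

section inst

variable {n : ℕ} {S M : Type} [Fintype S] [Fintype M]

/-- the profile of a mark -/
def gW (w : M → Fin n → ℝ) : M → Fin (n + 1) → ℝ := fun m k => pre (w m) k.val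

/-- the size of a mark -/
noncomputable def NW (w : M → Fin n → ℝ) : M → ℝ := fun m => nJ (w m)

lemma hg53 (w : M → Fin n → ℝ) : ∀ e k, |gW w e k| ≤ NW w e :=
  fun e k => abs_pre_le_nJ (w e) k.val (Nat.lt_succ_iff.1 k.isLt)

lemma hN53 (w : M → Fin n → ℝ) : ∀ e, 0 ≤ NW w e := fun e => nJ_nonneg _

lemma dA_eq (w : M → Fin n → ℝ) (l : List M) (k : Fin (n + 1)) :
    dA (gW w) (NW w) l k = (l.map (NW w)).sum - pre (sm w l) k.val := by
  rw [pre_sm]
  induction l with
  | nil => simp [dA]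
  | cons m l ih =>
    unfold dA at ih ⊢
    simp only [List.map_cons, List.sum_cons]
    rw [ih]
    unfold gW
    ring

lemma dB_eq (w : M → Fin n → ℝ) (l : List M) (k : Fin (n + 1)) :
    dB (gW w) (NW w) l k = (l.map (NW w)).sum + pre (sm w l) k.val := by
  rw [pre_sm]
  induction l with
  | nil => simp [dB]
  | cons m l ih =>
    unfold dB at ih ⊢
    simp only [List.map_cons, List.sum_cons]
    rw [ih]
    unfold gW
    ring

lemma ok_of_wt_ne (w : M → Fin n → ℝ) (l : List M) (h : wt (gW w) (NW w) l ≠ 0) :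
    okW (gW w) (NW w) l := by
  by_contra hn
  apply h
  unfold wt
  rw [if_neg hn]

theorem pot53 (C : MChain S M) (w : M → Fin n → ℝ) (hw : ∀ m, w (C.inv m) = - w m) :
    Vale.Agent.P125.BV27.Pot C (wt (gW w) (NW w)) (sgW (gW w) (NW w)) (cW (gW w) (NW w)) := by
  have hNi : ∀ e, NW w (C.inv e) = NW w e := by
    intro e
    unfold NW
    rw [hw, nJ_neg]
  have hgi : ∀ e k, gW w (C.inv e) k = - gW w e k := by
    intro e k
    unfold gW
    rw [hw, pre_neg]
  have hg := hg53 w
  have hN := hN53 w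
  refine ⟨wt_nonneg, wt_rev C.inv hNi hgi, sgW_eq_or, ?_, ?_, ?_, ?_, ?_, ?_, ?_⟩
  · intro l hl
    have h1 := wt_mul_sgW_rev C.inv hg hNi hgi l
    rw [wt_rev C.inv hNi hgi] at h1
    have h2 : wt (gW w) (NW w) l *
        (sgW (gW w) (NW w) ((l.map C.inv).reverse) + sgW (gW w) (NW w) l) = 0 := by
      rw [mul_add, h1]
      ring
    rcases mul_eq_zero.1 h2 with h3 | h3
    · exact absurd h3 hl
    · linarith
  · exact fun l1 l2 h1 _ => wt_append_le_left hg l1 l2 h1
  · exact fun l1 l2 _ h2 => wt_append_le_right hg l1 l2 h2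
  · exact fun l1 l2 h1 _ _ =>
      altLen_mono (Aset_append_left hg l1 l2 h1) (Bset_append_left hg l1 l2 h1)
  · exact fun l1 l2 _ h2 _ =>
      altLen_mono (Aset_append_right hg l1 l2 h2) (Bset_append_right hg l1 l2 h2)
  · intro l1 l2 h1 h2 hmu hc
    have hok := ok_of_wt_ne w _ hmu
    have hok1 := okW_left hg l1 l2 h1 hok
    unfold sgW
    rw [altSig_eq_of_altLen_eq (Aset_append_left hg l1 l2 h1) (Bset_append_left hg l1 l2 h1)
      (disjoint_AB hN l1 h1 hok1.1) hok.2.2 hc]
  · intro l1 l2 h1 h2 hmu hc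
    have hok := ok_of_wt_ne w _ hmu
    have hok2 := okW_right hg l1 l2 h2 hok
    unfold sgW
    rw [altSig_eq_of_altLen_eq (Aset_append_right hg l1 l2 h2) (Bset_append_right hg l1 l2 h2)
      (disjoint_AB hN l2 h2 hok2.1) hok.2.2 hc]

lemma link53 (w : M → Fin n → ℝ) (l : List M) (hl : l ≠ []) (h0 : 0 < mnW (NW w) l)
    (h1 : mxW (NW w) l ≤ 2 * mnW (NW w) l)
    (h2 : (l.map (NW w)).sum - nJ (sm w l) ≤ mnW (NW w) l / 4) :
    wt (gW w) (NW w) l = mnW (NW w) l := by
  have hok : okW (gW w) (NW w) l := by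
    refine ⟨h0, h1, ?_⟩
    obtain ⟨k, hk, hT⟩ := exists_nJ (sm w l)
    refine ⟨⟨k, Nat.lt_succ_of_le hk⟩, ?_⟩
    rw [Finset.mem_union]
    rcases le_total 0 (pre (sm w l) k) with hs | hs
    · left
      unfold Aset
      rw [Finset.mem_filter]
      refine ⟨Finset.mem_univ _, ?_⟩
      rw [dA_eq]
      rw [hT, abs_of_nonneg hs] at h2
      exact h2
    · right
      unfold Bset
      rw [Finset.mem_filter]
      refine ⟨Finset.mem_univ _, ?_⟩
      rw [dB_eq]
      rw [hT, abs_of_nonpos hs] at h2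
      simpa using h2
  unfold wt
  rw [if_pos hok]

lemma mnW_single (w : M → Fin n → ℝ) (m : M) : mnW (NW w) [m] = NW w m := by
  simp [mnW, mnL]

lemma one53 (w : M → Fin n → ℝ) (m : M) :
    wt (gW w) (NW w) [m] ^ 2 * (cW (gW w) (NW w) [m] : ℝ) ≤
      NW w m ^ 2 + NW w m * n1 (w m) := by
  have hN : 0 ≤ NW w m := hN53 w m
  have hV : 0 ≤ n1 (w m) := n1_nonneg _
  by_cases hok : okW (gW w) (NW w) [m]
  · have hwt : wt (gW w) (NW w) [m] = NW w m := by
      unfold wt
      rw [if_pos hok, mnW_single]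
    rw [hwt]
    have hv := altLen_var (Aset (gW w) (NW w) [m]) (Bset (gW w) (NW w) [m])
      (fun k : Fin (n + 1) => k.val) Fin.val_strictMono n
      (fun x _ => Nat.lt_succ_iff.1 x.isLt) (pre (w m)) (3 / 4 * NW w m)
      (by
        intro x hx
        have h := (Finset.mem_filter.1 hx).2
        rw [mnW_single] at h
        simp only [dA, List.map_cons, List.map_nil, List.sum_cons, List.sum_nil, gW] at h
        linarith)
      (by
        intro x hx
        have h := (Finset.mem_filter.1 hx).2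
        rw [mnW_single] at h
        simp only [dB, List.map_cons, List.map_nil, List.sum_cons, List.sum_nil, gW] at h
        linarith)
      hok.2.2
    rw [var_pre] at hv
    have hc : (1 : ℝ) ≤ (cW (gW w) (NW w) [m] : ℝ) := by
      have := altLen_pos hok.2.2
      exact_mod_cast this
    unfold cW at hc ⊢
    set c : ℝ := (altLen (Aset (gW w) (NW w) [m]) (Bset (gW w) (NW w) [m]) : ℝ) with hcdef
    have h3 : (c - 1) * NW w m ≤ n1 (w m) := by
      have h4 : 0 ≤ (c - 1) * NW w m := mul_nonneg (by linarith) hN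
      nlinarith
    nlinarith
  · have hwt : wt (gW w) (NW w) [m] = 0 := by
      unfold wt
      rw [if_neg hok]
    rw [hwt]
    have : 0 ≤ NW w m * n1 (w m) := mul_nonneg hN hV
    nlinarith [sq_nonneg (NW w m)]

lemma one53' (w : M → Fin n → ℝ) (m : M) :
    wt (gW w) (NW w) [m] ^ 2 ≤ NW w m ^ 2 := by
  by_cases hok : okW (gW w) (NW w) [m]
  · have hwt : wt (gW w) (NW w) [m] = NW w m := by
      unfold wt
      rw [if_pos hok, mnW_single]
    rw [hwt]
  · have hwt : wt (gW w) (NW w) [m] = 0 := by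
      unfold wt
      rw [if_neg hok]
    rw [hwt]
    nlinarith [sq_nonneg (NW w m)]

end inst

/-- (BV) for marked chains -/
theorem bvm : BVm := by
  intro n S M _ _ C w hw L
  have key := Vale.Agent.P125.BV27.bv_abstract C (NW w) (fun m => n1 (w m))
    (fun l => nJ (sm w l)) (mnW (NW w)) (mxW (NW w))
    (wt (gW w) (NW w)) (sgW (gW w) (NW w)) (cW (gW w) (NW w)) (pot53 C w hw)
    (hN53 w) (fun l => nJ_nonneg _) (fun l => nJ_sm_le w l)
    (fun l hl => mnL_mem _ (by simpa using hl))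
    (fun l hl => mxL_mem _ (by simpa using hl))
    (fun l x hx => ⟨mnL_le _ x hx, le_mxL _ x hx⟩)
    (fun l hl h0 h1 h2 => link53 w l hl h0 h1 h2)
    (one53 w) (one53' w) L
  have e1 : C.E 1 (fun l => (l.map (fun m => NW w m ^ 2)).sum)
      = C.E 1 (fun l => nJ (sm w l) ^ 2) := by
    apply E_congr
    intro l hl
    obtain ⟨m, rfl⟩ := List.length_eq_one_iff.1 hl
    simp [sm, NW]
  have e2 : C.E 1 (fun l => (l.map (fun m => NW w m * n1 (w m))).sum)
      = C.E 1 (fun l => nJ (sm w l) * n1 (sm w l)) := by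
    apply E_congr
    intro l hl
    obtain ⟨m, rfl⟩ := List.length_eq_one_iff.1 hl
    simp [sm, NW]
  rw [e1, e2] at key
  exact key

/-- (alpha): the summing operators are uniformly sub-ballistic for reversible chains -/
theorem alpha53 : ∀ ε : ℝ, 0 < ε → ∃ t : ℕ, 1 ≤ t ∧ RA t ε := alpha_of_BVm bvm

end Vale.Agent.P125.Alpha
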