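import Vale.Agent.P125.Char.Back2
import Vale.Agent.P125.Dich.Iter
import Vale.Agent.P125.Alpha.Iterate

set_option linter.unusedSectionVars false
set_option linter.unusedVariables false

/-!
# P125, (BV) ⟹ (alpha): the function form wrapper

`NJ`, `N1` are two size functions on `Fin n → ℝ` (the summing norm and the `ℓ_1` norm).  From the
finitary inequality (BV) for marked reversible chains we get: for every `ε > 0` there is a time `t`
such that for all `n`, all stationary reversible chains and all `f : S → ℝ^n`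
`E NJ (f Z_t - f Z_0)^2 ≤ ε t^2 E N1 (f Z_1 - f Z_0)^2`.
-/

namespace Vale.Agent.P125.Alpha

open scoped BigOperators
open Vale.Agent.P125.Dich

namespace W38

variable {S : Type} [Fintype S] [DecidableEq S]

/-- the energy of `Ψ (f j - f i)` at time `t` -/
def En {X : Type*} [AddCommGroup X] (μ : S → ℝ) (P : Matrix S S ℝ) (f : S → X) (Ψ : X → ℝ)
    (t : ℕ) : ℝ := ∑ i, ∑ j, μ i * (P ^ t) i j * Ψ (f j - f i)

lemma stat {μ : S → ℝ} {P : Matrix S S ℝ} (h : IsChain μ P) (k : S) :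
    ∑ i, μ i * P i k = μ k := by
  obtain ⟨h1, h2, h3, h4, h5⟩ := h
  calc ∑ i, μ i * P i k = ∑ i, μ k * P k i := Finset.sum_congr rfl fun i _ => h5 i k
    _ = μ k := by rw [← Finset.mul_sum, h4 k, mul_one]

/-- Minkowski: the trivial bound `t^2` for a subadditive size function -/
lemma minkowski {X : Type*} [AddCommGroup X] {μ : S → ℝ} {P : Matrix S S ℝ} (h : IsChain μ P)
    (f : S → X) (N : X → ℝ) (hN0 : ∀ x, 0 ≤ N x) (hNz : N 0 = 0)
    (hN : ∀ x y, N (x + y) ≤ N x + N y) (t : ℕ) :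
    ∑ i, ∑ j, μ i * (P ^ t) i j * N (f j - f i) ^ 2 ≤
      (t : ℝ) ^ 2 * ∑ i, ∑ j, μ i * P i j * N (f j - f i) ^ 2 := by
  have hU : 0 ≤ ∑ i, ∑ j, μ i * P i j * N (f j - f i) ^ 2 := by
    obtain ⟨h1, h2, h3, h4, h5⟩ := h
    exact Finset.sum_nonneg fun i _ => Finset.sum_nonneg fun j _ =>
      mul_nonneg (mul_nonneg (h1 i) (h3 i j)) (sq_nonneg _)
  induction t with
  | zero =>
    have : ∑ i, ∑ j, μ i * (P ^ 0) i j * N (f j - f i) ^ 2 = 0 := by
      refine Finset.sum_eq_zero fun i _ => Finset.sum_eq_zero fun j _ => ?_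
      rw [pow_zero, Matrix.one_apply]
      by_cases hij : i = j
      · subst hij
        simp [hNz]
      · simp [hij]
    rw [this]
    simp
  | succ t ih =>
    rcases Nat.eq_zero_or_pos t with rfl | ht
    · simp
    have htr : (0 : ℝ) < t := by exact_mod_cast ht
    obtain ⟨q1, q2, q3, q4, q5⟩ := isChain_pow h t
    obtain ⟨h1, h2, h3, h4, h5⟩ := h
    have hst : ∀ k, ∑ i, μ i * (P ^ t) i k = μ k := fun k => stat ⟨q1, q2, q3, q4, q5⟩ k
    -- expand
    have e1 : ∑ i, ∑ j, μ i * (P ^ (t + 1)) i j * N (f j - f i) ^ 2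
        = ∑ i, ∑ j, ∑ k, μ i * (P ^ t) i k * P k j * N (f j - f i) ^ 2 := by
      refine Finset.sum_congr rfl fun i _ => Finset.sum_congr rfl fun j _ => ?_
      rw [pow_succ, Matrix.mul_apply, Finset.mul_sum, Finset.sum_mul]
      refine Finset.sum_congr rfl fun k _ => ?_
      ring
    have e2 : ∑ i, ∑ j, ∑ k, μ i * (P ^ t) i k * P k j * N (f j - f i) ^ 2 ≤
        ∑ i, ∑ j, ∑ k, μ i * (P ^ t) i k * P k j *
          ((1 + 1 / (t : ℝ)) * N (f k - f i) ^ 2 + (1 + (t : ℝ)) * N (f j - f k) ^ 2) := by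
      refine Finset.sum_le_sum fun i _ => Finset.sum_le_sum fun j _ =>
        Finset.sum_le_sum fun k _ => ?_
      apply mul_le_mul_of_nonneg_left _ (mul_nonneg (mul_nonneg (h1 i) (q3 i k)) (h3 k j))
      have a1 : N (f j - f i) ≤ N (f k - f i) + N (f j - f k) := by
        have := hN (f k - f i) (f j - f k)
        have e : f k - f i + (f j - f k) = f j - f i := by abel
        rwa [e] at this
      have a2 : N (f j - f i) ^ 2 ≤ (N (f k - f i) + N (f j - f k)) ^ 2 :=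
        pow_le_pow_left₀ (hN0 _) a1 2
      set a := N (f k - f i)
      set b := N (f j - f k)
      have a3 : 2 * a * b ≤ (1 / (t : ℝ)) * a ^ 2 + (t : ℝ) * b ^ 2 := by
        have hh : 0 ≤ (1 / (t : ℝ)) * (a - (t : ℝ) * b) ^ 2 := by positivity
        have e : (1 / (t : ℝ)) * (a - (t : ℝ) * b) ^ 2
            = (1 / (t : ℝ)) * a ^ 2 - 2 * a * b + (t : ℝ) * b ^ 2 := by
          field_simp
          ring
        linarith
      nlinarith
    have e3 : ∑ i, ∑ j, ∑ k, μ i * (P ^ t) i k * P k j *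
          ((1 + 1 / (t : ℝ)) * N (f k - f i) ^ 2 + (1 + (t : ℝ)) * N (f j - f k) ^ 2)
        = (1 + 1 / (t : ℝ)) * ∑ i, ∑ k, μ i * (P ^ t) i k * N (f k - f i) ^ 2
          + (1 + (t : ℝ)) * ∑ k, ∑ j, μ k * P k j * N (f j - f k) ^ 2 := by
      have p1 : ∑ i, ∑ j, ∑ k, μ i * (P ^ t) i k * P k j * ((1 + 1 / (t : ℝ)) * N (f k - f i) ^ 2)
          = (1 + 1 / (t : ℝ)) * ∑ i, ∑ k, μ i * (P ^ t) i k * N (f k - f i) ^ 2 := by
        rw [Finset.mul_sum]
        refine Finset.sum_congr rfl fun i _ => ?_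
        rw [Finset.sum_comm, Finset.mul_sum]
        refine Finset.sum_congr rfl fun k _ => ?_
        calc ∑ j, μ i * (P ^ t) i k * P k j * ((1 + 1 / (t : ℝ)) * N (f k - f i) ^ 2)
            = (μ i * (P ^ t) i k * ((1 + 1 / (t : ℝ)) * N (f k - f i) ^ 2)) * ∑ j, P k j := by
              rw [Finset.mul_sum]
              refine Finset.sum_congr rfl fun j _ => ?_
              ring
          _ = _ := by rw [h4 k]; ring
      have p2 : ∑ i, ∑ j, ∑ k, μ i * (P ^ t) i k * P k j * ((1 + (t : ℝ)) * N (f j - f k) ^ 2)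
          = (1 + (t : ℝ)) * ∑ k, ∑ j, μ k * P k j * N (f j - f k) ^ 2 := by
        rw [Finset.mul_sum]
        calc ∑ i, ∑ j, ∑ k, μ i * (P ^ t) i k * P k j * ((1 + (t : ℝ)) * N (f j - f k) ^ 2)
            = ∑ i, ∑ k, ∑ j, μ i * (P ^ t) i k * P k j * ((1 + (t : ℝ)) * N (f j - f k) ^ 2) :=
              Finset.sum_congr rfl fun i _ => Finset.sum_comm
          _ = ∑ k, ∑ i, ∑ j, μ i * (P ^ t) i k * P k j * ((1 + (t : ℝ)) * N (f j - f k) ^ 2) :=
              Finset.sum_comm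
          _ = ∑ k, (1 + (t : ℝ)) * ∑ j, μ k * P k j * N (f j - f k) ^ 2 := by
              refine Finset.sum_congr rfl fun k _ => ?_
              calc ∑ i, ∑ j, μ i * (P ^ t) i k * P k j * ((1 + (t : ℝ)) * N (f j - f k) ^ 2)
                  = ∑ i, (μ i * (P ^ t) i k) *
                      ∑ j, P k j * ((1 + (t : ℝ)) * N (f j - f k) ^ 2) := by
                    refine Finset.sum_congr rfl fun i _ => ?_
                    rw [Finset.mul_sum]
                    refine Finset.sum_congr rfl fun j _ => ?_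
                    ring
                _ = (∑ i, μ i * (P ^ t) i k) *
                      ∑ j, P k j * ((1 + (t : ℝ)) * N (f j - f k) ^ 2) := by
                    rw [Finset.sum_mul]
                _ = μ k * ∑ j, P k j * ((1 + (t : ℝ)) * N (f j - f k) ^ 2) := by rw [hst k]
                _ = _ := by
                    rw [Finset.mul_sum, Finset.mul_sum]
                    refine Finset.sum_congr rfl fun j _ => ?_
                    ring
      rw [← p1, ← p2, ← Finset.sum_add_distrib]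
      refine Finset.sum_congr rfl fun i _ => ?_
      rw [← Finset.sum_add_distrib]
      refine Finset.sum_congr rfl fun j _ => ?_
      rw [← Finset.sum_add_distrib]
      refine Finset.sum_congr rfl fun k _ => ?_
      ring
    rw [e1]
    refine le_trans e2 ?_
    rw [e3]
    set U := ∑ i, ∑ j, μ i * P i j * N (f j - f i) ^ 2
    have c1 : (1 + 1 / (t : ℝ)) * ∑ i, ∑ k, μ i * (P ^ t) i k * N (f k - f i) ^ 2
        ≤ (1 + 1 / (t : ℝ)) * ((t : ℝ) ^ 2 * U) :=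
      mul_le_mul_of_nonneg_left ih (by positivity)
    have c2 : (1 + 1 / (t : ℝ)) * ((t : ℝ) ^ 2 * U) + (1 + (t : ℝ)) * U
        = ((t + 1 : ℕ) : ℝ) ^ 2 * U := by
      push_cast
      field_simp
      ring
    linarith

end W38

/-- the statement `R t a`: the summing-norm energy at time `t` is at most `a t^2` times the
`ℓ_1` energy at time one, uniformly in the dimension, the chain and the function -/
def RJ (NJ N1 : ∀ n : ℕ, (Fin n → ℝ) → ℝ) (t : ℕ) (a : ℝ) : Prop :=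
  ∀ (n : ℕ) (S : Type) [Fintype S] [DecidableEq S] (μ : S → ℝ) (P : Matrix S S ℝ), IsChain μ P →
    ∀ f : S → Fin n → ℝ,
      ∑ i, ∑ j, μ i * (P ^ t) i j * NJ n (f j - f i) ^ 2 ≤
        a * (t : ℝ) ^ 2 * ∑ i, ∑ j, μ i * P i j * N1 n (f j - f i) ^ 2

/-- the finitary inequality (BV) for marked chains -/
def BVstmt (NJ N1 : ∀ n : ℕ, (Fin n → ℝ) → ℝ) : Prop :=
  ∀ (n L : ℕ) (S M : Type) [Fintype S] [Fintype M] (C : MChain S M) (G : M → Fin n → ℝ),
    (∀ m, G (C.inv m) = - G m) →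
      C.E (2 ^ L) (fun l => NJ n (sm G l) ^ 2) ≤
        ((2 : ℝ) ^ L) ^ 2 * C.E 1 (fun l => NJ n (sm G l) ^ 2)
          - ((2 : ℝ) ^ L / 16) * (C.E 1 (fun l => NJ n (sm G l) ^ 2)
            - 4 * (5 * C.E 1 (fun l => NJ n (sm G l) ^ 2)
                + 4 * C.E 1 (fun l => NJ n (sm G l) * N1 n (sm G l))) / ((L : ℝ) + 1))

theorem RJ_step (NJ N1 : ∀ n : ℕ, (Fin n → ℝ) → ℝ)
    (hJ0 : ∀ n x, 0 ≤ NJ n x) (h10 : ∀ n x, 0 ≤ N1 n x)
    (h1z : ∀ n, N1 n 0 = 0) (h1add : ∀ n x y, N1 n (x + y) ≤ N1 n x + N1 n y)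
    (hBV : BVstmt NJ N1) (t L : ℕ) (a : ℝ) (ht : 1 ≤ t) (ha : 0 < a)
    (hL : 32 * (5 / 4 + 1 / Real.sqrt a) ≤ (L : ℝ) + 1) (hR : RJ NJ N1 t a) :
    RJ NJ N1 (2 ^ L * t) (a * (1 - 1 / (32 * 2 ^ L))) := by
  intro n S _ _ μ P hP f
  have hPt := isChain_pow hP t
  obtain ⟨q1, q2, q3, q4, q5⟩ := hPt
  have key := hBV n L S (S × S) (Char.backChain μ (P ^ t) q1 q2 q3 q4 q5)
    (fun m : S × S => f m.2 - f m.1)
    (by
      intro m
      have : (Char.backChain μ (P ^ t) q1 q2 q3 q4 q5).inv m = Prod.swap m := rfl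
      rw [this]
      simp)
  rw [Char.back_E μ (P ^ t) q1 q2 q3 q4 q5 f (2 ^ L) (fun u => NJ n u ^ 2),
    Char.back_E μ (P ^ t) q1 q2 q3 q4 q5 f 1 (fun u => NJ n u ^ 2),
    Char.back_E μ (P ^ t) q1 q2 q3 q4 q5 f 1 (fun u => NJ n u * N1 n u), pow_one] at key
  set U := ∑ i, ∑ j, μ i * P i j * N1 n (f j - f i) ^ 2 with hU
  have hU0 : 0 ≤ U := by
    obtain ⟨h1, h2, h3, h4, h5⟩ := hP
    exact Finset.sum_nonneg fun i _ => Finset.sum_nonneg fun j _ =>
      mul_nonneg (mul_nonneg (h1 i) (h3 i j)) (sq_nonneg _)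
  set EN := ∑ i, ∑ j, μ i * (P ^ t) i j * NJ n (f j - f i) ^ 2 with hEN
  set ENV := ∑ i, ∑ j, μ i * (P ^ t) i j * (NJ n (f j - f i) * N1 n (f j - f i)) with hENV
  set EV := ∑ i, ∑ j, μ i * (P ^ t) i j * N1 n (f j - f i) ^ 2 with hEV
  have b1 : EN ≤ a * ((t : ℝ) ^ 2 * U) := by
    have := hR n S μ P hP f
    linarith
  have b2 : EV ≤ (t : ℝ) ^ 2 * U :=
    W38.minkowski hP f (N1 n) (h10 n) (h1z n) (h1add n) t
  have hs : 0 < Real.sqrt a := Real.sqrt_pos.2 ha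
  have hss : Real.sqrt a * Real.sqrt a = a := Real.mul_self_sqrt ha.le
  have b3 : ENV ≤ (1 / (2 * Real.sqrt a)) * EN + (Real.sqrt a / 2) * EV := by
    rw [hENV, hEN, hEV, Finset.mul_sum, Finset.mul_sum, ← Finset.sum_add_distrib]
    refine Finset.sum_le_sum fun i _ => ?_
    rw [Finset.mul_sum, Finset.mul_sum, ← Finset.sum_add_distrib]
    refine Finset.sum_le_sum fun j _ => ?_
    have hw : 0 ≤ μ i * (P ^ t) i j := mul_nonneg (q1 i) (q3 i j)
    set x := NJ n (f j - f i)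
    set y := N1 n (f j - f i)
    have c : x * y ≤ (1 / (2 * Real.sqrt a)) * x ^ 2 + (Real.sqrt a / 2) * y ^ 2 := by
      have hh : 0 ≤ (1 / (2 * Real.sqrt a)) * (x - Real.sqrt a * y) ^ 2 := by positivity
      have e : (1 / (2 * Real.sqrt a)) * (x - Real.sqrt a * y) ^ 2
          = (1 / (2 * Real.sqrt a)) * x ^ 2 - x * y + (Real.sqrt a / 2) * y ^ 2 := by
        field_simp
        ring
      linarith
    calc μ i * (P ^ t) i j * (x * y)
        ≤ μ i * (P ^ t) i j * ((1 / (2 * Real.sqrt a)) * x ^ 2 + (Real.sqrt a / 2) * y ^ 2) :=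
          mul_le_mul_of_nonneg_left c hw
      _ = _ := by ring
  have hT0 : 0 ≤ (t : ℝ) ^ 2 * U := by positivity
  have b4 : ENV ≤ Real.sqrt a * ((t : ℝ) ^ 2 * U) := by
    have d1 : (1 / (2 * Real.sqrt a)) * EN ≤ (1 / (2 * Real.sqrt a)) * (a * ((t : ℝ) ^ 2 * U)) :=
      mul_le_mul_of_nonneg_left b1 (by positivity)
    have d2 : (Real.sqrt a / 2) * EV ≤ (Real.sqrt a / 2) * ((t : ℝ) ^ 2 * U) :=
      mul_le_mul_of_nonneg_left b2 (by positivity)
    have d3 : (1 / (2 * Real.sqrt a)) * (a * ((t : ℝ) ^ 2 * U))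
        = (Real.sqrt a / 2) * ((t : ℝ) ^ 2 * U) := by
      have : (1 / (2 * Real.sqrt a)) * a = Real.sqrt a / 2 := by
        field_simp
        linarith
      rw [← mul_assoc, this]
    linarith
  have hM : (1 : ℝ) ≤ 2 ^ L := one_le_pow₀ (by norm_num)
  have fin := bv_to_step _ EN ENV ((t : ℝ) ^ 2 * U) a ((2 : ℝ) ^ L) ((L : ℝ) + 1) hM
    (by positivity) ha hT0 b1 b4 hL key
  have e : (P ^ t) ^ (2 ^ L) = P ^ (2 ^ L * t) := by
    rw [← pow_mul, mul_comm]
  rw [e] at fin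
  calc ∑ i, ∑ j, μ i * (P ^ (2 ^ L * t)) i j * NJ n (f j - f i) ^ 2
      ≤ a * (1 - 1 / (32 * 2 ^ L)) * (((2 : ℝ) ^ L) ^ 2 * ((t : ℝ) ^ 2 * U)) := fin
    _ = a * (1 - 1 / (32 * 2 ^ L)) * ((2 ^ L * t : ℕ) : ℝ) ^ 2 * U := by
        push_cast
        ring

/-- **(BV) implies (alpha)**, function form. -/
theorem alpha_of_BV (NJ N1 : ∀ n : ℕ, (Fin n → ℝ) → ℝ)
    (hJ0 : ∀ n x, 0 ≤ NJ n x) (hJ1 : ∀ n x, NJ n x ≤ N1 n x)
    (h1z : ∀ n, N1 n 0 = 0) (h1add : ∀ n x y, N1 n (x + y) ≤ N1 n x + N1 n y)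
    (hBV : BVstmt NJ N1) :
    ∀ ε : ℝ, 0 < ε → ∃ t : ℕ, 1 ≤ t ∧ RJ NJ N1 t ε := by
  have h10 : ∀ n x, 0 ≤ N1 n x := fun n x => le_trans (hJ0 n x) (hJ1 n x)
  apply iterate_abs (RJ NJ N1)
  · intro t a b hab hR n S _ _ μ P hP f
    have hU0 : 0 ≤ ∑ i, ∑ j, μ i * P i j * N1 n (f j - f i) ^ 2 := by
      obtain ⟨h1, h2, h3, h4, h5⟩ := hP
      exact Finset.sum_nonneg fun i _ => Finset.sum_nonneg fun j _ =>
        mul_nonneg (mul_nonneg (h1 i) (h3 i j)) (sq_nonneg _)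
    refine le_trans (hR n S μ P hP f) ?_
    apply mul_le_mul_of_nonneg_right _ hU0
    apply mul_le_mul_of_nonneg_right hab (by positivity)
  · intro n S _ _ μ P hP f
    obtain ⟨h1, h2, h3, h4, h5⟩ := hP
    rw [pow_one]
    simp only [Nat.cast_one, one_pow, mul_one, one_mul]
    refine Finset.sum_le_sum fun i _ => Finset.sum_le_sum fun j _ => ?_
    apply mul_le_mul_of_nonneg_left _ (mul_nonneg (h1 i) (h3 i j))
    exact pow_le_pow_left₀ (hJ0 n _) (hJ1 n _) 2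
  · intro t L a ht ha hL hR
    exact RJ_step NJ N1 hJ0 h10 h1z h1add hBV t L a ht ha hL hR

end Vale.Agent.P125.Alpha
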