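import Vale.Agent.P125.Alpha.Window
import Vale.Agent.P125.Alpha.AltVar
import Vale.Agent.P125.Alpha.Deficit
import Vale.Agent.P125.Alpha.Wrap
import Vale.Agent.P125.BV.PotentialNE
import Vale.Agent.P125.BV.Assemble

set_option linter.unusedSectionVars false
set_option linter.unusedVariables false

/-!
# P125 (alpha) : the inequality (BV) for the summing operator, concrete form
-/

namespace Vale.Agent.P125.Alpha

open Vale.Agent.P125.Dich
open scoped BigOperators

section pot

variable {S M : Type} [Fintype S] [Fintype M] (C : MChain S M)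
variable {κ : Type} [Fintype κ] [LinearOrder κ] {g : M → κ → ℝ} {N : M → ℝ}

theorem okW_of_wt_ne {w : List M} (h : wt g N w ≠ 0) : okW g N w := by
  by_contra hn
  apply h
  unfold wt
  rw [if_neg hn]

/-- the concrete window functionals satisfy the hypotheses of the potential recursion -/
theorem potNE (hg : ∀ e k, |g e k| ≤ N e) (hNi : ∀ e, N (C.inv e) = N e)
    (hgi : ∀ e k, g (C.inv e) k = - g e k) : BV.PotNE C (wt g N) (sgW g N) (cW g N) where
  mu_nonneg := wt_nonneg
  mu_rev := wt_rev C.inv hNi hgi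
  sg_pm := sgW_eq_or
  sg_rev := by
    intro l hl
    have h1 := wt_mul_sgW_rev C.inv hg hNi hgi l
    rw [wt_rev C.inv hNi hgi] at h1
    have h2 : wt g N l * (sgW g N ((l.map C.inv).reverse) + sgW g N l) = 0 := by
      rw [mul_add]
      linarith
    rcases mul_eq_zero.1 h2 with h | h
    · exact absurd h hl
    · linarith
  mu_left := fun l1 l2 h1 _ => wt_append_le_left hg l1 l2 h1
  mu_right := fun l1 l2 _ h2 => wt_append_le_right hg l1 l2 h2
  cc_left := fun l1 l2 h1 _ _ =>
    altLen_mono (Aset_append_left hg l1 l2 h1) (Bset_append_left hg l1 l2 h1)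
  cc_right := fun l1 l2 _ h2 _ =>
    altLen_mono (Aset_append_right hg l1 l2 h2) (Bset_append_right hg l1 l2 h2)
  sg_left := by
    intro l1 l2 h1 h2 hne hc
    have hok := okW_of_wt_ne hne
    obtain ⟨k0, _⟩ := hok.2.2
    have hN : ∀ e, 0 ≤ N e := fun e => (abs_nonneg _).trans (hg e k0)
    have ok1 := okW_left hg l1 l2 h1 hok
    unfold sgW
    rw [altSig_eq_of_altLen_eq (Aset_append_left hg l1 l2 h1) (Bset_append_left hg l1 l2 h1)
      (disjoint_AB hN l1 h1 ok1.1) hok.2.2 hc]
  sg_right := by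
    intro l1 l2 h1 h2 hne hc
    have hok := okW_of_wt_ne hne
    obtain ⟨k0, _⟩ := hok.2.2
    have hN : ∀ e, 0 ≤ N e := fun e => (abs_nonneg _).trans (hg e k0)
    have ok2 := okW_right hg l1 l2 h2 hok
    unfold sgW
    rw [altSig_eq_of_altLen_eq (Aset_append_right hg l1 l2 h2) (Bset_append_right hg l1 l2 h2)
      (disjoint_AB hN l2 h2 ok2.1) hok.2.2 hc]

theorem dA_eq (w : List M) (k : κ) :
    dA g N w k = (w.map N).sum - (w.map (fun e => g e k)).sum := by
  unfold dA
  induction w with
  | nil => simp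
  | cons e w ih =>
    simp only [List.map_cons, List.sum_cons]
    rw [ih]
    ring

theorem dB_eq (w : List M) (k : κ) :
    dB g N w k = (w.map N).sum + (w.map (fun e => g e k)).sum := by
  unfold dB
  induction w with
  | nil => simp
  | cons e w ih =>
    simp only [List.map_cons, List.sum_cons]
    rw [ih]
    ring

end pot

section concrete

variable {n : ℕ}

/-- the sum of the first `k` coordinates -/
def pre (v : Fin n → ℝ) (k : ℕ) : ℝ := ∑ i : Fin n, if i.val < k then v i else 0

/-- the norm of the image under the summing operator: largest absolute value of a running sum -/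
noncomputable def nJ (n : ℕ) (v : Fin n → ℝ) : ℝ :=
  Finset.univ.sup' Finset.univ_nonempty (fun k : Fin (n + 1) => |pre v k.val|)

/-- the `ℓ_1` norm -/
def n1 (n : ℕ) (v : Fin n → ℝ) : ℝ := ∑ i, |v i|

theorem pre_add (u v : Fin n → ℝ) (k : ℕ) : pre (u + v) k = pre u k + pre v k := by
  unfold pre
  rw [← Finset.sum_add_distrib]
  apply Finset.sum_congr rfl
  intro i _
  split_ifs <;> simp

theorem pre_zero (k : ℕ) : pre (0 : Fin n → ℝ) k = 0 := by
  unfold pre
  simp

theorem pre_neg (v : Fin n → ℝ) (k : ℕ) : pre (-v) k = - pre v k := by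
  unfold pre
  rw [← Finset.sum_neg_distrib]
  apply Finset.sum_congr rfl
  intro i _
  split_ifs <;> simp

theorem pre_sm {M : Type} (w : M → Fin n → ℝ) (l : List M) (k : ℕ) :
    pre (sm w l) k = (l.map (fun m => pre (w m) k)).sum := by
  induction l with
  | nil => simp [sm, pre_zero]
  | cons m l ih =>
    have : sm w (m :: l) = w m + sm w l := by simp [sm]
    rw [this, pre_add, ih]
    simp

theorem abs_pre_le_nJ (v : Fin n → ℝ) (k : Fin (n + 1)) : |pre v k.val| ≤ nJ n v :=
  Finset.le_sup' (fun k : Fin (n + 1) => |pre v k.val|) (Finset.mem_univ k)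

theorem exists_nJ (v : Fin n → ℝ) : ∃ k : Fin (n + 1), nJ n v = |pre v k.val| := by
  obtain ⟨k, _, hk⟩ := Finset.exists_mem_eq_sup' Finset.univ_nonempty
    (fun k : Fin (n + 1) => |pre v k.val|)
  exact ⟨k, hk⟩

theorem nJ_nonneg (n : ℕ) (v : Fin n → ℝ) : 0 ≤ nJ n v :=
  (abs_nonneg _).trans (abs_pre_le_nJ v 0)

theorem nJ_neg (v : Fin n → ℝ) : nJ n (-v) = nJ n v := by
  unfold nJ
  simp only [pre_neg, abs_neg]

theorem abs_pre_le_n1 (v : Fin n → ℝ) (k : ℕ) : |pre v k| ≤ n1 n v := by
  unfold pre n1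
  refine (Finset.abs_sum_le_sum_abs _ _).trans (Finset.sum_le_sum ?_)
  intro i _
  split_ifs
  · exact le_refl _
  · simp

theorem nJ_le_n1 (n : ℕ) (v : Fin n → ℝ) : nJ n v ≤ n1 n v := by
  obtain ⟨k, hk⟩ := exists_nJ v
  rw [hk]
  exact abs_pre_le_n1 v _

theorem n1_zero (n : ℕ) : n1 n 0 = 0 := by simp [n1]

theorem n1_add (n : ℕ) (x y : Fin n → ℝ) : n1 n (x + y) ≤ n1 n x + n1 n y := by
  unfold n1
  rw [← Finset.sum_add_distrib]
  exact Finset.sum_le_sum (fun i _ => abs_add_le _ _)

theorem pre_succ_sub (v : Fin n → ℝ) (i : Fin n) : pre v (i.val + 1) - pre v i.val = v i := by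
  unfold pre
  rw [← Finset.sum_sub_distrib]
  rw [Finset.sum_eq_single i]
  · simp
  · intro j _ hj
    have : j.val ≠ i.val := fun h => hj (Fin.ext h)
    by_cases h1 : j.val < i.val
    · rw [if_pos (by omega), if_pos h1]
      ring
    · rw [if_neg (by omega), if_neg h1]
      ring
  · intro h
    exact absurd (Finset.mem_univ _) h

theorem var_pre (v : Fin n → ℝ) :
    ∑ i ∈ Finset.range n, |pre v (i + 1) - pre v i| = n1 n v := by
  unfold n1
  rw [← Fin.sum_univ_eq_sum_range (fun i => |pre v (i + 1) - pre v i|) n]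
  apply Finset.sum_congr rfl
  intro i _
  rw [pre_succ_sub]

end concrete

end Vale.Agent.P125.Alpha
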