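import Vale.Agent.P125.Alpha.Concrete

set_option linter.unusedSectionVars false
set_option linter.unusedVariables false

/-!
# P125 (alpha) : the inequality (BV) for the summing operator and its consequence (alpha)
-/

namespace Vale.Agent.P125.Alpha

open Vale.Agent.P125.Dich
open scoped BigOperators

section main

variable {S M : Type} [Fintype S] [Fintype M] (C : MChain S M) {n : ℕ} (w : M → Fin n → ℝ)

/-- the running sum profile of a mark -/
def gW (m : M) (k : Fin (n + 1)) : ℝ := pre (w m) k.val

/-- the size of a mark -/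
noncomputable def nW (m : M) : ℝ := nJ n (w m)

theorem gW_le (m : M) (k : Fin (n + 1)) : |gW w m k| ≤ nW w m := abs_pre_le_nJ (w m) k

theorem nW_nonneg (m : M) : 0 ≤ nW w m := nJ_nonneg n (w m)

theorem sum_gW (l : List M) (k : Fin (n + 1)) :
    (l.map (fun m => gW w m k)).sum = pre (sm w l) k.val := (pre_sm w l k.val).symm

/-- subadditivity along a window -/
theorem nJ_sm_le (l : List M) : nJ n (sm w l) ≤ (l.map (nW w)).sum := by
  obtain ⟨k, hk⟩ := exists_nJ (sm w l)
  rw [hk, ← sum_gW]
  have h1 := dA_nonneg (gW_le w) l k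
  have h2 := dB_nonneg (gW_le w) l k
  rw [dA_eq] at h1
  rw [dB_eq] at h2
  exact abs_le.2 ⟨by linarith, by linarith⟩

/-- a window with a small deficit has a common extremal position -/
theorem nonempty_of_deficit (l : List M)
    (h : (l.map (nW w)).sum - nJ n (sm w l) ≤ mnW (nW w) l / 4) :
    (Aset (gW w) (nW w) l ∪ Bset (gW w) (nW w) l).Nonempty := by
  obtain ⟨k, hk⟩ := exists_nJ (sm w l)
  refine ⟨k, ?_⟩
  rw [Finset.mem_union]
  rcases le_total 0 (pre (sm w l) k.val) with h0 | h0
  · left
    refine Finset.mem_filter.2 ⟨Finset.mem_univ _, ?_⟩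
    rw [dA_eq, sum_gW]
    rw [hk, abs_of_nonneg h0] at h
    exact h
  · right
    refine Finset.mem_filter.2 ⟨Finset.mem_univ _, ?_⟩
    rw [dB_eq, sum_gW]
    rw [hk, abs_of_nonpos h0] at h
    linarith

open Classical in
theorem wt_sq_eq (l : List M) : wt (gW w) (nW w) l ^ 2 =
    mnW (nW w) l ^ 2 * (if okW (gW w) (nW w) l then 1 else 0) := by
  unfold wt
  split_ifs <;> simp

/-- the pointwise deficit inequality -/
theorem deficit_window (l : List M) (hl : l ≠ []) :
    (1 / 16 : ℝ) * ((l.map (fun m => nW w m ^ 2)).sum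
        - 4 * (l.length : ℝ) * wt (gW w) (nW w) l ^ 2)
      ≤ (l.length : ℝ) * (l.map (fun m => nW w m ^ 2)).sum - nJ n (sm w l) ^ 2 := by
  classical
  have hne : l.map (nW w) ≠ [] := by
    intro h
    exact hl (List.map_eq_nil_iff.1 h)
  have hT0 := nJ_nonneg n (sm w l)
  have hmem := mnL_mem (l.map (nW w)) hne
  have h0 : 0 ≤ mnL (l.map (nW w)) := by
    obtain ⟨m, _, hm⟩ := List.mem_map.1 hmem
    rw [← hm]
    exact nW_nonneg w m
  have key := deficit_combined (l.map (nW w)) (mnL (l.map (nW w))) (mxL (l.map (nW w)))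
    (nJ n (sm w l)) (if okW (gW w) (nW w) l then 1 else 0) hmem (mxL_mem _ hne)
    (fun x hx => mnL_le _ x hx) (fun x hx => le_mxL _ x hx) h0
    (by rw [abs_of_nonneg hT0]; exact nJ_sm_le w l)
    (by split_ifs <;> norm_num)
    (by
      intro a b c
      rw [abs_of_nonneg hT0] at c
      rw [if_pos]
      exact ⟨a, b, nonempty_of_deficit w l c⟩)
  have e1 : sq2 (l.map (nW w)) = (l.map (fun m => nW w m ^ 2)).sum := by
    unfold sq2
    rw [List.map_map]
    rfl
  rw [e1, List.length_map] at key
  rw [wt_sq_eq]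
  have e2 : mnW (nW w) l = mnL (l.map (nW w)) := rfl
  rw [e2]
  linarith

theorem mnW_single (m : M) : mnW (nW w) [m] = nW w m := rfl

theorem wt_single_sq_le (m : M) : wt (gW w) (nW w) [m] ^ 2 ≤ nW w m ^ 2 := by
  classical
  rw [wt_sq_eq, mnW_single]
  split_ifs
  · simp
  · simp only [mul_zero]
    exact sq_nonneg _

/-- single edge bound -/
theorem wt_single_cW_le (m : M) :
    wt (gW w) (nW w) [m] ^ 2 * (cW (gW w) (nW w) [m] : ℝ) ≤
      nW w m ^ 2 + nW w m * n1 n (w m) := by
  classical
  have hN := nW_nonneg w m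
  have hV : 0 ≤ n1 n (w m) := hN.trans (nJ_le_n1 n (w m))
  rw [wt_sq_eq, mnW_single]
  split_ifs with hok
  · have hpos : 0 < nW w m := hok.1
    have hv := altLen_var (Aset (gW w) (nW w) [m]) (Bset (gW w) (nW w) [m])
      (fun k : Fin (n + 1) => k.val) Fin.val_strictMono n (fun k _ => Fin.is_le k)
      (pre (w m)) (3 / 4 * nW w m)
      (by
        intro k hk
        have h := (Finset.mem_filter.1 hk).2
        rw [mnW_single] at h
        simp only [dA, List.map_cons, List.map_nil, List.sum_cons, List.sum_nil, add_zero,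
          gW] at h
        linarith)
      (by
        intro k hk
        have h := (Finset.mem_filter.1 hk).2
        rw [mnW_single] at h
        simp only [dB, List.map_cons, List.map_nil, List.sum_cons, List.sum_nil, add_zero,
          gW] at h
        linarith)
      hok.2.2
    rw [var_pre] at hv
    have hc1 : (1 : ℝ) ≤ (cW (gW w) (nW w) [m] : ℝ) := by
      exact_mod_cast altLen_pos hok.2.2
    have hv' : ((cW (gW w) (nW w) [m] : ℝ) - 1) * (2 * (3 / 4 * nW w m)) ≤ n1 n (w m) := hv
    set c : ℝ := (cW (gW w) (nW w) [m] : ℝ) with hc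
    have h2 : (c - 1) * nW w m ≤ n1 n (w m) := by
      have : 0 ≤ (c - 1) * nW w m := mul_nonneg (by linarith) hN
      nlinarith
    have h3 := mul_le_mul_of_nonneg_left h2 hN
    nlinarith
  · simp only [mul_zero, zero_mul]
    positivity

end main

/-- **(BV)** for the summing operator -/
theorem BV_concrete : BVstmt nJ n1 := by
  intro n L S M _ _ C w hw
  have hNi : ∀ e, nW w (C.inv e) = nW w e := by
    intro e
    unfold nW
    rw [hw, nJ_neg]
  have hgi : ∀ e k, gW w (C.inv e) k = - gW w e k := by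
    intro e k
    unfold gW
    rw [hw, pre_neg]
  have P := potNE C (gW_le w) hNi hgi
  have key := BV.bv_assemble C (nW w) (fun m => n1 n (w m)) (fun l => nJ n (sm w l))
    (wt (gW w) (nW w)) (cW (gW w) (nW w)) L (P.potential L) (wt_single_sq_le w)
    (wt_single_cW_le w)
    (by
      intro l hl
      apply deficit_window
      intro h
      rw [h] at hl
      have : 0 < 2 ^ L := by positivity
      simp at hl
      omega)
  have e1 : C.E 1 (fun l => (l.map (fun m => nW w m ^ 2)).sum) =
      C.E 1 (fun l => nJ n (sm w l) ^ 2) := by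
    apply E_congr
    intro l hl
    obtain ⟨m, rfl⟩ := List.length_eq_one_iff.1 hl
    simp [sm, nW]
  have e2 : C.E 1 (fun l => (l.map (fun m => nW w m * n1 n (w m))).sum) =
      C.E 1 (fun l => nJ n (sm w l) * n1 n (sm w l)) := by
    apply E_congr
    intro l hl
    obtain ⟨m, rfl⟩ := List.length_eq_one_iff.1 hl
    simp [sm, nW]
  rw [e1, e2] at key
  exact key

/-- **(alpha)** the summing operators are uniformly sub-ballistic -/
theorem alpha_main : ∀ ε : ℝ, 0 < ε → ∃ t : ℕ, 1 ≤ t ∧ RJ nJ n1 t ε :=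
  alpha_of_BV nJ n1 nJ_nonneg nJ_le_n1 n1_zero n1_add BV_concrete

end Vale.Agent.P125.Alpha
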