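import Vale.Agent.P125.Char.Back2
import Vale.Agent.P125.Dich.Iter
import Vale.Agent.P125.TS.Triv
import Vale.Agent.P125.Alpha.Iterate

set_option linter.unusedSectionVars false
set_option linter.unusedVariables false

/-!
# P125 (alpha): from (BV) on marked chains to the final statement for functions on chains

No block chain is needed: (BV) is applied to the marked chain attached to `(μ, P ^ t)`.
-/

namespace Vale.Agent.P125.Alpha

open Vale.Agent.P125.Dich Vale.Agent.P125.Char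
open scoped BigOperators

/-- the sum of the first `k` coordinates -/
def pre {n : ℕ} (v : Fin n → ℝ) (k : ℕ) : ℝ := ∑ i : Fin n, if i.val < k then v i else 0

/-- the summing norm: the largest absolute value of an initial sum -/
noncomputable def nJ {n : ℕ} (v : Fin n → ℝ) : ℝ :=
  (Finset.range (n + 1)).sup' ⟨0, by simp⟩ (fun k => |pre v k|)

/-- the `l_1` norm -/
def n1 {n : ℕ} (v : Fin n → ℝ) : ℝ := ∑ i : Fin n, |v i|

lemma n1_nonneg {n : ℕ} (v : Fin n → ℝ) : 0 ≤ n1 v :=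
  Finset.sum_nonneg fun _ _ => abs_nonneg _

lemma nJ_nonneg {n : ℕ} (v : Fin n → ℝ) : 0 ≤ nJ v := by
  have h : |pre v 0| ≤ nJ v :=
    Finset.le_sup' (fun k => |pre v k|) (by simp : (0 : ℕ) ∈ Finset.range (n + 1))
  exact le_trans (abs_nonneg _) h

lemma abs_pre_le_n1 {n : ℕ} (v : Fin n → ℝ) (k : ℕ) : |pre v k| ≤ n1 v := by
  unfold pre n1
  refine (Finset.abs_sum_le_sum_abs _ _).trans (Finset.sum_le_sum fun i _ => ?_)
  split_ifs
  · exact le_rfl
  · simp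

lemma nJ_le_n1 {n : ℕ} (v : Fin n → ℝ) : nJ v ≤ n1 v :=
  Finset.sup'_le _ _ fun k _ => abs_pre_le_n1 v k

/-- the trivial bound in the `l_1` norm -/
lemma n1_triv {n : ℕ} {S : Type} [Fintype S] [DecidableEq S] (μ : S → ℝ) (P : Matrix S S ℝ)
    (hc : IsChain μ P) (f : S → Fin n → ℝ) (b : ℕ) :
    ∑ i, ∑ j, μ i * (P ^ b) i j * n1 (f j - f i) ^ 2 ≤
      (b : ℝ) ^ 2 * ∑ i, ∑ j, μ i * P i j * n1 (f j - f i) ^ 2 := by
  have key := Vale.Agent.P125.TS.hFun_triv (PiLp 1 (fun _ : Fin n => ℝ)) b S μ P hc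
    (fun s => WithLp.toLp 1 (f s))
  have hn : ∀ i j : S, ‖WithLp.toLp 1 (f j) - WithLp.toLp 1 (f i)‖ = n1 (f j - f i) := by
    intro i j
    rw [PiLp.norm_eq_of_L1]
    simp [n1]
  simp only [hn] at key
  exact key

/-- (BV) for marked chains: the statement that the window argument delivers -/
def BVm : Prop :=
  ∀ (n : ℕ) (S M : Type) [Fintype S] [Fintype M] (C : MChain S M) (w : M → Fin n → ℝ),
    (∀ m, w (C.inv m) = - w m) → ∀ L : ℕ,
      C.E (2 ^ L) (fun l => nJ (sm w l) ^ 2) ≤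
        ((2 : ℝ) ^ L) ^ 2 * C.E 1 (fun l => nJ (sm w l) ^ 2)
          - ((2 : ℝ) ^ L / 16) * (C.E 1 (fun l => nJ (sm w l) ^ 2)
            - 4 * (5 * C.E 1 (fun l => nJ (sm w l) ^ 2)
              + 4 * C.E 1 (fun l => nJ (sm w l) * n1 (sm w l))) / ((L : ℝ) + 1))

/-- `RA t a`: at time `t` the summing norm of the displacement is at most `sqrt a * t` times the
`l_1` size of one step, in `L_2`, for all reversible chains, all `n` and all functions -/
def RA (t : ℕ) (a : ℝ) : Prop :=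
  ∀ (n : ℕ) (S : Type) [Fintype S] [DecidableEq S] (μ : S → ℝ) (P : Matrix S S ℝ),
    IsChain μ P → ∀ f : S → Fin n → ℝ,
      ∑ i, ∑ j, μ i * (P ^ t) i j * nJ (f j - f i) ^ 2 ≤
        a * (t : ℝ) ^ 2 * ∑ i, ∑ j, μ i * P i j * n1 (f j - f i) ^ 2

lemma U_nonneg {n : ℕ} {S : Type} [Fintype S] (μ : S → ℝ) (P : Matrix S S ℝ)
    (hc : IsChain μ P) (f : S → Fin n → ℝ) :
    0 ≤ ∑ i, ∑ j, μ i * P i j * n1 (f j - f i) ^ 2 := by
  obtain ⟨h0, _, h2, _, _⟩ := hc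
  exact Finset.sum_nonneg fun i _ => Finset.sum_nonneg fun j _ =>
    mul_nonneg (mul_nonneg (h0 i) (h2 i j)) (sq_nonneg _)

lemma RA_mono (t : ℕ) (a b : ℝ) (hab : a ≤ b) (h : RA t a) : RA t b := by
  intro n S _ _ μ P hc f
  refine (h n S μ P hc f).trans ?_
  have hU := U_nonneg μ P hc f
  have ht : (0 : ℝ) ≤ (t : ℝ) ^ 2 := sq_nonneg _
  exact mul_le_mul_of_nonneg_right (mul_le_mul_of_nonneg_right hab ht) hU

lemma RA_one : RA 1 1 := by
  intro n S _ _ μ P hc f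
  obtain ⟨h0, _, h2, _, _⟩ := hc
  rw [pow_one]
  simp only [Nat.cast_one, one_pow, one_mul]
  refine Finset.sum_le_sum fun i _ => Finset.sum_le_sum fun j _ => ?_
  exact mul_le_mul_of_nonneg_left
    (pow_le_pow_left₀ (nJ_nonneg _) (nJ_le_n1 _) 2) (mul_nonneg (h0 i) (h2 i j))

lemma RA_step (hBV : BVm) (t L : ℕ) (a : ℝ) (ht : 1 ≤ t) (ha : 0 < a)
    (hL : 32 * (5 / 4 + 1 / Real.sqrt a) ≤ (L : ℝ) + 1) (h : RA t a) :
    RA (2 ^ L * t) (a * (1 - 1 / (32 * 2 ^ L))) := by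
  intro n S _ _ μ P hc f
  have hcq := isChain_pow hc t
  obtain ⟨h0, h1, h2, h3, h4⟩ := hcq
  have key := hBV n S (S × S) (backChain μ (P ^ t) h0 h1 h2 h3 h4)
    (fun m : S × S => f m.2 - f m.1)
    (by
      intro m
      have : (backChain μ (P ^ t) h0 h1 h2 h3 h4).inv m = Prod.swap m := rfl
      rw [this]
      simp) L
  rw [back_E μ (P ^ t) h0 h1 h2 h3 h4 f (2 ^ L) (fun u => nJ u ^ 2),
    back_E μ (P ^ t) h0 h1 h2 h3 h4 f 1 (fun u => nJ u ^ 2),
    back_E μ (P ^ t) h0 h1 h2 h3 h4 f 1 (fun u => nJ u * n1 u), pow_one, ← pow_mul] at key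
  set U : ℝ := ∑ i, ∑ j, μ i * P i j * n1 (f j - f i) ^ 2 with hU
  have hU0 : 0 ≤ U := U_nonneg μ P hc f
  set EN : ℝ := ∑ i, ∑ j, μ i * (P ^ t) i j * nJ (f j - f i) ^ 2 with hEN
  set EV : ℝ := ∑ i, ∑ j, μ i * (P ^ t) i j * n1 (f j - f i) ^ 2 with hEV
  set ENV : ℝ := ∑ i, ∑ j, μ i * (P ^ t) i j * (nJ (f j - f i) * n1 (f j - f i)) with hENV
  have hT0 : 0 ≤ (t : ℝ) ^ 2 * U := mul_nonneg (sq_nonneg _) hU0
  have b1 : EN ≤ a * ((t : ℝ) ^ 2 * U) := by
    have := h n S μ P hc f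
    rw [mul_assoc] at this
    exact this
  have b2 : EV ≤ (t : ℝ) ^ 2 * U := n1_triv μ P hc f t
  have hs : 0 < Real.sqrt a := Real.sqrt_pos.2 ha
  have hss : Real.sqrt a * Real.sqrt a = a := Real.mul_self_sqrt ha.le
  have b3 : ENV ≤ (1 / (2 * Real.sqrt a)) * EN + (Real.sqrt a / 2) * EV := by
    rw [hENV, hEN, hEV, Finset.mul_sum, Finset.mul_sum, ← Finset.sum_add_distrib]
    refine Finset.sum_le_sum fun i _ => ?_
    rw [Finset.mul_sum, Finset.mul_sum, ← Finset.sum_add_distrib]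
    refine Finset.sum_le_sum fun j _ => ?_
    have hw : 0 ≤ μ i * (P ^ t) i j := mul_nonneg (h0 i) (h2 i j)
    have hp : nJ (f j - f i) * n1 (f j - f i) ≤
        (1 / (2 * Real.sqrt a)) * nJ (f j - f i) ^ 2
          + (Real.sqrt a / 2) * n1 (f j - f i) ^ 2 := by
      have hq : 0 ≤ (nJ (f j - f i) - Real.sqrt a * n1 (f j - f i)) ^ 2 := sq_nonneg _
      have e : (1 / (2 * Real.sqrt a)) * nJ (f j - f i) ^ 2
          + (Real.sqrt a / 2) * n1 (f j - f i) ^ 2 - nJ (f j - f i) * n1 (f j - f i)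
          = (nJ (f j - f i) - Real.sqrt a * n1 (f j - f i)) ^ 2 / (2 * Real.sqrt a) := by
        field_simp
        ring
      have : 0 ≤ (nJ (f j - f i) - Real.sqrt a * n1 (f j - f i)) ^ 2 / (2 * Real.sqrt a) := by
        positivity
      linarith
    have := mul_le_mul_of_nonneg_left hp hw
    calc μ i * (P ^ t) i j * (nJ (f j - f i) * n1 (f j - f i))
        ≤ μ i * (P ^ t) i j * ((1 / (2 * Real.sqrt a)) * nJ (f j - f i) ^ 2
          + (Real.sqrt a / 2) * n1 (f j - f i) ^ 2) := this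
      _ = _ := by ring
  have b4 : ENV ≤ Real.sqrt a * ((t : ℝ) ^ 2 * U) := by
    have c1 : (1 / (2 * Real.sqrt a)) * EN ≤ (1 / (2 * Real.sqrt a)) * (a * ((t : ℝ) ^ 2 * U)) :=
      mul_le_mul_of_nonneg_left b1 (by positivity)
    have c2 : (Real.sqrt a / 2) * EV ≤ (Real.sqrt a / 2) * ((t : ℝ) ^ 2 * U) :=
      mul_le_mul_of_nonneg_left b2 (by positivity)
    have c3 : (1 / (2 * Real.sqrt a)) * (a * ((t : ℝ) ^ 2 * U))
        = (Real.sqrt a / 2) * ((t : ℝ) ^ 2 * U) := by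
      have e0 : (1 / (2 * Real.sqrt a)) * (Real.sqrt a * Real.sqrt a * ((t : ℝ) ^ 2 * U))
          = (Real.sqrt a / 2) * ((t : ℝ) ^ 2 * U) := by
        field_simp
      rw [hss] at e0
      exact e0
    linarith
  have hM : (1 : ℝ) ≤ (2 : ℝ) ^ L := one_le_pow₀ (by norm_num)
  have fin := bv_to_step _ EN ENV ((t : ℝ) ^ 2 * U) a ((2 : ℝ) ^ L) ((L : ℝ) + 1) hM
    (by positivity) ha hT0 b1 b4 hL key
  have e1 : 2 ^ L * t = t * 2 ^ L := Nat.mul_comm _ _
  rw [e1]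
  refine fin.trans (le_of_eq ?_)
  push_cast
  ring

/-- (alpha) for functions on reversible chains, from (BV) for marked chains -/
theorem alpha_of_BVm (hBV : BVm) : ∀ ε : ℝ, 0 < ε → ∃ t : ℕ, 1 ≤ t ∧ RA t ε :=
  iterate_abs RA RA_mono RA_one (fun t L a ht ha hL h => RA_step hBV t L a ht ha hL h)

end Vale.Agent.P125.Alpha
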