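import Vale.Agent.P125.Char.Back2
import Vale.Agent.P125.Dich.Iter
import Vale.Agent.P125.TS.Triv
import Vale.Agent.P125.Alpha.Iterate

set_option linter.unusedSectionVars false
set_option linter.unusedVariables false

/-!
# P125 (alpha): from (BV) on marked chains to the function form on ordinary chains

In function form the `t`-step chain is the ordinary chain `(μ, P ^ t)`; it is turned into a marked
chain by `backChain`, and `back_E` computes all expectations.  The output norm `nJ` is kept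
abstract here (only `0 ≤ nJ v ≤ n1 v` is used), the input norm is `n1 v = ∑ |v i|`.
-/

namespace Vale.Agent.P125.Alpha

open Vale.Agent.P125.Dich Vale.Agent.P125.Char
open scoped BigOperators

/-- the `ℓ_1` norm on `Fin n → ℝ` -/
def n1 {n : ℕ} (v : Fin n → ℝ) : ℝ := ∑ i, |v i|

lemma n1_nonneg {n : ℕ} (v : Fin n → ℝ) : 0 ≤ n1 v :=
  Finset.sum_nonneg fun _ _ => abs_nonneg _

/-- the statement (BV) for marked chains, for an output functional `nJ` -/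
def BVstat (nJ : ∀ n : ℕ, (Fin n → ℝ) → ℝ) : Prop :=
  ∀ (S M : Type) [Fintype S] [Fintype M] (C : MChain S M) (n : ℕ) (ω : M → Fin n → ℝ),
    (∀ m, ω (C.inv m) = - ω m) → ∀ L : ℕ,
      C.E (2 ^ L) (fun l => nJ n (sm ω l) ^ 2) ≤
        ((2 : ℝ) ^ L) ^ 2 * C.E 1 (fun l => nJ n (sm ω l) ^ 2)
          - ((2 : ℝ) ^ L / 16) * (C.E 1 (fun l => nJ n (sm ω l) ^ 2)
            - 4 * (5 * C.E 1 (fun l => nJ n (sm ω l) ^ 2)
                + 4 * C.E 1 (fun l => nJ n (sm ω l) * n1 (sm ω l))) / ((L : ℝ) + 1))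

/-- the inequality at time `t` with constant `a * t ^ 2`, function form -/
def RFun (nJ : ∀ n : ℕ, (Fin n → ℝ) → ℝ) (t : ℕ) (a : ℝ) : Prop :=
  ∀ (n : ℕ) (S : Type) [Fintype S] [DecidableEq S] (μ : S → ℝ) (P : Matrix S S ℝ),
    IsChain μ P → ∀ f : S → Fin n → ℝ,
      ∑ i, ∑ j, μ i * (P ^ t) i j * nJ n (f j - f i) ^ 2 ≤
        a * ((t : ℝ) ^ 2 * ∑ i, ∑ j, μ i * P i j * n1 (f j - f i) ^ 2)

/-- the trivial bound for the `ℓ_1` norm -/
lemma n1_triv {n : ℕ} {S : Type} [Fintype S] [DecidableEq S] (μ : S → ℝ) (P : Matrix S S ℝ)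
    (hc : IsChain μ P) (f : S → Fin n → ℝ) (t : ℕ) :
    ∑ i, ∑ j, μ i * (P ^ t) i j * n1 (f j - f i) ^ 2 ≤
      (t : ℝ) ^ 2 * ∑ i, ∑ j, μ i * P i j * n1 (f j - f i) ^ 2 := by
  have h := TS.hFun_triv (PiLp 1 (fun _ : Fin n => ℝ)) t S μ P hc (fun s => WithLp.toLp 1 (f s))
  have e : ∀ i j : S, ‖WithLp.toLp 1 (f j) - WithLp.toLp 1 (f i)‖ = n1 (f j - f i) := by
    intro i j
    rw [PiLp.norm_eq_of_L1]
    simp [n1, Real.norm_eq_abs]
  simp only [e] at h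
  exact h

lemma U_nonneg {n : ℕ} {S : Type} [Fintype S] (μ : S → ℝ) (P : Matrix S S ℝ)
    (h0 : ∀ i, 0 ≤ μ i) (h2 : ∀ i j, 0 ≤ P i j) (g : S → S → ℝ) (hg : ∀ i j, 0 ≤ g i j) :
    0 ≤ ∑ i, ∑ j, μ i * P i j * g i j :=
  Finset.sum_nonneg fun i _ => Finset.sum_nonneg fun j _ =>
    mul_nonneg (mul_nonneg (h0 i) (h2 i j)) (hg i j)

lemma rFun_mono (nJ : ∀ n : ℕ, (Fin n → ℝ) → ℝ) (t : ℕ) (a b : ℝ) (hab : a ≤ b)
    (h : RFun nJ t a) : RFun nJ t b := by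
  intro n S _ _ μ P hc f
  refine (h n S μ P hc f).trans ?_
  obtain ⟨h0, h1, h2, h3, h4⟩ := hc
  apply mul_le_mul_of_nonneg_right hab
  apply mul_nonneg (sq_nonneg _)
  exact U_nonneg (n := n) μ P h0 h2 _ fun i j => sq_nonneg _

lemma rFun_one (nJ : ∀ n : ℕ, (Fin n → ℝ) → ℝ) (hJ0 : ∀ n v, 0 ≤ nJ n v)
    (hJ1 : ∀ n v, nJ n v ≤ n1 v) : RFun nJ 1 1 := by
  intro n S _ _ μ P hc f
  obtain ⟨h0, h1, h2, h3, h4⟩ := hc
  simp only [pow_one, Nat.cast_one, one_pow, one_mul]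
  refine Finset.sum_le_sum fun i _ => Finset.sum_le_sum fun j _ => ?_
  apply mul_le_mul_of_nonneg_left _ (mul_nonneg (h0 i) (h2 i j))
  exact pow_le_pow_left₀ (hJ0 _ _) (hJ1 _ _) 2

/-- one application of (BV) to the chain `(μ, P ^ t)` -/
lemma rFun_step (nJ : ∀ n : ℕ, (Fin n → ℝ) → ℝ) (hJ0 : ∀ n v, 0 ≤ nJ n v)
    (hBV : BVstat nJ) (t L : ℕ) (a : ℝ) (ht : 1 ≤ t) (ha : 0 < a)
    (hL : 32 * (5 / 4 + 1 / Real.sqrt a) ≤ (L : ℝ) + 1) (h : RFun nJ t a) :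
    RFun nJ (2 ^ L * t) (a * (1 - 1 / (32 * 2 ^ L))) := by
  intro n S _ _ μ P hc f
  have hc' := isChain_pow hc t
  obtain ⟨h0, h1, h2, h3, h4⟩ := hc'
  have hU : 0 ≤ ∑ i, ∑ j, μ i * P i j * n1 (f j - f i) ^ 2 :=
    U_nonneg (n := n) μ P hc.1 hc.2.2.1 _ fun i j => sq_nonneg _
  have key := hBV S (S × S) (backChain μ (P ^ t) h0 h1 h2 h3 h4) n
    (fun m : S × S => f m.2 - f m.1)
    (by
      intro m
      have : (backChain μ (P ^ t) h0 h1 h2 h3 h4).inv m = Prod.swap m := rfl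
      rw [this]
      simp) L
  rw [back_E μ (P ^ t) h0 h1 h2 h3 h4 f (2 ^ L) (fun u => nJ n u ^ 2),
    back_E μ (P ^ t) h0 h1 h2 h3 h4 f 1 (fun u => nJ n u ^ 2),
    back_E μ (P ^ t) h0 h1 h2 h3 h4 f 1 (fun u => nJ n u * n1 u), pow_one] at key
  have epow : (P ^ t) ^ (2 ^ L) = P ^ (2 ^ L * t) := by
    rw [← pow_mul, mul_comm]
  rw [epow] at key
  have hEN := h n S μ P hc f
  have hEV := n1_triv μ P hc f t
  set U : ℝ := ∑ i, ∑ j, μ i * P i j * n1 (f j - f i) ^ 2 with hUdef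
  set EN : ℝ := ∑ i, ∑ j, μ i * (P ^ t) i j * nJ n (f j - f i) ^ 2 with hENdef
  set EV : ℝ := ∑ i, ∑ j, μ i * (P ^ t) i j * n1 (f j - f i) ^ 2 with hEVdef
  set ENV : ℝ := ∑ i, ∑ j, μ i * (P ^ t) i j * (nJ n (f j - f i) * n1 (f j - f i)) with hENVdef
  have hs : 0 < Real.sqrt a := Real.sqrt_pos.2 ha
  have hss : Real.sqrt a * Real.sqrt a = a := Real.mul_self_sqrt ha.le
  have hT : 0 ≤ (t : ℝ) ^ 2 * U := mul_nonneg (sq_nonneg _) hU
  -- arithmetic-geometric mean in place of Cauchy-Schwarz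
  have hENV1 : ENV ≤ (1 / (2 * Real.sqrt a)) * EN + (Real.sqrt a / 2) * EV := by
    rw [hENVdef, hENdef, hEVdef, Finset.mul_sum, Finset.mul_sum, ← Finset.sum_add_distrib]
    refine Finset.sum_le_sum fun i _ => ?_
    rw [Finset.mul_sum, Finset.mul_sum, ← Finset.sum_add_distrib]
    refine Finset.sum_le_sum fun j _ => ?_
    have hw : 0 ≤ μ i * (P ^ t) i j := mul_nonneg (h0 i) (h2 i j)
    have hp : nJ n (f j - f i) * n1 (f j - f i)
        ≤ (1 / (2 * Real.sqrt a)) * nJ n (f j - f i) ^ 2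
          + (Real.sqrt a / 2) * n1 (f j - f i) ^ 2 := by
      set x := nJ n (f j - f i)
      set y := n1 (f j - f i)
      have h5 : 0 ≤ (x - Real.sqrt a * y) ^ 2 := sq_nonneg _
      have e5 : (1 / (2 * Real.sqrt a)) * x ^ 2 + (Real.sqrt a / 2) * y ^ 2 - x * y
          = (x - Real.sqrt a * y) ^ 2 / (2 * Real.sqrt a) := by
        field_simp
        ring
      have h6 : 0 ≤ (x - Real.sqrt a * y) ^ 2 / (2 * Real.sqrt a) := by positivity
      linarith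
    calc μ i * (P ^ t) i j * (nJ n (f j - f i) * n1 (f j - f i))
        ≤ μ i * (P ^ t) i j * ((1 / (2 * Real.sqrt a)) * nJ n (f j - f i) ^ 2
          + (Real.sqrt a / 2) * n1 (f j - f i) ^ 2) := mul_le_mul_of_nonneg_left hp hw
      _ = _ := by ring
  have hENV : ENV ≤ Real.sqrt a * ((t : ℝ) ^ 2 * U) := by
    have h7 : (1 / (2 * Real.sqrt a)) * EN ≤ (1 / (2 * Real.sqrt a)) * (a * ((t : ℝ) ^ 2 * U)) :=
      mul_le_mul_of_nonneg_left hEN (by positivity)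
    have h8 : (Real.sqrt a / 2) * EV ≤ (Real.sqrt a / 2) * ((t : ℝ) ^ 2 * U) :=
      mul_le_mul_of_nonneg_left hEV (by positivity)
    have e9 : (1 / (2 * Real.sqrt a)) * (a * ((t : ℝ) ^ 2 * U))
        = (Real.sqrt a / 2) * ((t : ℝ) ^ 2 * U) := by
      have : a = Real.sqrt a * Real.sqrt a := hss.symm
      field_simp
      nlinarith [hss]
    linarith
  have hM : (1 : ℝ) ≤ 2 ^ L := one_le_pow₀ (by norm_num)
  have fin := bv_to_step _ EN ENV ((t : ℝ) ^ 2 * U) a ((2 : ℝ) ^ L) ((L : ℝ) + 1) hM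
    (by positivity) ha hT hEN hENV hL key
  refine fin.trans (le_of_eq ?_)
  push_cast
  ring

/-- **(BV) implies (alpha)**, function form -/
theorem alpha_of_BV (nJ : ∀ n : ℕ, (Fin n → ℝ) → ℝ) (hJ0 : ∀ n v, 0 ≤ nJ n v)
    (hJ1 : ∀ n v, nJ n v ≤ n1 v) (hBV : BVstat nJ) :
    ∀ ε : ℝ, 0 < ε → ∃ t : ℕ, 1 ≤ t ∧ RFun nJ t ε :=
  iterate_abs (RFun nJ) (rFun_mono nJ) (rFun_one nJ hJ0 hJ1)
    (fun t L a ht ha hL h => rFun_step nJ hJ0 hBV t L a ht ha hL h)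

end Vale.Agent.P125.Alpha
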