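import Mathlib

/-!
# P125 (alpha) : the top iteration (scalar part)

`scalar_step` : from the one-chain inequality (BV) to the improvement of the constant.
`iterate` : an abstract family of bounds `A t k` that improves by a fixed factor as long as
`k` stays above `c` reaches `c`.
-/

namespace Vale.Agent.P125.Alpha

/-- scalar consequence of (BV): `E'` is the second moment at time `M * t`, `EN` the second moment
at time `t`, `ENV` the mixed moment, `W = t ^ 2 * U`. -/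
theorem scalar_step_aux (E' EN ENV W k Mr Lp : ℝ) (hk : 0 < k) (hM : 1 ≤ Mr) (hLp : 0 < Lp)
    (hW : 0 ≤ W)
    (hBV : E' ≤ Mr ^ 2 * EN - (Mr / 16) * (EN - 4 * (5 * EN + 4 * ENV) / Lp))
    (hEN : EN ≤ k ^ 2 * W) (hENV : ENV ≤ k * W)
    (hL : 32 * (5 / 4 + 1 / k) ≤ Lp) :
    E' ≤ k ^ 2 * W * (Mr ^ 2 - Mr / 32) := by
  have h1 : 40 * k + 32 ≤ Lp * k := by
    have := mul_le_mul_of_nonneg_right hL hk.le
    have e : 32 * (5 / 4 + 1 / k) * k = 40 * k + 32 := by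
      field_simp
      ring
    linarith
  have h2 : 5 * EN + 4 * ENV ≤ Lp * (k ^ 2 * W / 8) := by
    have h3 : k * W * (40 * k + 32) ≤ k * W * (Lp * k) :=
      mul_le_mul_of_nonneg_left h1 (mul_nonneg hk.le hW)
    nlinarith
  have h4 : (5 * EN + 4 * ENV) / Lp ≤ k ^ 2 * W / 8 := by
    rw [div_le_iff₀ hLp]
    linarith
  have h5 : 4 * (5 * EN + 4 * ENV) / Lp = 4 * ((5 * EN + 4 * ENV) / Lp) := by ring
  rw [h5] at hBV
  have h6 : 0 ≤ Mr ^ 2 - Mr / 16 := by nlinarith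
  have h7 : (Mr ^ 2 - Mr / 16) * EN ≤ (Mr ^ 2 - Mr / 16) * (k ^ 2 * W) :=
    mul_le_mul_of_nonneg_left hEN h6
  have h8 : (Mr / 4) * ((5 * EN + 4 * ENV) / Lp) ≤ (Mr / 4) * (k ^ 2 * W / 8) :=
    mul_le_mul_of_nonneg_left h4 (by linarith)
  nlinarith

/-- the same with the constant in the shape used by `iterate` -/
theorem scalar_step (E' EN ENV EV U k : ℝ) (t L : ℕ) (hk : 0 < k) (hU : 0 ≤ U)
    (hBV : E' ≤ ((2 : ℝ) ^ L) ^ 2 * EN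
      - ((2 : ℝ) ^ L / 16) * (EN - 4 * (5 * EN + 4 * ENV) / ((L : ℝ) + 1)))
    (hEN0 : 0 ≤ EN) (hEN : EN ≤ k ^ 2 * ((t : ℝ) ^ 2 * U)) (hEV : EV ≤ (t : ℝ) ^ 2 * U)
    (hCS : ENV ^ 2 ≤ EN * EV)
    (hL : 32 * (5 / 4 + 1 / k) ≤ (L : ℝ) + 1) :
    E' ≤ (k * Real.sqrt (1 - 1 / (32 * (2 : ℝ) ^ L))) ^ 2 * (((2 ^ L * t : ℕ) : ℝ) ^ 2 * U) := by
  have hM : (1 : ℝ) ≤ (2 : ℝ) ^ L := one_le_pow₀ (by norm_num)
  have hW : 0 ≤ (t : ℝ) ^ 2 * U := mul_nonneg (sq_nonneg _) hU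
  have hENV : ENV ≤ k * ((t : ℝ) ^ 2 * U) := by
    have h1 : ENV ^ 2 ≤ (k * ((t : ℝ) ^ 2 * U)) ^ 2 := by
      calc ENV ^ 2 ≤ EN * EV := hCS
        _ ≤ EN * ((t : ℝ) ^ 2 * U) := mul_le_mul_of_nonneg_left hEV hEN0
        _ ≤ (k ^ 2 * ((t : ℝ) ^ 2 * U)) * ((t : ℝ) ^ 2 * U) := mul_le_mul_of_nonneg_right hEN hW
        _ = (k * ((t : ℝ) ^ 2 * U)) ^ 2 := by ring
    exact le_trans (le_abs_self _) (abs_le_of_sq_le_sq h1 (mul_nonneg hk.le hW))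
  have h := scalar_step_aux E' EN ENV ((t : ℝ) ^ 2 * U) k ((2 : ℝ) ^ L) ((L : ℝ) + 1) hk hM
    (by positivity) hW hBV hEN hENV hL
  have hs : 0 ≤ 1 - 1 / (32 * (2 : ℝ) ^ L) := by
    have : 1 / (32 * (2 : ℝ) ^ L) ≤ 1 := by
      rw [div_le_one (by positivity)]
      linarith
    linarith
  have e : (k * Real.sqrt (1 - 1 / (32 * (2 : ℝ) ^ L))) ^ 2 * (((2 ^ L * t : ℕ) : ℝ) ^ 2 * U)
      = k ^ 2 * ((t : ℝ) ^ 2 * U) * (((2 : ℝ) ^ L) ^ 2 - (2 : ℝ) ^ L / 32) := by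
    rw [mul_pow, Real.sq_sqrt hs]
    push_cast
    have hne : (2 : ℝ) ^ L ≠ 0 := by positivity
    field_simp
  rw [e]
  exact h

/-- abstract iteration -/
theorem iterate (A : ℕ → ℝ → Prop)
    (mono : ∀ (t : ℕ) (k k' : ℝ), A t k → k ≤ k' → A t k')
    (base : A 1 1)
    (step : ∀ (t L : ℕ) (k : ℝ), 1 ≤ t → 0 < k → A t k → 32 * (5 / 4 + 1 / k) ≤ (L : ℝ) + 1 →
      A (2 ^ L * t) (k * Real.sqrt (1 - 1 / (32 * (2 : ℝ) ^ L)))) :
    ∀ c : ℝ, 0 < c → ∃ t : ℕ, 1 ≤ t ∧ A t c := by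
  intro c hc
  obtain ⟨L, hL⟩ := exists_nat_ge (32 * (5 / 4 + 1 / c))
  have hL' : 32 * (5 / 4 + 1 / c) ≤ (L : ℝ) + 1 := by linarith
  set q : ℝ := Real.sqrt (1 - 1 / (32 * (2 : ℝ) ^ L)) with hq
  have hq0 : 0 ≤ q := Real.sqrt_nonneg _
  have hq1 : q < 1 := by
    rw [hq, Real.sqrt_lt' (by norm_num)]
    have : 0 < 1 / (32 * (2 : ℝ) ^ L) := by positivity
    linarith
  have key : ∀ i : ℕ, ∃ t : ℕ, 1 ≤ t ∧ A t (max c (q ^ i)) := by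
    intro i
    induction i with
    | zero => exact ⟨1, le_refl _, mono 1 1 _ base (by simp)⟩
    | succ i ih =>
      obtain ⟨t, ht, hA⟩ := ih
      have hk : 0 < max c (q ^ i) := lt_of_lt_of_le hc (le_max_left _ _)
      have h1 : 1 / max c (q ^ i) ≤ 1 / c := one_div_le_one_div_of_le hc (le_max_left _ _)
      have h2 := step t L _ ht hk hA (by linarith)
      refine ⟨2 ^ L * t, Nat.one_le_iff_ne_zero.2 (by positivity), mono _ _ _ h2 ?_⟩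
      rw [← hq, max_mul_of_nonneg _ _ hq0]
      apply max_le_max
      · nlinarith
      · rw [pow_succ]
  obtain ⟨i, hi⟩ := exists_pow_lt_of_lt_one hc hq1
  obtain ⟨t, ht, hA⟩ := key i
  exact ⟨t, ht, by rwa [max_eq_left hi.le] at hA⟩

end Vale.Agent.P125.Alpha
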