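import Vale.Agent.P125.Char.Back2
import Vale.Agent.P125.Char.Conv_A
import Vale.Agent.P125.Dich.Iter

set_option linter.unusedSectionVars false
set_option linter.unusedVariables false

/-!
# P125 (alpha): from one good time to all large times

If the `L_2` displacement in the small gauge `NJ` at ONE time `t` is at most `ε t` times the one
step `L_2` displacement in the big gauge `N1` (for every `ε`), then the same holds at ALL large
times: blocks of length `t` (Minkowski + stationarity) and the trivial bound for the remainder.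
-/

namespace Vale.Agent.P125.Alpha.Large

open Vale.Agent.P125.Dich Vale.Agent.P125.Char
open scoped BigOperators

/-- abstract form: `R t A` stands for a bound with the absolute constant `A` at time `t` -/
theorem large_abs (R : ℕ → ℝ → Prop)
    (hmono : ∀ (t : ℕ) (A B : ℝ), A ≤ B → R t A → R t B)
    (hadd : ∀ (a b : ℕ) (A B : ℝ), 0 < A → 0 < B → R a A → R b B → R (a + b) (A + B))
    (htriv : ∀ r : ℕ, 1 ≤ r → R r r)
    (hex : ∀ ε : ℝ, 0 < ε → ∃ t : ℕ, 1 ≤ t ∧ R t (ε * t)) :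
    ∀ ε : ℝ, 0 < ε → ∃ t0 : ℕ, ∀ t : ℕ, t0 ≤ t → R t (ε * t) := by
  intro ε hε
  obtain ⟨s, hs, hR⟩ := hex (ε / 2) (by positivity)
  have hs0 : (0 : ℝ) < s := by exact_mod_cast hs
  have hb0 : 0 < ε / 2 * (s : ℝ) := by positivity
  have hmul : ∀ q : ℕ, 1 ≤ q → R (q * s) ((q : ℝ) * (ε / 2 * s)) := by
    intro q hq
    induction q, hq using Nat.le_induction with
    | base => simpa using hR
    | succ q hq ih =>
      have hq0 : (0 : ℝ) < q := by exact_mod_cast hq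
      have h := hadd (q * s) s ((q : ℝ) * (ε / 2 * s)) (ε / 2 * s) (mul_pos hq0 hb0) hb0 ih hR
      have e1 : (q + 1) * s = q * s + s := by ring
      have e2 : ((q + 1 : ℕ) : ℝ) * (ε / 2 * s) = (q : ℝ) * (ε / 2 * s) + ε / 2 * s := by
        push_cast
        ring
      rw [e1, e2]
      exact h
  obtain ⟨t0, ht0⟩ := exists_nat_ge (2 * (s : ℝ) / ε + s)
  refine ⟨t0, fun t ht => ?_⟩
  have htr : 2 * (s : ℝ) / ε + s ≤ (t : ℝ) := ht0.trans (by exact_mod_cast ht)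
  have h2 : 0 < 2 * (s : ℝ) / ε := by positivity
  have hst : (s : ℝ) ≤ t := by linarith
  have hst' : s ≤ t := by exact_mod_cast hst
  have hsε : (s : ℝ) ≤ ε / 2 * t := by
    have h3 : 2 * (s : ℝ) / ε ≤ t := by linarith
    rw [div_le_iff₀ hε] at h3
    linarith
  have hdec : t = t / s * s + t % s := (Nat.div_add_mod' t s).symm
  have hq : 1 ≤ t / s := (Nat.one_le_div_iff (by omega)).2 hst'
  have hq0 : (0 : ℝ) < ((t / s : ℕ) : ℝ) := by exact_mod_cast hq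
  have hdecR : (t : ℝ) = ((t / s : ℕ) : ℝ) * s + ((t % s : ℕ) : ℝ) := by
    exact_mod_cast hdec
  have hrs : ((t % s : ℕ) : ℝ) ≤ s := by
    exact_mod_cast (Nat.mod_lt t (by omega)).le
  have hr0 : (0 : ℝ) ≤ ((t % s : ℕ) : ℝ) := Nat.cast_nonneg _
  have hbig : ((t / s : ℕ) : ℝ) * (ε / 2 * s) + ((t % s : ℕ) : ℝ) ≤ ε * t := by
    have h5 : ((t / s : ℕ) : ℝ) * (ε / 2 * s) ≤ ε / 2 * t := by
      have : ((t / s : ℕ) : ℝ) * s ≤ t := by linarith
      calc ((t / s : ℕ) : ℝ) * (ε / 2 * s) = ε / 2 * (((t / s : ℕ) : ℝ) * s) := by ring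
        _ ≤ ε / 2 * t := mul_le_mul_of_nonneg_left this (by positivity)
    linarith
  rcases Nat.eq_zero_or_pos (t % s) with hr | hr
  · have h6 := hmul (t / s) hq
    have e : t / s * s = t := by omega
    rw [e] at h6
    refine hmono t _ _ ?_ h6
    rw [hr] at hbig
    simpa using hbig
  · have hr1 : (0 : ℝ) < ((t % s : ℕ) : ℝ) := by exact_mod_cast hr
    have h6 := hadd (t / s * s) (t % s) _ _ (mul_pos hq0 hb0) hr1 (hmul (t / s) hq)
      (htriv (t % s) hr)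
    rw [← hdec] at h6
    exact hmono t _ _ hbig h6

section blocks

variable {S M : Type} [Fintype S] [Fintype M]
variable {X : Type*} [NormedAddCommGroup X]

/-- Minkowski for two consecutive blocks of a stationary marked chain -/
theorem E_block_add (C : MChain S M) (NJ : X → ℝ) (hJ0 : ∀ x, 0 ≤ NJ x)
    (hJsub : ∀ x y, NJ (x + y) ≤ NJ x + NJ y) (ω : M → X) (a b : ℕ) (A B U : ℝ)
    (hA : 0 < A) (hB : 0 < B)
    (h1 : C.E a (fun l => NJ (sm ω l) ^ 2) ≤ A ^ 2 * U)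
    (h2 : C.E b (fun l => NJ (sm ω l) ^ 2) ≤ B ^ 2 * U) :
    C.E (a + b) (fun l => NJ (sm ω l) ^ 2) ≤ (A + B) ^ 2 * U := by
  have hpt : ∀ l : List M, NJ (sm ω l) ^ 2 ≤
      (1 + B / A) * NJ (sm ω (l.take a)) ^ 2 + (1 + A / B) * NJ (sm ω (l.drop a)) ^ 2 := by
    intro l
    have e : sm ω l = sm ω (l.take a) + sm ω (l.drop a) := by
      rw [← sm_append, List.take_append_drop]
    have h3 : NJ (sm ω l) ≤ NJ (sm ω (l.take a)) + NJ (sm ω (l.drop a)) := by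
      conv_lhs => rw [e]
      exact hJsub _ _
    have h4 : NJ (sm ω l) ^ 2 ≤ (NJ (sm ω (l.take a)) + NJ (sm ω (l.drop a))) ^ 2 :=
      pow_le_pow_left₀ (hJ0 _) h3 2
    refine h4.trans ?_
    generalize NJ (sm ω (l.take a)) = x
    generalize NJ (sm ω (l.drop a)) = y
    have h5 : (1 + B / A) * x ^ 2 + (1 + A / B) * y ^ 2 - (x + y) ^ 2
        = (B * x - A * y) ^ 2 / (A * B) := by
      field_simp
      ring
    have h6 : 0 ≤ (B * x - A * y) ^ 2 / (A * B) := by positivity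
    linarith
  have hc1 : 0 ≤ 1 + B / A := by positivity
  have hc2 : 0 ≤ 1 + A / B := by positivity
  calc C.E (a + b) (fun l => NJ (sm ω l) ^ 2)
      ≤ C.E (a + b) (fun l => (1 + B / A) * NJ (sm ω (l.take a)) ^ 2
          + (1 + A / B) * NJ (sm ω (l.drop a)) ^ 2) := E_mono C _ _ _ (fun l _ => hpt l)
    _ = (1 + B / A) * C.E a (fun l => NJ (sm ω l) ^ 2)
          + (1 + A / B) * C.E b (fun l => NJ (sm ω l) ^ 2) := by
        rw [E_add, E_const_mul, E_const_mul, E_take C a b (fun l => NJ (sm ω l) ^ 2),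
          E_drop C a b (fun l => NJ (sm ω l) ^ 2)]
    _ ≤ (1 + B / A) * (A ^ 2 * U) + (1 + A / B) * (B ^ 2 * U) :=
        add_le_add (mul_le_mul_of_nonneg_left h1 hc1) (mul_le_mul_of_nonneg_left h2 hc2)
    _ = (A + B) ^ 2 * U := by
        field_simp
        ring

end blocks

/-- the bound with the absolute constant `A` at time `t`, uniformly in `n`, in the chain and in
the function -/
def RY (NJ N1 : ∀ n : ℕ, (Fin n → ℝ) → ℝ) (t : ℕ) (A : ℝ) : Prop :=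
  ∀ (n : ℕ) (S : Type) [Fintype S] [DecidableEq S] (μ : S → ℝ) (P : Matrix S S ℝ), IsChain μ P →
    ∀ f : S → (Fin n → ℝ),
      ∑ i, ∑ j, μ i * (P ^ t) i j * NJ n (f j - f i) ^ 2 ≤
        A ^ 2 * ∑ i, ∑ j, μ i * P i j * N1 n (f j - f i) ^ 2

theorem RY_add (NJ N1 : ∀ n : ℕ, (Fin n → ℝ) → ℝ) (hJ0 : ∀ n x, 0 ≤ NJ n x)
    (hJsub : ∀ n x y, NJ n (x + y) ≤ NJ n x + NJ n y) (a b : ℕ) (A B : ℝ) (hA : 0 < A)
    (hB : 0 < B) (h1 : RY NJ N1 a A) (h2 : RY NJ N1 b B) : RY NJ N1 (a + b) (A + B) := by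
  intro n S _ _ μ P hc f
  have g1 := h1 n S μ P hc f
  have g2 := h2 n S μ P hc f
  obtain ⟨c0, c1, c2, c3, c4⟩ := hc
  rw [← back_E μ P c0 c1 c2 c3 c4 f a (fun u => NJ n u ^ 2)] at g1
  rw [← back_E μ P c0 c1 c2 c3 c4 f b (fun u => NJ n u ^ 2)] at g2
  rw [← back_E μ P c0 c1 c2 c3 c4 f (a + b) (fun u => NJ n u ^ 2)]
  exact E_block_add (backChain μ P c0 c1 c2 c3 c4) (NJ n) (hJ0 n) (hJsub n) _ a b A B _ hA hB g1 g2

private lemma cs_stepL (a s Q n : ℝ) (hn : 0 ≤ n) (hQ : 0 ≤ Q) (h : s ^ 2 ≤ n * Q) :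
    (a + s) ^ 2 ≤ (n + 1) * (a ^ 2 + Q) := by
  rcases hn.eq_or_lt with h0 | h0
  · rw [← h0, zero_mul] at h
    have hs : s = 0 := by
      have : s ^ 2 = 0 := le_antisymm h (sq_nonneg s)
      exact pow_eq_zero_iff (two_ne_zero) |>.1 this
    rw [← h0, hs]
    nlinarith
  · have key : n * ((n + 1) * (a ^ 2 + Q) - (a + s) ^ 2)
        = (n * a - s) ^ 2 + (n + 1) * (n * Q - s ^ 2) := by ring
    have h1 : 0 ≤ n * ((n + 1) * (a ^ 2 + Q) - (a + s) ^ 2) := by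
      rw [key]
      have : 0 ≤ (n + 1) * (n * Q - s ^ 2) := mul_nonneg (by linarith) (by linarith)
      nlinarith [sq_nonneg (n * a - s)]
    have h2 := (mul_nonneg_iff_of_pos_left h0).1 h1
    linarith

private lemma gauge_sm_sq_leL {M : Type} {X : Type*} [NormedAddCommGroup X] (N1 : X → ℝ)
    (h0 : N1 0 = 0) (hnn : ∀ x, 0 ≤ N1 x)
    (hsub : ∀ x y, N1 (x + y) ≤ N1 x + N1 y) (ω : M → X) (l : List M) :
    N1 (sm ω l) ^ 2 ≤ (l.length : ℝ) * (l.map (fun m => N1 (ω m) ^ 2)).sum := by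
  induction l with
  | nil => simp [sm, h0]
  | cons m l ih =>
    have hQ : 0 ≤ (l.map (fun m => N1 (ω m) ^ 2)).sum := by
      apply List.sum_nonneg
      intro x hx
      obtain ⟨y, _, rfl⟩ := List.mem_map.1 hx
      positivity
    have h1 : sm ω (m :: l) = ω m + sm ω l := by simp [sm]
    have h2 : N1 (sm ω (m :: l)) ≤ N1 (ω m) + N1 (sm ω l) := by
      rw [h1]
      exact hsub _ _
    have h3 : N1 (sm ω (m :: l)) ^ 2 ≤ (N1 (ω m) + N1 (sm ω l)) ^ 2 :=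
      pow_le_pow_left₀ (hnn _) h2 2
    have h4 := cs_stepL (N1 (ω m)) (N1 (sm ω l)) _ (l.length : ℝ) (Nat.cast_nonneg _) hQ ih
    refine h3.trans (h4.trans (le_of_eq ?_))
    simp only [List.length_cons, List.map_cons, List.sum_cons]
    push_cast
    ring

/-- the trivial bound -/
theorem RY_triv (NJ N1 : ∀ n : ℕ, (Fin n → ℝ) → ℝ) (hJ0 : ∀ n x, 0 ≤ NJ n x)
    (hJ1 : ∀ n x, NJ n x ≤ N1 n x) (h0 : ∀ n, N1 n 0 = 0)
    (hsub : ∀ n x y, N1 n (x + y) ≤ N1 n x + N1 n y) (r : ℕ) : RY NJ N1 r r := by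
  intro n S _ _ μ P hc f
  have hc' := isChain_pow hc r
  obtain ⟨c0, c1, c2, c3, c4⟩ := hc
  have hnn : ∀ x, 0 ≤ N1 n x := fun x => (hJ0 n x).trans (hJ1 n x)
  set C := backChain μ P c0 c1 c2 c3 c4 with hC
  set ω : S × S → (Fin n → ℝ) := fun m => f m.2 - f m.1 with hω
  have h1 : C.E r (fun l => N1 n (sm ω l) ^ 2)
      ≤ C.E r (fun l => (r : ℝ) * (l.map (fun m => N1 n (ω m) ^ 2)).sum) := by
    apply E_mono
    intro l hl
    have := gauge_sm_sq_leL (N1 n) (h0 n) hnn (hsub n) ω l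
    rwa [hl] at this
  have h2 : C.E 1 (fun l => (l.map (fun m => N1 n (ω m) ^ 2)).sum)
      = C.E 1 (fun l => N1 n (sm ω l) ^ 2) := by
    apply E_congr
    intro l hl
    obtain ⟨m, rfl⟩ := List.length_eq_one_iff.1 hl
    simp [sm]
  rw [E_const_mul, E_sum_marks, h2] at h1
  rw [hC, hω, back_E μ P c0 c1 c2 c3 c4 f r (fun u => N1 n u ^ 2),
    back_E μ P c0 c1 c2 c3 c4 f 1 (fun u => N1 n u ^ 2), pow_one] at h1
  have h3 : ∑ i, ∑ j, μ i * (P ^ r) i j * NJ n (f j - f i) ^ 2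
      ≤ ∑ i, ∑ j, μ i * (P ^ r) i j * N1 n (f j - f i) ^ 2 :=
    Finset.sum_le_sum fun i _ => Finset.sum_le_sum fun j _ =>
      mul_le_mul_of_nonneg_left (pow_le_pow_left₀ (hJ0 n _) (hJ1 n _) 2)
        (mul_nonneg (c0 i) (hc'.2.2.1 i j))
  refine h3.trans (h1.trans (le_of_eq ?_))
  ring

/-- **From one good time to all large times.** -/
theorem large_of_exists (NJ N1 : ∀ n : ℕ, (Fin n → ℝ) → ℝ) (hJ0 : ∀ n x, 0 ≤ NJ n x)
    (hJ1 : ∀ n x, NJ n x ≤ N1 n x) (hJsub : ∀ n x y, NJ n (x + y) ≤ NJ n x + NJ n y)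
    (h0 : ∀ n, N1 n 0 = 0) (hsub : ∀ n x y, N1 n (x + y) ≤ N1 n x + N1 n y)
    (hex : ∀ ε : ℝ, 0 < ε → ∃ t : ℕ, 1 ≤ t ∧ RY NJ N1 t (ε * t)) :
    ∀ ε : ℝ, 0 < ε → ∃ t0 : ℕ, ∀ t : ℕ, t0 ≤ t → RY NJ N1 t (ε * t) := by
  intro ε hε
  obtain ⟨t0, h⟩ := large_abs (fun t A => 0 ≤ A ∧ RY NJ N1 t A)
    (by
      rintro t A B hAB ⟨hA, hR⟩
      refine ⟨hA.trans hAB, fun n S _ _ μ P hc f => (hR n S μ P hc f).trans ?_⟩
      have hU0 : 0 ≤ ∑ i, ∑ j, μ i * P i j * N1 n (f j - f i) ^ 2 := by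
        obtain ⟨d0, _, d2, _, _⟩ := hc
        exact Finset.sum_nonneg fun i _ => Finset.sum_nonneg fun j _ =>
          mul_nonneg (mul_nonneg (d0 i) (d2 i j)) (sq_nonneg _)
      exact mul_le_mul_of_nonneg_right (pow_le_pow_left₀ hA hAB 2) hU0)
    (by
      rintro a b A B hA hB ⟨_, h1⟩ ⟨_, h2⟩
      exact ⟨(add_pos hA hB).le, RY_add NJ N1 hJ0 hJsub a b A B hA hB h1 h2⟩)
    (fun r _ => ⟨Nat.cast_nonneg r, RY_triv NJ N1 hJ0 hJ1 h0 hsub r⟩)
    (by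
      intro e he
      obtain ⟨t, ht, hR⟩ := hex e he
      exact ⟨t, ht, by positivity, hR⟩)
    ε hε
  exact ⟨t0, fun t ht => (h t ht).2⟩

end Vale.Agent.P125.Alpha.Large
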