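import Mathlib

/-!
Scalar bookkeeping for the finite (BV) argument of P125 (alpha):
telescoping of the potential, the arithmetic of one contraction step, and the iteration.
Everything here is about real numbers only.
-/

namespace Vale.Agent.P125.Alpha

/-- Telescoping of the potential recursion. -/
theorem telescope_aux (Phi Q : ℕ → ℝ) (L : ℕ)
    (hQ : ∀ j, j < L → Q (j + 1) ≤ Q j)
    (hrec : ∀ j, j < L → Phi (j + 1) ≤ Phi j - Q (j + 1) / 2 + Q j / 4) :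
    Phi L + ((L : ℝ) + 1) / 4 * Q L ≤ Phi 0 + Q 0 / 4 := by
  induction L with
  | zero => simp; linarith
  | succ n ih =>
    have h1 := ih (fun j hj => hQ j (Nat.lt_succ_of_lt hj))
      (fun j hj => hrec j (Nat.lt_succ_of_lt hj))
    have h2 := hrec n (Nat.lt_succ_self n)
    have h3 := hQ n (Nat.lt_succ_self n)
    have h4 : (n : ℝ) / 4 * Q (n + 1) ≤ (n : ℝ) / 4 * Q n :=
      mul_le_mul_of_nonneg_left h3 (by positivity)
    push_cast
    nlinarith [h1, h2, h4]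

theorem telescope (Phi Q : ℕ → ℝ) (L : ℕ)
    (hPhi : ∀ j, 0 ≤ Phi j)
    (hQ : ∀ j, j < L → Q (j + 1) ≤ Q j)
    (hrec : ∀ j, j < L → Phi (j + 1) ≤ Phi j - Q (j + 1) / 2 + Q j / 4) :
    ((L : ℝ) + 1) * Q L ≤ 4 * Phi 0 + Q 0 := by
  have h := telescope_aux Phi Q L hQ hrec
  have h0 := hPhi L
  nlinarith [h, h0]

/-- The same, solved for `Q L`. -/
theorem telescope_div (Phi Q : ℕ → ℝ) (L : ℕ)
    (hPhi : ∀ j, 0 ≤ Phi j)
    (hQ : ∀ j, j < L → Q (j + 1) ≤ Q j)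
    (hrec : ∀ j, j < L → Phi (j + 1) ≤ Phi j - Q (j + 1) / 2 + Q j / 4) :
    Q L ≤ (4 * Phi 0 + Q 0) / ((L : ℝ) + 1) := by
  have h := telescope Phi Q L hPhi hQ hrec
  have hL : (0 : ℝ) < (L : ℝ) + 1 := by positivity
  rw [le_div_iff₀ hL]
  linarith

/-- Arithmetic of one contraction step: from the (BV) inequality to the improved constant. -/
theorem bv_to_step_kappa (X M L κ t U EN2 ENV EV2 : ℝ)
    (hM : 1 ≤ M) (hL : 0 < L + 1) (hκ : 0 < κ) (ht : 0 ≤ t) (hU : 0 ≤ U)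
    (hBV : X ≤ M ^ 2 * EN2 - (M / 16) * (EN2 - 4 * (5 * EN2 + 4 * ENV) / (L + 1)))
    (hN0 : 0 ≤ EN2) (hN : EN2 ≤ κ ^ 2 * t ^ 2 * U)
    (hCS : ENV ^ 2 ≤ EN2 * EV2)
    (hV0 : 0 ≤ EV2) (hV : EV2 ≤ t ^ 2 * U)
    (hLκ : 32 * (5 / 4 + 1 / κ) ≤ L + 1) :
    X ≤ κ ^ 2 * (1 - 1 / (32 * M)) * (M * t) ^ 2 * U := by
  have hM0 : 0 < M := by linarith
  set W : ℝ := t ^ 2 * U with hW
  have hW0 : 0 ≤ W := by positivity
  -- bound on ENV
  have hENV : ENV ≤ κ * W := by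
    have h1 : ENV ^ 2 ≤ (κ * W) ^ 2 := by
      calc ENV ^ 2 ≤ EN2 * EV2 := hCS
        _ ≤ (κ ^ 2 * t ^ 2 * U) * (t ^ 2 * U) := mul_le_mul hN hV hV0 (by positivity)
        _ = (κ * W) ^ 2 := by rw [hW]; ring
    exact abs_le_of_sq_le_sq' h1 (by positivity) |>.2
  have hN' : EN2 ≤ κ ^ 2 * W := by rw [hW]; linarith [hN]
  -- rewrite the right-hand side of (BV)
  have hcoef : 0 ≤ M ^ 2 - M / 16 + (5 / 4) * M / (L + 1) := by
    have : 0 ≤ (5 / 4) * M / (L + 1) := by positivity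
    nlinarith
  have h1 : X ≤ (M ^ 2 - M / 16 + (5 / 4) * M / (L + 1)) * EN2 + M / (L + 1) * ENV := by
    have : M ^ 2 * EN2 - (M / 16) * (EN2 - 4 * (5 * EN2 + 4 * ENV) / (L + 1))
        = (M ^ 2 - M / 16 + (5 / 4) * M / (L + 1)) * EN2 + M / (L + 1) * ENV := by
      field_simp
      ring
    linarith
  have h2 : (M ^ 2 - M / 16 + (5 / 4) * M / (L + 1)) * EN2
      ≤ (M ^ 2 - M / 16 + (5 / 4) * M / (L + 1)) * (κ ^ 2 * W) :=
    mul_le_mul_of_nonneg_left hN' hcoef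
  have h3 : M / (L + 1) * ENV ≤ M / (L + 1) * (κ * W) :=
    mul_le_mul_of_nonneg_left hENV (by positivity)
  -- the key inequality (5/4 + 1/κ)/(L+1) ≤ 1/32
  have h4 : (5 / 4 + 1 / κ) / (L + 1) ≤ 1 / 32 := by
    rw [div_le_iff₀ hL]
    linarith
  have h5 : (M ^ 2 - M / 16 + (5 / 4) * M / (L + 1)) * (κ ^ 2 * W) + M / (L + 1) * (κ * W)
      = κ ^ 2 * W * (M ^ 2 - M / 16 + M * ((5 / 4 + 1 / κ) / (L + 1))) := by
    field_simp
    ring
  have h6 : κ ^ 2 * W * (M ^ 2 - M / 16 + M * ((5 / 4 + 1 / κ) / (L + 1)))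
      ≤ κ ^ 2 * W * (M ^ 2 - M / 16 + M * (1 / 32)) := by
    apply mul_le_mul_of_nonneg_left _ (by positivity)
    have := mul_le_mul_of_nonneg_left h4 hM0.le
    linarith
  have h7 : κ ^ 2 * W * (M ^ 2 - M / 16 + M * (1 / 32))
      = κ ^ 2 * (1 - 1 / (32 * M)) * (M * t) ^ 2 * U := by
    rw [hW]
    field_simp
    ring
  linarith

/-- Iteration of the contraction step: no supremum over chains is needed. -/
theorem iterate_kappa (R : ℕ → ℝ → Prop)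
    (hmono : ∀ t a b, a ≤ b → R t a → R t b)
    (h1 : R 1 1)
    (hstep : ∀ (t L : ℕ) (κ : ℝ), 1 ≤ t → 0 < κ → 32 * (5 / 4 + 1 / κ) ≤ (L : ℝ) + 1 → R t κ →
      R (2 ^ L * t) (κ * Real.sqrt (1 - 1 / (32 * 2 ^ L)))) :
    ∀ ε : ℝ, 0 < ε → ∃ t, 1 ≤ t ∧ R t ε := by
  intro ε hε
  obtain ⟨L, hL⟩ := exists_nat_ge (32 * (5 / 4 + 1 / ε))
  have hL' : 32 * (5 / 4 + 1 / ε) ≤ (L : ℝ) + 1 := by linarith
  set ρ : ℝ := Real.sqrt (1 - 1 / (32 * 2 ^ L)) with hρ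
  have hpow : (0 : ℝ) < 32 * 2 ^ L := by positivity
  have hρ0 : 0 ≤ ρ := Real.sqrt_nonneg _
  have hρ1 : ρ < 1 := by
    rw [hρ, Real.sqrt_lt' one_pos]
    have : 0 < 1 / (32 * (2 : ℝ) ^ L) := by positivity
    linarith
  have key : ∀ k : ℕ, ∃ t, 1 ≤ t ∧ R t (max ε (ρ ^ k)) := by
    intro k
    induction k with
    | zero => exact ⟨1, le_refl 1, hmono 1 1 _ (by simp) h1⟩
    | succ k ih =>
      obtain ⟨t, ht, hR⟩ := ih
      have hκ : 0 < max ε (ρ ^ k) := lt_max_of_lt_left hε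
      have hκε : ε ≤ max ε (ρ ^ k) := le_max_left _ _
      have hcond : 32 * (5 / 4 + 1 / max ε (ρ ^ k)) ≤ (L : ℝ) + 1 := by
        have : 1 / max ε (ρ ^ k) ≤ 1 / ε := one_div_le_one_div_of_le hε hκε
        linarith
      have hs := hstep t L _ ht hκ hcond hR
      refine ⟨2 ^ L * t, ?_, hmono _ _ _ ?_ hs⟩
      · exact Nat.one_le_iff_ne_zero.mpr (by positivity)
      · rw [max_mul_of_nonneg _ _ hρ0]
        apply max_le_max
        · nlinarith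
        · rw [pow_succ]
  obtain ⟨k, hk⟩ := exists_pow_lt_of_lt_one hε hρ1
  obtain ⟨t, ht, hR⟩ := key k
  exact ⟨t, ht, by rwa [max_eq_left hk.le] at hR⟩

end Vale.Agent.P125.Alpha
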