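import Vale.Agent.P125.Alpha.Iterate
import Vale.Agent.P125.Char.Back2
import Vale.Agent.P125.Char.Conv_A
import Vale.Agent.P125.Dich.Iter

set_option linter.unusedSectionVars false
set_option linter.unusedVariables false

/-!
# P125 (alpha): from (BV) on marked chains to the sub-ballistic bound for ordinary chains

Generic in the two size functions `NJ` (output) and `N1` (input) on `Fin n → ℝ`.
-/

namespace Vale.Agent.P125.Alpha

open Vale.Agent.P125.Dich Vale.Agent.P125.Char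
open scoped BigOperators

section Triv

variable {S M : Type} [Fintype S] [Fintype M]

private lemma cs_step (a s Q n : ℝ) (hn : 0 ≤ n) (hQ : 0 ≤ Q) (h : s ^ 2 ≤ n * Q) :
    (a + s) ^ 2 ≤ (n + 1) * (a ^ 2 + Q) := by
  rcases hn.eq_or_lt with h0 | h0
  · rw [← h0, zero_mul] at h
    have hs : s = 0 := by
      have : s ^ 2 = 0 := le_antisymm h (sq_nonneg s)
      exact pow_eq_zero_iff (two_ne_zero) |>.1 this
    rw [← h0, hs]
    nlinarith
  · have key : n * ((n + 1) * (a ^ 2 + Q) - (a + s) ^ 2)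
        = (n * a - s) ^ 2 + (n + 1) * (n * Q - s ^ 2) := by ring
    have h1 : 0 ≤ n * ((n + 1) * (a ^ 2 + Q) - (a + s) ^ 2) := by
      rw [key]
      have : 0 ≤ (n + 1) * (n * Q - s ^ 2) := mul_nonneg (by linarith) (by linarith)
      nlinarith [sq_nonneg (n * a - s)]
    have h2 := (mul_nonneg_iff_of_pos_left h0).1 h1
    linarith

/-- Cauchy-Schwarz for a list and a subadditive size function -/
lemma sub_sm_sq_le {X : Type*} [AddCommMonoid X] (N : X → ℝ) (h0 : N 0 = 0) (hn : ∀ x, 0 ≤ N x)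
    (hadd : ∀ x y, N (x + y) ≤ N x + N y) (ω : M → X) (l : List M) :
    N (sm ω l) ^ 2 ≤ (l.length : ℝ) * (l.map (fun m => N (ω m) ^ 2)).sum := by
  induction l with
  | nil => simp [sm, h0]
  | cons m l ih =>
    have hQ : 0 ≤ (l.map (fun m => N (ω m) ^ 2)).sum := by
      apply List.sum_nonneg
      intro x hx
      obtain ⟨y, _, rfl⟩ := List.mem_map.1 hx
      positivity
    have h1 : sm ω (m :: l) = ω m + sm ω l := by simp [sm]
    have h2 : N (sm ω (m :: l)) ≤ N (ω m) + N (sm ω l) := by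
      rw [h1]
      exact hadd _ _
    have h3 : N (sm ω (m :: l)) ^ 2 ≤ (N (ω m) + N (sm ω l)) ^ 2 :=
      pow_le_pow_left₀ (hn _) h2 2
    have h4 := cs_step (N (ω m)) (N (sm ω l)) _ (l.length : ℝ) (Nat.cast_nonneg _) hQ ih
    refine h3.trans (h4.trans (le_of_eq ?_))
    simp only [List.length_cons, List.map_cons, List.sum_cons]
    push_cast
    ring

/-- the trivial bound for mark functions and a subadditive size function -/
theorem E_sub_sq_le {X : Type*} [AddCommMonoid X] (N : X → ℝ) (h0 : N 0 = 0) (hn : ∀ x, 0 ≤ N x)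
    (hadd : ∀ x y, N (x + y) ≤ N x + N y) (C : MChain S M) (ω : M → X) (b : ℕ) :
    C.E b (fun l => N (sm ω l) ^ 2) ≤ (b : ℝ) ^ 2 * C.E 1 (fun l => N (sm ω l) ^ 2) := by
  have h1 : C.E b (fun l => N (sm ω l) ^ 2)
      ≤ C.E b (fun l => (b : ℝ) * (l.map (fun m => N (ω m) ^ 2)).sum) := by
    apply E_mono
    intro l hl
    have := sub_sm_sq_le N h0 hn hadd ω l
    rwa [hl] at this
  have h2 : C.E 1 (fun l => (l.map (fun m => N (ω m) ^ 2)).sum)
      = C.E 1 (fun l => N (sm ω l) ^ 2) := by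
    apply E_congr
    intro l hl
    obtain ⟨m, rfl⟩ := List.length_eq_one_iff.1 hl
    simp [sm]
  rw [E_const_mul, E_sum_marks, h2] at h1
  calc C.E b (fun l => N (sm ω l) ^ 2) ≤ _ := h1
    _ = (b : ℝ) ^ 2 * C.E 1 (fun l => N (sm ω l) ^ 2) := by ring

/-- the trivial bound for functions on ordinary chains -/
theorem fun_sub_sq_le {X : Type*} [NormedAddCommGroup X] (N : X → ℝ) (h0 : N 0 = 0)
    (hn : ∀ x, 0 ≤ N x) (hadd : ∀ x y, N (x + y) ≤ N x + N y)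
    {S : Type} [Fintype S] [DecidableEq S] (μ : S → ℝ) (P : Matrix S S ℝ) (hc : IsChain μ P)
    (f : S → X) (b : ℕ) :
    ∑ i, ∑ j, μ i * (P ^ b) i j * N (f j - f i) ^ 2 ≤
      (b : ℝ) ^ 2 * ∑ i, ∑ j, μ i * P i j * N (f j - f i) ^ 2 := by
  obtain ⟨h0', h1, h2, h3, h4⟩ := hc
  have key := E_sub_sq_le N h0 hn hadd (backChain μ P h0' h1 h2 h3 h4)
    (fun m : S × S => f m.2 - f m.1) b
  rw [back_E μ P h0' h1 h2 h3 h4 f b (fun u => N u ^ 2),
    back_E μ P h0' h1 h2 h3 h4 f 1 (fun u => N u ^ 2), pow_one] at key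
  exact key

end Triv

/-- the bound at time `t` with constant `a`, uniformly in the dimension and in the chain -/
def RA (NJ N1 : ∀ n : ℕ, (Fin n → ℝ) → ℝ) (t : ℕ) (a : ℝ) : Prop :=
  ∀ (n : ℕ) (S : Type) [Fintype S] [DecidableEq S] (μ : S → ℝ) (P : Matrix S S ℝ), IsChain μ P →
    ∀ f : S → Fin n → ℝ,
      ∑ i, ∑ j, μ i * (P ^ t) i j * NJ n (f j - f i) ^ 2 ≤
        a * (t : ℝ) ^ 2 * ∑ i, ∑ j, μ i * P i j * N1 n (f j - f i) ^ 2

/-- the statement (BV) for marked chains, in the shape used by `alpha_of_BV` -/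
def BVStatement (NJ N1 : ∀ n : ℕ, (Fin n → ℝ) → ℝ) : Prop :=
  ∀ (S M : Type) [Fintype S] [Fintype M] (C : MChain S M) (n : ℕ) (w : M → Fin n → ℝ),
    (∀ m, w (C.inv m) = - w m) → ∀ L : ℕ,
      C.E (2 ^ L) (fun l => NJ n (sm w l) ^ 2) ≤
        ((2 : ℝ) ^ L) ^ 2 * C.E 1 (fun l => NJ n (sm w l) ^ 2) -
          ((2 : ℝ) ^ L / 16) * (C.E 1 (fun l => NJ n (sm w l) ^ 2) -
            4 * (5 * C.E 1 (fun l => NJ n (sm w l) ^ 2) +
              4 * C.E 1 (fun l => NJ n (sm w l) * N1 n (sm w l))) / ((L : ℝ) + 1))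

private lemma amgm (x y s : ℝ) (hs : 0 < s) : x * y ≤ (1 / (2 * s)) * x ^ 2 + (s / 2) * y ^ 2 := by
  have h1 : 0 ≤ (x - s * y) ^ 2 / (2 * s) := by positivity
  have h2 : (x - s * y) ^ 2 / (2 * s) = (1 / (2 * s)) * x ^ 2 + (s / 2) * y ^ 2 - x * y := by
    field_simp
    ring
  linarith

section Main

variable (NJ N1 : ∀ n : ℕ, (Fin n → ℝ) → ℝ)

lemma U_nonneg {n : ℕ} {S : Type} [Fintype S] [DecidableEq S] {μ : S → ℝ} {P : Matrix S S ℝ}
    (hc : IsChain μ P) (g : S → S → ℝ) :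
    0 ≤ ∑ i, ∑ j, μ i * P i j * g i j ^ 2 := by
  obtain ⟨h0, _, h2, _, _⟩ := hc
  exact Finset.sum_nonneg fun i _ => Finset.sum_nonneg fun j _ =>
    mul_nonneg (mul_nonneg (h0 i) (h2 i j)) (sq_nonneg _)

theorem RA_step (hJ0 : ∀ n x, 0 ≤ NJ n x) (h10 : ∀ n, N1 n 0 = 0) (h1n : ∀ n x, 0 ≤ N1 n x)
    (h1add : ∀ n x y, N1 n (x + y) ≤ N1 n x + N1 n y) (hBV : BVStatement NJ N1)
    (t L : ℕ) (a : ℝ) (ht : 1 ≤ t) (ha : 0 < a)
    (hL : 32 * (5 / 4 + 1 / Real.sqrt a) ≤ (L : ℝ) + 1) (hR : RA NJ N1 t a) :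
    RA NJ N1 (2 ^ L * t) (a * (1 - 1 / (32 * 2 ^ L))) := by
  intro n S _ _ μ P hc f
  have hc' := isChain_pow hc t
  obtain ⟨h0, h1, h2, h3, h4⟩ := hc'
  have key := hBV S (S × S) (backChain μ (P ^ t) h0 h1 h2 h3 h4) n
    (fun m : S × S => f m.2 - f m.1)
    (by
      intro m
      have : (backChain μ (P ^ t) h0 h1 h2 h3 h4).inv m = Prod.swap m := rfl
      rw [this]
      simp) L
  rw [back_E μ (P ^ t) h0 h1 h2 h3 h4 f (2 ^ L) (fun u => NJ n u ^ 2),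
    back_E μ (P ^ t) h0 h1 h2 h3 h4 f 1 (fun u => NJ n u ^ 2),
    back_E μ (P ^ t) h0 h1 h2 h3 h4 f 1 (fun u => NJ n u * N1 n u), pow_one,
    ← pow_mul, mul_comm t (2 ^ L)] at key
  set U : ℝ := ∑ i, ∑ j, μ i * P i j * N1 n (f j - f i) ^ 2 with hU
  have hU0 : 0 ≤ U := U_nonneg (n := n) hc (fun i j => N1 n (f j - f i))
  set EN : ℝ := ∑ i, ∑ j, μ i * (P ^ t) i j * NJ n (f j - f i) ^ 2 with hEN
  set EV : ℝ := ∑ i, ∑ j, μ i * (P ^ t) i j * N1 n (f j - f i) ^ 2 with hEV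
  set ENV : ℝ := ∑ i, ∑ j, μ i * (P ^ t) i j * (NJ n (f j - f i) * N1 n (f j - f i)) with hENV
  have hT0 : 0 ≤ (t : ℝ) ^ 2 * U := by positivity
  have b1 : EN ≤ a * ((t : ℝ) ^ 2 * U) := by
    have := hR n S μ P hc f
    rw [mul_assoc] at this
    exact this
  have b2 : EV ≤ (t : ℝ) ^ 2 * U :=
    fun_sub_sq_le (N1 n) (h10 n) (h1n n) (h1add n) μ P hc f t
  have hs : 0 < Real.sqrt a := Real.sqrt_pos.2 ha
  have hss : Real.sqrt a * Real.sqrt a = a := Real.mul_self_sqrt ha.le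
  have b3 : ENV ≤ (1 / (2 * Real.sqrt a)) * EN + (Real.sqrt a / 2) * EV := by
    rw [hENV, hEN, hEV, Finset.mul_sum, Finset.mul_sum, ← Finset.sum_add_distrib]
    refine Finset.sum_le_sum fun i _ => ?_
    rw [Finset.mul_sum, Finset.mul_sum, ← Finset.sum_add_distrib]
    refine Finset.sum_le_sum fun j _ => ?_
    have hw : 0 ≤ μ i * (P ^ t) i j := mul_nonneg (h0 i) (h2 i j)
    have := mul_le_mul_of_nonneg_left
      (amgm (NJ n (f j - f i)) (N1 n (f j - f i)) (Real.sqrt a) hs) hw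
    calc μ i * (P ^ t) i j * (NJ n (f j - f i) * N1 n (f j - f i)) ≤ _ := this
      _ = _ := by ring
  have b4 : ENV ≤ Real.sqrt a * ((t : ℝ) ^ 2 * U) := by
    have c1 : (1 / (2 * Real.sqrt a)) * EN ≤ (1 / (2 * Real.sqrt a)) * (a * ((t : ℝ) ^ 2 * U)) :=
      mul_le_mul_of_nonneg_left b1 (by positivity)
    have c2 : (Real.sqrt a / 2) * EV ≤ (Real.sqrt a / 2) * ((t : ℝ) ^ 2 * U) :=
      mul_le_mul_of_nonneg_left b2 (by positivity)
    have c3 : (1 / (2 * Real.sqrt a)) * (a * ((t : ℝ) ^ 2 * U))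
        = (Real.sqrt a / 2) * ((t : ℝ) ^ 2 * U) := by
      have : (1 / (2 * Real.sqrt a)) * a = Real.sqrt a / 2 := by
        field_simp
        linarith [hss]
      rw [← mul_assoc, this]
    linarith
  have hM : (1 : ℝ) ≤ (2 : ℝ) ^ L := one_le_pow₀ (by norm_num)
  have fin := bv_to_step _ EN ENV ((t : ℝ) ^ 2 * U) a ((2 : ℝ) ^ L) ((L : ℝ) + 1) hM
    (by positivity) ha hT0 b1 b4 hL key
  calc ∑ i, ∑ j, μ i * (P ^ (2 ^ L * t)) i j * NJ n (f j - f i) ^ 2 ≤ _ := fin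
    _ = _ := by
      push_cast
      ring

/-- **(alpha) from (BV).** -/
theorem alpha_of_BV (hJ0 : ∀ n x, 0 ≤ NJ n x) (hJ1 : ∀ n x, NJ n x ≤ N1 n x)
    (h10 : ∀ n, N1 n 0 = 0)
    (h1add : ∀ n x y, N1 n (x + y) ≤ N1 n x + N1 n y) (hBV : BVStatement NJ N1) :
    ∀ ε : ℝ, 0 < ε → ∃ t : ℕ, 1 ≤ t ∧ RA NJ N1 t ε := by
  have h1n : ∀ n x, 0 ≤ N1 n x := fun n x => (hJ0 n x).trans (hJ1 n x)
  apply iterate_abs (RA NJ N1)
  · intro t a b hab hR n S _ _ μ P hc f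
    refine (hR n S μ P hc f).trans ?_
    have hU0 := U_nonneg (n := n) hc (fun i j => N1 n (f j - f i))
    have : 0 ≤ (t : ℝ) ^ 2 * ∑ i, ∑ j, μ i * P i j * N1 n (f j - f i) ^ 2 := by positivity
    rw [mul_assoc, mul_assoc]
    exact mul_le_mul_of_nonneg_right hab this
  · intro n S _ _ μ P hc f
    obtain ⟨h0, _, h2, _, _⟩ := hc
    rw [pow_one]
    simp only [Nat.cast_one, one_pow, mul_one, one_mul]
    refine Finset.sum_le_sum fun i _ => Finset.sum_le_sum fun j _ => ?_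
    exact mul_le_mul_of_nonneg_left (pow_le_pow_left₀ (hJ0 n _) (hJ1 n _) 2)
      (mul_nonneg (h0 i) (h2 i j))
  · intro t L a ht ha hL hR
    exact RA_step NJ N1 hJ0 h10 h1n h1add hBV t L a ht ha hL hR

end Main

end Vale.Agent.P125.Alpha
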