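import Vale.Agent.P125.Alpha.Window
import Vale.Agent.P125.Alpha.AltVar
import Vale.Agent.P125.Alpha.Iid
import Vale.Agent.P125.Alpha.Scalar
import Vale.Agent.P125.Alpha.Deficit
import Vale.Agent.P125.BV.Assemble
import Vale.Agent.P125.Alpha.Top

set_option linter.unusedSectionVars false
set_option linter.unusedVariables false

/-!
# P125 (alpha): the concrete inequality (BV) for the summing operator, and the final assembly
-/

namespace Vale.Agent.P125.Alpha.M23

open Vale.Agent.P125.Dich Vale.Agent.P125.Alpha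
open scoped BigOperators

/-- the sum of the first `k` coordinates -/
def pre {n : ℕ} (v : Fin n → ℝ) (k : ℕ) : ℝ := ∑ i : Fin n, if i.val < k then v i else 0

/-- the largest absolute value of a sum of initial coordinates -/
noncomputable def nJ (n : ℕ) (v : Fin n → ℝ) : ℝ :=
  Finset.univ.sup' Finset.univ_nonempty (fun k : Fin (n + 1) => |pre v k.val|)

/-- the sum of the absolute values of the coordinates -/
def n1 (n : ℕ) (v : Fin n → ℝ) : ℝ := ∑ i, |v i|

section basic

variable {n : ℕ}

lemma pre_add (u v : Fin n → ℝ) (k : ℕ) : pre (u + v) k = pre u k + pre v k := by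
  unfold pre
  rw [← Finset.sum_add_distrib]
  refine Finset.sum_congr rfl fun i _ => ?_
  split_ifs
  · rfl
  · simp

lemma pre_zero (k : ℕ) : pre (0 : Fin n → ℝ) k = 0 := by
  unfold pre
  simp

lemma pre_neg (v : Fin n → ℝ) (k : ℕ) : pre (-v) k = - pre v k := by
  unfold pre
  rw [← Finset.sum_neg_distrib]
  refine Finset.sum_congr rfl fun i _ => ?_
  split_ifs
  · rfl
  · simp

lemma pre_sm {M : Type} [Fintype M] (w : M → Fin n → ℝ) (l : List M) (k : ℕ) :
    pre (sm w l) k = (l.map (fun m => pre (w m) k)).sum := by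
  induction l with
  | nil => simp [sm, pre_zero]
  | cons m l ih =>
    rw [sm_cons, pre_add, ih]
    simp

lemma abs_pre_le_nJ (v : Fin n → ℝ) (k : Fin (n + 1)) : |pre v k.val| ≤ nJ n v :=
  Finset.le_sup' (fun k : Fin (n + 1) => |pre v k.val|) (Finset.mem_univ k)

lemma exists_nJ (v : Fin n → ℝ) : ∃ k : Fin (n + 1), nJ n v = |pre v k.val| := by
  obtain ⟨k, _, hk⟩ := Finset.exists_mem_eq_sup' (Finset.univ_nonempty (α := Fin (n + 1)))
    (fun k : Fin (n + 1) => |pre v k.val|)
  exact ⟨k, hk⟩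

lemma nJ_nonneg (v : Fin n → ℝ) : 0 ≤ nJ n v :=
  (abs_nonneg _).trans (abs_pre_le_nJ v 0)

lemma nJ_neg (v : Fin n → ℝ) : nJ n (-v) = nJ n v := by
  unfold nJ
  congr 1
  funext k
  rw [pre_neg, abs_neg]

lemma abs_pre_le_n1 (v : Fin n → ℝ) (k : ℕ) : |pre v k| ≤ n1 n v := by
  unfold pre n1
  refine (Finset.abs_sum_le_sum_abs _ _).trans (Finset.sum_le_sum fun i _ => ?_)
  split_ifs
  · exact le_refl _
  · simp

lemma nJ_le_n1 (v : Fin n → ℝ) : nJ n v ≤ n1 n v :=
  Finset.sup'_le _ _ fun k _ => abs_pre_le_n1 v k.val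

lemma n1_zero : n1 n (0 : Fin n → ℝ) = 0 := by
  unfold n1
  simp

lemma n1_add (u v : Fin n → ℝ) : n1 n (u + v) ≤ n1 n u + n1 n v := by
  unfold n1
  rw [← Finset.sum_add_distrib]
  exact Finset.sum_le_sum fun i _ => abs_add_le _ _

lemma pre_succ_sub (v : Fin n → ℝ) (i : Fin n) : pre v (i.val + 1) - pre v i.val = v i := by
  unfold pre
  rw [← Finset.sum_sub_distrib]
  rw [Finset.sum_eq_single i]
  · simp
  · intro j _ hj
    have hj' : j.val ≠ i.val := fun h => hj (Fin.ext h)
    by_cases h1 : j.val < i.val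
    · rw [if_pos (by omega), if_pos h1, sub_self]
    · rw [if_neg (by omega), if_neg h1, sub_self]
  · intro h
    exact absurd (Finset.mem_univ i) h

lemma tv_eq (v : Fin n → ℝ) :
    ∑ i ∈ Finset.range n, |pre v (i + 1) - pre v i| = n1 n v := by
  rw [← Fin.sum_univ_eq_sum_range (fun i => |pre v (i + 1) - pre v i|) n]
  unfold n1
  refine Finset.sum_congr rfl fun i _ => ?_
  rw [pre_succ_sub]

end basic

section chain

variable {S M : Type} [Fintype S] [Fintype M] (C : MChain S M) {n : ℕ} (w : M → Fin n → ℝ)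

/-- the profile of a mark -/
def gg (m : M) (k : Fin (n + 1)) : ℝ := pre (w m) k.val

/-- the size of a mark -/
noncomputable def NN (m : M) : ℝ := nJ n (w m)

lemma hg (e : M) (k : Fin (n + 1)) : |gg w e k| ≤ NN w e := abs_pre_le_nJ (w e) k

lemma hN0 (e : M) : 0 ≤ NN w e := nJ_nonneg _

variable {w}

lemma hNi (hw : ∀ m, w (C.inv m) = - w m) (e : M) : NN w (C.inv e) = NN w e := by
  unfold NN
  rw [hw, nJ_neg]

lemma hgi (hw : ∀ m, w (C.inv m) = - w m) (e : M) (k : Fin (n + 1)) :
    gg w (C.inv e) k = - gg w e k := by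
  unfold gg
  rw [hw, pre_neg]

variable (w)

/-- the weight of a window -/
noncomputable def mu (l : List M) : ℝ := wt (gg w) (NN w) l

/-- the alternation count of a window -/
noncomputable def cc (l : List M) : ℕ := cW (gg w) (NN w) l

/-- the first letter of a window -/
noncomputable def sg (l : List M) : ℝ := sgW (gg w) (NN w) l

lemma take_ne_nil {m : ℕ} (hm : 1 ≤ m) {l : List M} (hl : l.length = m + m) : l.take m ≠ [] := by
  intro h
  have h1 : (l.take m).length = 0 := by rw [h]; rfl
  rw [List.length_take, hl] at h1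
  omega

lemma drop_ne_nil {m : ℕ} (hm : 1 ≤ m) {l : List M} (hl : l.length = m + m) : l.drop m ≠ [] := by
  intro h
  have h1 : (l.drop m).length = 0 := by rw [h]; rfl
  rw [List.length_drop, hl] at h1
  omega

lemma Q_anti (m : ℕ) (hm : 1 ≤ m) :
    C.E (m + m) (fun l => mu w l ^ 2) ≤ C.E m (fun l => mu w l ^ 2) := by
  rw [← E_take C m m (fun l => mu w l ^ 2)]
  apply E_mono
  intro l hl
  have h1 := wt_append_le_left (hg w) (l.take m) (l.drop m) (take_ne_nil hm hl)
  rw [List.take_append_drop] at h1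
  have h0 : 0 ≤ wt (gg w) (NN w) l := wt_nonneg l
  unfold mu
  nlinarith

lemma rec_step (hw : ∀ m, w (C.inv m) = - w m) (m : ℕ) (hm : 1 ≤ m) :
    C.E (m + m) (fun l => mu w l ^ 2 * cc w l) ≤
      C.E m (fun l => mu w l ^ 2 * cc w l) - C.E (m + m) (fun l => mu w l ^ 2) / 2
        + C.E m (fun l => mu w l ^ 2) / 4 := by
  have hpt : ∀ l : List M, l.length = m + m → mu w l ^ 2 * cc w l + (1 / 2) * mu w l ^ 2 ≤
      ((1 / 2) * (mu w (l.take m) ^ 2 * cc w (l.take m)) +
        (1 / 2) * (mu w (l.drop m) ^ 2 * cc w (l.drop m))) +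
        ((1 / 4) * (mu w (l.take m) * mu w (l.drop m)) +
         (1 / 4) * ((mu w (l.take m) * sg w (l.take m)) * (mu w (l.drop m) * sg w (l.drop m)))) := by
    intro l hl
    have key := window_ineq (hg w) (l.take m) (l.drop m) (take_ne_nil hm hl) (drop_ne_nil hm hl)
    rw [List.take_append_drop] at key
    unfold mu cc sg
    linarith
  have hE := E_mono C (m + m) _ _ (fun l hl => hpt l hl)
  rw [E_add, E_add, E_add, E_add, E_const_mul, E_const_mul, E_const_mul, E_const_mul,
    E_const_mul,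
    E_take C m m (fun l => mu w l ^ 2 * cc w l), E_drop C m m (fun l => mu w l ^ 2 * cc w l)] at hE
  have h3 := E_iid_antisymm C m (fun l => mu w l * sg w l) (by
    intro l
    exact wt_mul_sgW_rev C.inv (hg w) (hNi C hw) (hgi C hw) l)
  have h4 := E_prod_le C m (mu w)
  linarith

lemma potential (hw : ∀ m, w (C.inv m) = - w m) (L : ℕ) :
    ((L : ℝ) + 1) * C.E (2 ^ L) (fun l => mu w l ^ 2) ≤
      4 * C.E 1 (fun l => mu w l ^ 2 * cc w l) + C.E 1 (fun l => mu w l ^ 2) := by
  have h := telescope (fun j => C.E (2 ^ j) (fun l => mu w l ^ 2 * cc w l))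
    (fun j => C.E (2 ^ j) (fun l => mu w l ^ 2)) L
    (by
      intro j
      apply E_nonneg
      intro l _
      positivity)
    (by
      intro j _
      have e : 2 ^ (j + 1) = 2 ^ j + 2 ^ j := by ring
      show C.E (2 ^ (j + 1)) _ ≤ _
      rw [e]
      exact Q_anti C w (2 ^ j) Nat.one_le_two_pow)
    (by
      intro j _
      have e : 2 ^ (j + 1) = 2 ^ j + 2 ^ j := by ring
      show C.E (2 ^ (j + 1)) _ ≤ _ - C.E (2 ^ (j + 1)) _ / 2 + _
      rw [e]
      exact rec_step C w hw (2 ^ j) Nat.one_le_two_pow)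
  simpa using h

lemma mnW_single (m : M) : mnW (NN w) [m] = NN w m := rfl

lemma mu_single_sq_le (m : M) : mu w [m] ^ 2 ≤ NN w m ^ 2 := by
  unfold mu wt
  split_ifs with h
  · rw [mnW_single]
  · have := sq_nonneg (NN w m)
    simpa using this

lemma n1_nonneg (v : Fin n → ℝ) : 0 ≤ n1 n v := (nJ_nonneg v).trans (nJ_le_n1 v)

lemma single_edge (m : M) :
    mu w [m] ^ 2 * cc w [m] ≤ NN w m ^ 2 + NN w m * n1 n (w m) := by
  have hV := n1_nonneg (w m)
  have hN := hN0 w m
  by_cases h : okW (gg w) (NN w) [m]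
  · have hmu : mu w [m] = NN w m := by
      unfold mu wt
      rw [if_pos h, mnW_single]
    have hpos : 0 < NN w m := by
      have := h.1
      rwa [mnW_single] at this
    have hvar := altLen_var (Aset (gg w) (NN w) [m]) (Bset (gg w) (NN w) [m])
      (fun k : Fin (n + 1) => k.val) Fin.val_strictMono n
      (fun x _ => Nat.lt_succ_iff.1 x.2) (pre (w m)) (3 / 4 * NN w m)
      (by
        intro x hx
        have h1 : dA (gg w) (NN w) [m] x ≤ mnW (NN w) [m] / 4 := (Finset.mem_filter.1 hx).2
        rw [mnW_single] at h1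
        simp only [dA, List.map_cons, List.map_nil, List.sum_cons, List.sum_nil, add_zero] at h1
        have h2 : gg w m x = pre (w m) x.val := rfl
        rw [h2] at h1
        linarith)
      (by
        intro x hx
        have h1 : dB (gg w) (NN w) [m] x ≤ mnW (NN w) [m] / 4 := (Finset.mem_filter.1 hx).2
        rw [mnW_single] at h1
        simp only [dB, List.map_cons, List.map_nil, List.sum_cons, List.sum_nil, add_zero] at h1
        have h2 : gg w m x = pre (w m) x.val := rfl
        rw [h2] at h1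
        linarith)
      h.2.2
    rw [tv_eq] at hvar
    rw [hmu]
    have hc : ((cc w [m] : ℕ) : ℝ) = (altLen (Aset (gg w) (NN w) [m]) (Bset (gg w) (NN w) [m]) : ℝ) := rfl
    rw [hc]
    set c : ℝ := (altLen (Aset (gg w) (NN w) [m]) (Bset (gg w) (NN w) [m]) : ℝ) with hcdef
    have h5 : (c - 1) * NN w m ≤ n1 n (w m) := by nlinarith
    nlinarith
  · have hmu : mu w [m] = 0 := by
      unfold mu wt
      rw [if_neg h]
    rw [hmu]
    have : 0 ≤ NN w m ^ 2 + NN w m * n1 n (w m) := by positivity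
    simpa using this

lemma nJ_add (u v : Fin n → ℝ) : nJ n (u + v) ≤ nJ n u + nJ n v := by
  apply Finset.sup'_le
  intro k _
  rw [pre_add]
  exact (abs_add_le _ _).trans (add_le_add (abs_pre_le_nJ u k) (abs_pre_le_nJ v k))

lemma nJ_zero : nJ n (0 : Fin n → ℝ) = 0 := by
  apply le_antisymm _ (nJ_nonneg _)
  apply Finset.sup'_le
  intro k _
  rw [pre_zero, abs_zero]

lemma nJ_sm_le (l : List M) : nJ n (sm w l) ≤ (l.map (NN w)).sum := by
  induction l with
  | nil => simp [sm, nJ_zero]
  | cons m l ih =>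
    rw [sm_cons, List.map_cons, List.sum_cons]
    exact (nJ_add _ _).trans (add_le_add (le_refl _) ih)

lemma dA_eq (l : List M) (k : Fin (n + 1)) :
    dA (gg w) (NN w) l k = (l.map (NN w)).sum - pre (sm w l) k.val := by
  induction l with
  | nil => simp [dA, sm, pre_zero]
  | cons m l ih =>
    unfold dA at ih ⊢
    rw [sm_cons, pre_add, List.map_cons, List.sum_cons, List.map_cons, List.sum_cons, ih]
    unfold gg
    ring

lemma dB_eq (l : List M) (k : Fin (n + 1)) :
    dB (gg w) (NN w) l k = (l.map (NN w)).sum + pre (sm w l) k.val := by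
  induction l with
  | nil => simp [dB, sm, pre_zero]
  | cons m l ih =>
    unfold dB at ih ⊢
    rw [sm_cons, pre_add, List.map_cons, List.sum_cons, List.map_cons, List.sum_cons, ih]
    unfold gg
    ring

lemma nonempty_of_deficit (l : List M)
    (h : (l.map (NN w)).sum - nJ n (sm w l) ≤ mnW (NN w) l / 4) :
    (Aset (gg w) (NN w) l ∪ Bset (gg w) (NN w) l).Nonempty := by
  obtain ⟨k, hk⟩ := exists_nJ (sm w l)
  refine ⟨k, ?_⟩
  rcases le_total 0 (pre (sm w l) k.val) with h0 | h0
  · apply Finset.mem_union_left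
    refine Finset.mem_filter.2 ⟨Finset.mem_univ _, ?_⟩
    rw [dA_eq]
    rw [abs_of_nonneg h0] at hk
    linarith
  · apply Finset.mem_union_right
    refine Finset.mem_filter.2 ⟨Finset.mem_univ _, ?_⟩
    rw [dB_eq]
    rw [abs_of_nonpos h0] at hk
    linarith

open Classical in
lemma deficit (l : List M) (hl : l ≠ []) :
    (1 / 16) * ((l.map (fun m => NN w m ^ 2)).sum - 4 * (l.length : ℝ) * mu w l ^ 2)
      ≤ (l.length : ℝ) * (l.map (fun m => NN w m ^ 2)).sum - nJ n (sm w l) ^ 2 := by
  have hne : l.map (NN w) ≠ [] := by simpa using hl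
  have hT0 := nJ_nonneg (sm w l)
  have hmem := mnL_mem (l.map (NN w)) hne
  have hmn0 : 0 ≤ mnL (l.map (NN w)) := by
    obtain ⟨e, _, he⟩ := List.mem_map.1 hmem
    rw [← he]
    exact hN0 w e
  have key := deficit_combined (l.map (NN w)) (mnL (l.map (NN w))) (mxL (l.map (NN w)))
    (nJ n (sm w l)) (if okW (gg w) (NN w) l then 1 else 0)
    hmem (mxL_mem _ hne) (fun x hx => mnL_le _ x hx) (fun x hx => le_mxL _ x hx) hmn0
    (by rw [abs_of_nonneg hT0]; exact nJ_sm_le w l)
    (by split_ifs <;> norm_num)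
    (by
      intro h1 h2 h3
      rw [abs_of_nonneg hT0] at h3
      rw [if_pos]
      exact ⟨h1, h2, nonempty_of_deficit w l h3⟩)
  have e1 : sq2 (l.map (NN w)) = (l.map (fun m => NN w m ^ 2)).sum := by
    unfold sq2
    rw [List.map_map]
    rfl
  have e2 : ((l.map (NN w)).length : ℝ) = (l.length : ℝ) := by rw [List.length_map]
  have e3 : mu w l ^ 2 = mnL (l.map (NN w)) ^ 2 * (if okW (gg w) (NN w) l then 1 else 0) := by
    unfold mu wt mnW
    split_ifs <;> simp
  rw [e1, e2] at key
  rw [e3]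
  linarith

end chain

/-- **(BV)** for the summing operator -/
theorem bvStatement : BVStatement nJ n1 := by
  intro S M _ _ C n w hw L
  have h := Vale.Agent.P125.BV.bv_assemble C (NN w) (fun m => n1 n (w m))
    (fun l => nJ n (sm w l)) (mu w) (cc w) L (potential C w hw L) (mu_single_sq_le w)
    (single_edge w)
    (by
      intro l hl
      apply deficit w l
      intro h0
      rw [h0] at hl
      have : 0 < 2 ^ L := by positivity
      simp at hl
      omega)
  have e1 : C.E 1 (fun l => (l.map (fun m => NN w m ^ 2)).sum)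
      = C.E 1 (fun l => nJ n (sm w l) ^ 2) := by
    apply E_congr
    intro l hl
    obtain ⟨m, rfl⟩ := List.length_eq_one_iff.1 hl
    simp [sm, NN]
  have e2 : C.E 1 (fun l => (l.map (fun m => NN w m * n1 n (w m))).sum)
      = C.E 1 (fun l => nJ n (sm w l) * n1 n (sm w l)) := by
    apply E_congr
    intro l hl
    obtain ⟨m, rfl⟩ := List.length_eq_one_iff.1 hl
    simp [sm, NN]
  rw [e1, e2] at h
  exact h

/-- **(alpha)**: the summing operators are uniformly sub-ballistic on reversible chains -/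
theorem alpha : ∀ ε : ℝ, 0 < ε → ∃ t : ℕ, 1 ≤ t ∧ RA nJ n1 t ε :=
  alpha_of_BV (NJ := nJ) (N1 := n1) (fun n x => nJ_nonneg x) (fun n x => nJ_le_n1 x)
    (fun n => n1_zero) (fun n x y => n1_add x y) bvStatement

end Vale.Agent.P125.Alpha.M23
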