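import Mathlib

/-!
# Alternation count of two disjoint sets of positions (left-to-right scan)

`scan A B n` reads the positions `0, 1, ..., n-1`; a position in `A` is the letter `+`
(`true`), a position in `B` the letter `-` (`false`).  The state is the pair
(number of runs seen so far, last letter).
-/

namespace Vale.Agent.P125.Alpha

/-- one step of the scan -/
def stepScan (a b : Bool) (s : ℕ × Bool) : ℕ × Bool :=
  if a = true then (if s.1 = 0 ∨ s.2 = false then (s.1 + 1, true) else s)
  else if b = true then (if s.1 = 0 ∨ s.2 = true then (s.1 + 1, false) else s)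
  else s

/-- the scan of the positions `0, ..., n-1` -/
def scan (A B : ℕ → Prop) [DecidablePred A] [DecidablePred B] : ℕ → ℕ × Bool
  | 0 => (0, true)
  | k + 1 => stepScan (decide (A k)) (decide (B k)) (scan A B k)

/-- number of runs (length of the collapsed alternating word) -/
def cnt (A B : ℕ → Prop) [DecidablePred A] [DecidablePred B] (n : ℕ) : ℕ := (scan A B n).1

/-- last letter of the word (`true` = the last position of `A ∪ B` lies in `A`) -/
def lastA (A B : ℕ → Prop) [DecidablePred A] [DecidablePred B] (n : ℕ) : Bool := (scan A B n).2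

theorem step_inv (a b a' b' : Bool) (ha : a' = true → a = true) (hb : b' = true → b = true)
    (hd : ¬ (a = true ∧ b = true)) (s s' : ℕ × Bool) (h1 : s'.1 ≤ s.1)
    (h2 : s'.1 = s.1 → s'.2 = s.2) :
    (stepScan a' b' s').1 ≤ (stepScan a b s).1 ∧
      ((stepScan a' b' s').1 = (stepScan a b s).1 →
        (stepScan a' b' s').2 = (stepScan a b s).2) := by
  obtain ⟨c, l⟩ := s
  obtain ⟨c', l'⟩ := s'
  simp only at h1 h2
  cases a <;> cases b <;> cases a' <;> cases b' <;> cases l <;> cases l' <;>
    simp [stepScan] at ha hb hd h2 ⊢ <;> (try split_ifs) <;> (try simp) <;> (try omega)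

theorem scan_inv (A B A' B' : ℕ → Prop) [DecidablePred A] [DecidablePred B] [DecidablePred A']
    [DecidablePred B'] (hA : ∀ k, A' k → A k) (hB : ∀ k, B' k → B k)
    (hd : ∀ k, ¬ (A k ∧ B k)) (n : ℕ) :
    (scan A' B' n).1 ≤ (scan A B n).1 ∧
      ((scan A' B' n).1 = (scan A B n).1 → (scan A' B' n).2 = (scan A B n).2) := by
  induction n with
  | zero => simp [scan]
  | succ k ih =>
    simp only [scan]
    refine step_inv _ _ _ _ ?_ ?_ ?_ _ _ ih.1 ih.2
    · intro h
      simpa using hA k (by simpa using h)
    · intro h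
      simpa using hB k (by simpa using h)
    · intro h
      exact hd k ⟨by simpa using h.1, by simpa using h.2⟩

/-- monotonicity of the alternation count -/
theorem cnt_mono (A B A' B' : ℕ → Prop) [DecidablePred A] [DecidablePred B] [DecidablePred A']
    [DecidablePred B'] (hA : ∀ k, A' k → A k) (hB : ∀ k, B' k → B k)
    (hd : ∀ k, ¬ (A k ∧ B k)) (n : ℕ) : cnt A' B' n ≤ cnt A B n :=
  (scan_inv A B A' B' hA hB hd n).1

/-- equal counts force equal last letters -/
theorem last_eq_of_cnt_eq (A B A' B' : ℕ → Prop) [DecidablePred A] [DecidablePred B]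
    [DecidablePred A'] [DecidablePred B'] (hA : ∀ k, A' k → A k) (hB : ∀ k, B' k → B k)
    (hd : ∀ k, ¬ (A k ∧ B k)) (n : ℕ) (h : cnt A' B' n = cnt A B n) :
    lastA A' B' n = lastA A B n :=
  (scan_inv A B A' B' hA hB hd n).2 h

theorem step_swap (a b : Bool) (hd : ¬ (a = true ∧ b = true)) (s s' : ℕ × Bool)
    (h1 : s'.1 = s.1) (h2 : 0 < s.1 → s'.2 = !s.2) :
    (stepScan b a s').1 = (stepScan a b s).1 ∧
      (0 < (stepScan a b s).1 → (stepScan b a s').2 = !(stepScan a b s).2) := by
  obtain ⟨c, l⟩ := s
  obtain ⟨c', l'⟩ := s'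
  simp only at h1 h2
  subst h1
  cases a <;> cases b <;> cases l <;> cases l' <;>
    simp [stepScan] at hd h2 ⊢ <;> (try split_ifs) <;> (try simp) <;> (try omega)

theorem scan_swap (A B : ℕ → Prop) [DecidablePred A] [DecidablePred B]
    (hd : ∀ k, ¬ (A k ∧ B k)) (n : ℕ) :
    (scan B A n).1 = (scan A B n).1 ∧
      (0 < (scan A B n).1 → (scan B A n).2 = !(scan A B n).2) := by
  induction n with
  | zero => simp [scan]
  | succ k ih =>
    simp only [scan]
    refine step_swap _ _ ?_ _ _ ih.1 ih.2
    intro h
    exact hd k ⟨by simpa using h.1, by simpa using h.2⟩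

/-- exchanging the two sets does not change the count -/
theorem cnt_swap (A B : ℕ → Prop) [DecidablePred A] [DecidablePred B]
    (hd : ∀ k, ¬ (A k ∧ B k)) (n : ℕ) : cnt B A n = cnt A B n :=
  (scan_swap A B hd n).1

/-- exchanging the two sets flips the last letter -/
theorem last_swap (A B : ℕ → Prop) [DecidablePred A] [DecidablePred B]
    (hd : ∀ k, ¬ (A k ∧ B k)) (n : ℕ) (h : 0 < cnt A B n) :
    lastA B A n = !lastA A B n :=
  (scan_swap A B hd n).2 h

theorem step_fst_le (a b : Bool) (s : ℕ × Bool) : s.1 ≤ (stepScan a b s).1 := by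
  obtain ⟨c, l⟩ := s
  cases a <;> cases b <;> cases l <;>
    simp [stepScan] <;> (try split_ifs) <;> (try simp)

theorem step_pos (a b : Bool) (h : a = true ∨ b = true) (s : ℕ × Bool) :
    0 < (stepScan a b s).1 := by
  obtain ⟨c, l⟩ := s
  cases a <;> cases b <;> cases l <;>
    simp [stepScan] at h ⊢ <;> (try split_ifs) <;> (try simp) <;> (try omega)

theorem cnt_succ_ge (A B : ℕ → Prop) [DecidablePred A] [DecidablePred B] (n : ℕ) :
    cnt A B n ≤ cnt A B (n + 1) := by
  simp only [cnt, scan]
  exact step_fst_le _ _ _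

theorem cnt_le_of_le (A B : ℕ → Prop) [DecidablePred A] [DecidablePred B] {m n : ℕ}
    (h : m ≤ n) : cnt A B m ≤ cnt A B n := by
  induction n, h using Nat.le_induction with
  | base => exact le_rfl
  | succ k _ ih => exact ih.trans (cnt_succ_ge A B k)

/-- the count is positive as soon as one position carries a letter -/
theorem cnt_pos (A B : ℕ → Prop) [DecidablePred A] [DecidablePred B] (n : ℕ)
    (h : ∃ k, k < n ∧ (A k ∨ B k)) : 0 < cnt A B n := by
  obtain ⟨k, hk, hAB⟩ := h
  have h1 : 0 < cnt A B (k + 1) := by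
    simp only [cnt, scan]
    apply step_pos
    rcases hAB with h | h
    · left; simpa using h
    · right; simpa using h
  exact lt_of_lt_of_le h1 (cnt_le_of_le A B hk)

theorem abs_sub_le_sum_Ico (g : ℕ → ℝ) {j k : ℕ} (h : j ≤ k) :
    |g k - g j| ≤ ∑ i ∈ Finset.Ico j k, |g (i + 1) - g i| := by
  have h1 := dist_le_Ico_sum_dist g h
  simp only [Real.dist_eq] at h1
  rw [abs_sub_comm]
  refine h1.trans (le_of_eq ?_)
  exact Finset.sum_congr rfl (fun i _ => abs_sub_comm _ _)

theorem scan_var (g : ℕ → ℝ) (a : ℝ) (ha : 0 < a) (n : ℕ) :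
    0 < (scan (fun k => a ≤ g k) (fun k => g k ≤ -a) n).1 →
    ∃ j, j < n ∧ ((scan (fun k => a ≤ g k) (fun k => g k ≤ -a) n).2 = true → a ≤ g j) ∧
      ((scan (fun k => a ≤ g k) (fun k => g k ≤ -a) n).2 = false → g j ≤ -a) ∧
      (((scan (fun k => a ≤ g k) (fun k => g k ≤ -a) n).1 : ℝ) - 1) * (2 * a) ≤
        ∑ i ∈ Finset.range j, |g (i + 1) - g i| := by
  induction n with
  | zero => intro h; simp [scan] at h
  | succ k ih =>
    intro hpos
    simp only [scan] at hpos ⊢
    set s := scan (fun k => a ≤ g k) (fun k => g k ≤ -a) k with hs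
    have hnn : ∀ m : ℕ, 0 ≤ ∑ i ∈ Finset.range m, |g (i + 1) - g i| := fun m =>
      Finset.sum_nonneg (fun i _ => abs_nonneg _)
    by_cases hA : a ≤ g k
    · by_cases hc : s.1 = 0 ∨ s.2 = false
      · have hstep : stepScan (decide (a ≤ g k)) (decide (g k ≤ -a)) s = (s.1 + 1, true) := by
          simp [stepScan, hA, hc]
        rw [hstep]
        refine ⟨k, Nat.lt_succ_self k, fun _ => hA, fun h => by simp at h, ?_⟩
        by_cases h0 : s.1 = 0
        · simpa [h0] using hnn k
        · have hl : s.2 = false := by tauto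
          obtain ⟨j, hj, _, hjB, hvar⟩ := ih (Nat.pos_of_ne_zero h0)
          have hgj := hjB hl
          have htri := abs_sub_le_sum_Ico g hj.le
          have hsplit := Finset.sum_range_add_sum_Ico (fun i => |g (i + 1) - g i|) hj.le
          have h2a : 2 * a ≤ |g k - g j| := by
            rw [abs_of_nonneg (by linarith)]
            linarith
          push_cast
          nlinarith
      · have hstep : stepScan (decide (a ≤ g k)) (decide (g k ≤ -a)) s = s := by
          simp [stepScan, hA, hc]
        rw [hstep]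
        have hpos' : 0 < s.1 := by
          rcases Nat.eq_zero_or_pos s.1 with h | h
          · exact absurd (Or.inl h) hc
          · exact h
        obtain ⟨j, hj, h1, h2, h3⟩ := ih hpos'
        exact ⟨j, by omega, h1, h2, h3⟩
    · by_cases hB : g k ≤ -a
      · by_cases hc : s.1 = 0 ∨ s.2 = true
        · have hstep : stepScan (decide (a ≤ g k)) (decide (g k ≤ -a)) s = (s.1 + 1, false) := by
            simp [stepScan, hA, hB, hc]
          rw [hstep]
          refine ⟨k, Nat.lt_succ_self k, fun h => by simp at h, fun _ => hB, ?_⟩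
          by_cases h0 : s.1 = 0
          · simpa [h0] using hnn k
          · have hl : s.2 = true := by tauto
            obtain ⟨j, hj, hjA, _, hvar⟩ := ih (Nat.pos_of_ne_zero h0)
            have hgj := hjA hl
            have htri := abs_sub_le_sum_Ico g hj.le
            have hsplit := Finset.sum_range_add_sum_Ico (fun i => |g (i + 1) - g i|) hj.le
            have h2a : 2 * a ≤ |g k - g j| := by
              rw [abs_of_nonpos (by linarith)]
              linarith
            push_cast
            nlinarith
        · have hstep : stepScan (decide (a ≤ g k)) (decide (g k ≤ -a)) s = s := by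
            simp [stepScan, hA, hB, hc]
          rw [hstep]
          have hpos' : 0 < s.1 := by
            rcases Nat.eq_zero_or_pos s.1 with h | h
            · exact absurd (Or.inl h) hc
            · exact h
          obtain ⟨j, hj, h1, h2, h3⟩ := ih hpos'
          exact ⟨j, by omega, h1, h2, h3⟩
      · have hstep : stepScan (decide (a ≤ g k)) (decide (g k ≤ -a)) s = s := by
          simp [stepScan, hA, hB]
        rw [hstep] at hpos ⊢
        obtain ⟨j, hj, h1, h2, h3⟩ := ih hpos
        exact ⟨j, by omega, h1, h2, h3⟩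

/-- every alternation between `{g ≥ a}` and `{g ≤ -a}` costs `2a` of total variation -/
theorem cnt_le_var (g : ℕ → ℝ) (a : ℝ) (ha : 0 < a) (n : ℕ) :
    ((cnt (fun k => a ≤ g k) (fun k => g k ≤ -a) n : ℝ) - 1) * (2 * a) ≤
      ∑ i ∈ Finset.range (n - 1), |g (i + 1) - g i| := by
  have hnn : 0 ≤ ∑ i ∈ Finset.range (n - 1), |g (i + 1) - g i| :=
    Finset.sum_nonneg (fun i _ => abs_nonneg _)
  rcases Nat.eq_zero_or_pos (cnt (fun k => a ≤ g k) (fun k => g k ≤ -a) n) with h | h
  · rw [h]
    push_cast
    nlinarith
  · obtain ⟨j, hj, _, _, h3⟩ := scan_var g a ha n h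
    refine h3.trans ?_
    apply Finset.sum_le_sum_of_subset_of_nonneg
    · intro i hi
      simp only [Finset.mem_range] at hi ⊢
      omega
    · intro i _ _
      exact abs_nonneg _

end Vale.Agent.P125.Alpha
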