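import Vale.Agent.P125.Dich.ApiB
import Vale.Agent.P125.Dich.Iter
import Vale.Agent.P125.Char.Back2
import Vale.Agent.P125.Char.Conv_A

set_option linter.unusedSectionVars false
set_option linter.unusedVariables false

/-!
# P125 (alpha): from the one-scale inequality (BV) on marked chains to the sub-ballistic bound
for functions on ordinary reversible chains

The two size functions `nJ` (output) and `n1` (input) are abstract.
-/

namespace Vale.Agent.P125.Alpha91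

open Vale.Agent.P125.Dich Vale.Agent.P125.Char
open scoped BigOperators

section Triv

variable {S M : Type} [Fintype S] [Fintype M]

private lemma cs_step1 (a s Q n : ℝ) (hn : 0 ≤ n) (hQ : 0 ≤ Q) (h : s ^ 2 ≤ n * Q) :
    (a + s) ^ 2 ≤ (n + 1) * (a ^ 2 + Q) := by
  rcases hn.eq_or_lt with h0 | h0
  · rw [← h0, zero_mul] at h
    have hs : s = 0 := by
      have : s ^ 2 = 0 := le_antisymm h (sq_nonneg s)
      exact pow_eq_zero_iff (two_ne_zero) |>.1 this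
    rw [← h0, hs]
    nlinarith
  · have key : n * ((n + 1) * (a ^ 2 + Q) - (a + s) ^ 2)
        = (n * a - s) ^ 2 + (n + 1) * (n * Q - s ^ 2) := by ring
    have h1 : 0 ≤ n * ((n + 1) * (a ^ 2 + Q) - (a + s) ^ 2) := by
      rw [key]
      have : 0 ≤ (n + 1) * (n * Q - s ^ 2) := mul_nonneg (by linarith) (by linarith)
      nlinarith [sq_nonneg (n * a - s)]
    have h2 := (mul_nonneg_iff_of_pos_left h0).1 h1
    linarith

/-- Cauchy-Schwarz for a list and a subadditive size function -/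
lemma nu_sm_sq_le {X : Type*} [AddCommMonoid X] (ν : X → ℝ) (h0 : ν 0 = 0) (hn : ∀ v, 0 ≤ ν v)
    (hadd : ∀ u v, ν (u + v) ≤ ν u + ν v) (ω : M → X) (l : List M) :
    ν (sm ω l) ^ 2 ≤ (l.length : ℝ) * (l.map (fun m => ν (ω m) ^ 2)).sum := by
  induction l with
  | nil => simp [sm, h0]
  | cons m l ih =>
    have hQ : 0 ≤ (l.map (fun m => ν (ω m) ^ 2)).sum := by
      apply List.sum_nonneg
      intro x hx
      obtain ⟨y, _, rfl⟩ := List.mem_map.1 hx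
      positivity
    have h1 : sm ω (m :: l) = ω m + sm ω l := by simp [sm]
    have h2 : ν (sm ω (m :: l)) ≤ ν (ω m) + ν (sm ω l) := by
      rw [h1]
      exact hadd _ _
    have h3 : ν (sm ω (m :: l)) ^ 2 ≤ (ν (ω m) + ν (sm ω l)) ^ 2 :=
      pow_le_pow_left₀ (hn _) h2 2
    have h4 := cs_step1 (ν (ω m)) (ν (sm ω l)) _ (l.length : ℝ) (Nat.cast_nonneg _) hQ ih
    refine h3.trans (h4.trans (le_of_eq ?_))
    simp only [List.length_cons, List.map_cons, List.sum_cons]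
    push_cast
    ring

/-- the trivial bound for a subadditive size function -/
theorem E_nu_sq_le {X : Type*} [AddCommMonoid X] (ν : X → ℝ) (h0 : ν 0 = 0) (hn : ∀ v, 0 ≤ ν v)
    (hadd : ∀ u v, ν (u + v) ≤ ν u + ν v) (C : MChain S M) (ω : M → X) (b : ℕ) :
    C.E b (fun l => ν (sm ω l) ^ 2) ≤ (b : ℝ) ^ 2 * C.E 1 (fun l => ν (sm ω l) ^ 2) := by
  have h1 : C.E b (fun l => ν (sm ω l) ^ 2)
      ≤ C.E b (fun l => (b : ℝ) * (l.map (fun m => ν (ω m) ^ 2)).sum) := by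
    apply E_mono
    intro l hl
    have := nu_sm_sq_le ν h0 hn hadd ω l
    rwa [hl] at this
  have h2 : C.E 1 (fun l => (l.map (fun m => ν (ω m) ^ 2)).sum)
      = C.E 1 (fun l => ν (sm ω l) ^ 2) := by
    apply E_congr
    intro l hl
    obtain ⟨m, rfl⟩ := List.length_eq_one_iff.1 hl
    simp [sm]
  rw [E_const_mul, E_sum_marks, h2] at h1
  calc C.E b (fun l => ν (sm ω l) ^ 2) ≤ _ := h1
    _ = (b : ℝ) ^ 2 * C.E 1 (fun l => ν (sm ω l) ^ 2) := by ring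

end Triv

/-- scalar step -/
lemma scalar_step (X EN ENV T r M L1 : ℝ) (hr : 0 < r) (hT : 0 ≤ T) (hM : 1 ≤ M)
    (hL : 32 * (5 / 4 + 1 / r) ≤ L1)
    (hEN : EN ≤ r ^ 2 * T) (hENV : ENV ≤ r * T)
    (hX : X ≤ M ^ 2 * EN - (M / 16) * (EN - 4 * (5 * EN + 4 * ENV) / L1)) :
    X ≤ r ^ 2 * (1 - 1 / (32 * M)) * M ^ 2 * T := by
  have hr1 : 0 < 1 / r := by positivity
  have hL0 : 0 < L1 := by nlinarith
  obtain ⟨dl, hdl⟩ : ∃ dl, dl = 1 / L1 := ⟨_, rfl⟩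
  have hdl0 : 0 < dl := by rw [hdl]; positivity
  have hdl1 : (5 / 4 + 1 / r) * dl ≤ 1 / 32 := by
    rw [hdl, mul_one_div, div_le_iff₀ hL0]
    linarith
  have hM0 : 0 < M := by linarith
  have e1 : M ^ 2 * EN - (M / 16) * (EN - 4 * (5 * EN + 4 * ENV) / L1)
      = EN * (M ^ 2 - M / 16 + 5 * M / 4 * dl) + M * dl * ENV := by
    rw [hdl]
    field_simp
    ring
  have c1 : 0 ≤ M ^ 2 - M / 16 + 5 * M / 4 * dl := by
    have : 0 ≤ 5 * M / 4 * dl := by positivity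
    nlinarith
  have s1 : EN * (M ^ 2 - M / 16 + 5 * M / 4 * dl)
      ≤ r ^ 2 * T * (M ^ 2 - M / 16 + 5 * M / 4 * dl) := mul_le_mul_of_nonneg_right hEN c1
  have s2 : M * dl * ENV ≤ M * dl * (r * T) :=
    mul_le_mul_of_nonneg_left hENV (by positivity)
  have e2 : r ^ 2 * T * (M ^ 2 - M / 16 + 5 * M / 4 * dl) + M * dl * (r * T)
      = r ^ 2 * T * M ^ 2 - r ^ 2 * T * M * (1 / 16 - (5 / 4 + 1 / r) * dl) := by
    field_simp
    ring
  have s3 : r ^ 2 * T * M * (1 / 32) ≤ r ^ 2 * T * M * (1 / 16 - (5 / 4 + 1 / r) * dl) :=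
    mul_le_mul_of_nonneg_left (by linarith) (by positivity)
  have e3 : r ^ 2 * (1 - 1 / (32 * M)) * M ^ 2 * T
      = r ^ 2 * T * M ^ 2 - r ^ 2 * T * M * (1 / 32) := by
    field_simp
  rw [e3]
  rw [e1] at hX
  linarith

/-- abstract iteration -/
lemma iterate_abs (R : ℕ → ℝ → Prop) (hmono : ∀ t a b, a ≤ b → R t a → R t b) (h1 : R 1 1)
    (hstep : ∀ (t L : ℕ) (r : ℝ), 1 ≤ t → 0 < r → 32 * (5 / 4 + 1 / r) ≤ (L : ℝ) + 1 →
      R t (r ^ 2) → R (2 ^ L * t) (r ^ 2 * (1 - 1 / (32 * (2 : ℝ) ^ L)))) :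
    ∀ ε : ℝ, 0 < ε → ∃ t : ℕ, 1 ≤ t ∧ R t ε := by
  intro ε hε
  obtain ⟨e, he⟩ : ∃ e, e = Real.sqrt ε := ⟨_, rfl⟩
  have he0 : 0 < e := by rw [he]; exact Real.sqrt_pos.2 hε
  have he2 : e ^ 2 = ε := by rw [he]; exact Real.sq_sqrt hε.le
  obtain ⟨L, hL⟩ := exists_nat_ge (32 * (5 / 4 + 1 / e))
  obtain ⟨q, hq⟩ : ∃ q, q = 1 - 1 / (32 * (2 : ℝ) ^ L) := ⟨_, rfl⟩
  have hpow : (1 : ℝ) ≤ (2 : ℝ) ^ L := one_le_pow₀ (by norm_num)
  have hq0 : 0 ≤ q := by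
    rw [hq]
    have : 1 / (32 * (2 : ℝ) ^ L) ≤ 1 := by
      rw [div_le_one (by positivity)]
      linarith
    linarith
  have hq1 : q < 1 := by
    rw [hq]
    have : 0 < 1 / (32 * (2 : ℝ) ^ L) := by positivity
    linarith
  have key : ∀ k : ℕ, ∃ t : ℕ, 1 ≤ t ∧ R t (max ε (q ^ k)) := by
    intro k
    induction k with
    | zero =>
      refine ⟨1, le_rfl, hmono 1 1 _ ?_ h1⟩
      rw [pow_zero]
      exact le_max_right _ _
    | succ k ih =>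
      obtain ⟨t, ht, hR⟩ := ih
      obtain ⟨a, ha⟩ : ∃ a, a = max ε (q ^ k) := ⟨_, rfl⟩
      rw [← ha] at hR
      have haε : ε ≤ a := by rw [ha]; exact le_max_left _ _
      have ha0 : 0 < a := lt_of_lt_of_le hε haε
      obtain ⟨r, hr⟩ : ∃ r, r = Real.sqrt a := ⟨_, rfl⟩
      have hr0 : 0 < r := by rw [hr]; exact Real.sqrt_pos.2 ha0
      have hr2 : r ^ 2 = a := by rw [hr]; exact Real.sq_sqrt ha0.le
      have her : e ≤ r := by rw [he, hr]; exact Real.sqrt_le_sqrt haε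
      have h1r : 1 / r ≤ 1 / e := one_div_le_one_div_of_le he0 her
      have hLr : 32 * (5 / 4 + 1 / r) ≤ (L : ℝ) + 1 := by linarith
      have hs := hstep t L r ht hr0 hLr (by rw [hr2]; exact hR)
      rw [hr2, ← hq] at hs
      refine ⟨2 ^ L * t, ?_, hmono _ _ _ ?_ hs⟩
      · exact Nat.one_le_iff_ne_zero.2 (by positivity)
      · rw [ha]
        rcases le_total ε (q ^ k) with h | h
        · rw [max_eq_right h, pow_succ]
          exact le_max_right _ _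
        · rw [max_eq_left h]
          refine le_trans ?_ (le_max_left _ _)
          nlinarith
  obtain ⟨k, hk⟩ := exists_pow_lt_of_lt_one hε hq1
  obtain ⟨t, ht, hR⟩ := key k
  exact ⟨t, ht, by rwa [max_eq_left hk.le] at hR⟩

/-- the statement at time `t` with constant `a` -/
def RR (nJ n1 : ∀ n : ℕ, (Fin n → ℝ) → ℝ) (t : ℕ) (a : ℝ) : Prop :=
  ∀ (n : ℕ) (S : Type) [Fintype S] [DecidableEq S] (μ : S → ℝ) (P : Matrix S S ℝ),
    IsChain μ P → ∀ f : S → Fin n → ℝ,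
      ∑ i, ∑ j, μ i * (P ^ t) i j * nJ n (f j - f i) ^ 2 ≤
        a * (t : ℝ) ^ 2 * ∑ i, ∑ j, μ i * P i j * n1 n (f j - f i) ^ 2

/-- the one-scale inequality (BV) on marked chains -/
def BVhyp (nJ n1 : ∀ n : ℕ, (Fin n → ℝ) → ℝ) : Prop :=
  ∀ (n : ℕ) (S M : Type) [Fintype S] [Fintype M] (C : MChain S M) (ω : M → Fin n → ℝ),
    (∀ m, ω (C.inv m) = - ω m) → ∀ L : ℕ,
      C.E (2 ^ L) (fun l => nJ n (sm ω l) ^ 2) ≤
        ((2 : ℝ) ^ L) ^ 2 * C.E 1 (fun l => nJ n (sm ω l) ^ 2)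
          - ((2 : ℝ) ^ L / 16) * (C.E 1 (fun l => nJ n (sm ω l) ^ 2)
            - 4 * (5 * C.E 1 (fun l => nJ n (sm ω l) ^ 2)
              + 4 * C.E 1 (fun l => nJ n (sm ω l) * n1 n (sm ω l))) / ((L : ℝ) + 1))

section Main

variable (nJ n1 : ∀ n : ℕ, (Fin n → ℝ) → ℝ)

lemma energy_nonneg {S : Type} [Fintype S] {μ : S → ℝ} {P : Matrix S S ℝ} (hc : IsChain μ P)
    (g : S → S → ℝ) (hg : ∀ i j, 0 ≤ g i j) : 0 ≤ ∑ i, ∑ j, μ i * P i j * g i j :=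
  Finset.sum_nonneg fun i _ => Finset.sum_nonneg fun j _ =>
    mul_nonneg (mul_nonneg (hc.1 i) (hc.2.2.1 i j)) (hg i j)

lemma energy_mono {S : Type} [Fintype S] {μ : S → ℝ} {P : Matrix S S ℝ} (hc : IsChain μ P)
    (g h : S → S → ℝ) (hg : ∀ i j, g i j ≤ h i j) :
    ∑ i, ∑ j, μ i * P i j * g i j ≤ ∑ i, ∑ j, μ i * P i j * h i j :=
  Finset.sum_le_sum fun i _ => Finset.sum_le_sum fun j _ =>
    mul_le_mul_of_nonneg_left (hg i j) (mul_nonneg (hc.1 i) (hc.2.2.1 i j))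

lemma RR_mono (t : ℕ) (a b : ℝ) (hab : a ≤ b) (h : RR nJ n1 t a) : RR nJ n1 t b := by
  intro n S _ _ μ P hc f
  refine (h n S μ P hc f).trans ?_
  have hU : 0 ≤ ∑ i, ∑ j, μ i * P i j * n1 n (f j - f i) ^ 2 :=
    energy_nonneg hc _ fun i j => sq_nonneg _
  have : a * (t : ℝ) ^ 2 ≤ b * (t : ℝ) ^ 2 := mul_le_mul_of_nonneg_right hab (sq_nonneg _)
  exact mul_le_mul_of_nonneg_right this hU

lemma RR_one (hJ0 : ∀ n v, 0 ≤ nJ n v) (hJ1 : ∀ n v, nJ n v ≤ n1 n v) : RR nJ n1 1 1 := by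
  intro n S _ _ μ P hc f
  rw [pow_one, Nat.cast_one, one_pow, one_mul, one_mul]
  exact energy_mono hc _ _ fun i j => pow_le_pow_left₀ (hJ0 _ _) (hJ1 _ _) 2

/-- the trivial bound in function form -/
lemma triv_fun (h10 : ∀ n, n1 n 0 = 0) (h1n : ∀ n v, 0 ≤ n1 n v)
    (hadd : ∀ n u v, n1 n (u + v) ≤ n1 n u + n1 n v) (t n : ℕ)
    (S : Type) [Fintype S] [DecidableEq S] (μ : S → ℝ) (P : Matrix S S ℝ)
    (hc : IsChain μ P) (f : S → Fin n → ℝ) :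
    ∑ i, ∑ j, μ i * (P ^ t) i j * n1 n (f j - f i) ^ 2 ≤
      (t : ℝ) ^ 2 * ∑ i, ∑ j, μ i * P i j * n1 n (f j - f i) ^ 2 := by
  obtain ⟨h0, h1, h2, h3, h4⟩ := hc
  have key := E_nu_sq_le (n1 n) (h10 n) (h1n n) (hadd n) (backChain μ P h0 h1 h2 h3 h4)
    (fun m : S × S => f m.2 - f m.1) t
  rw [back_E μ P h0 h1 h2 h3 h4 f t (fun u => n1 n u ^ 2),
    back_E μ P h0 h1 h2 h3 h4 f 1 (fun u => n1 n u ^ 2), pow_one] at key
  exact key

lemma RR_step (hJ0 : ∀ n v, 0 ≤ nJ n v) (h10 : ∀ n, n1 n 0 = 0) (h1n : ∀ n v, 0 ≤ n1 n v)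
    (hadd : ∀ n u v, n1 n (u + v) ≤ n1 n u + n1 n v) (hBV : BVhyp nJ n1)
    (t L : ℕ) (r : ℝ) (ht : 1 ≤ t) (hr : 0 < r) (hL : 32 * (5 / 4 + 1 / r) ≤ (L : ℝ) + 1)
    (hR : RR nJ n1 t (r ^ 2)) :
    RR nJ n1 (2 ^ L * t) (r ^ 2 * (1 - 1 / (32 * (2 : ℝ) ^ L))) := by
  intro n S _ _ μ P hc f
  have hc' : IsChain μ (P ^ t) := isChain_pow hc t
  obtain ⟨h0, h1, h2, h3, h4⟩ := hc'
  have key := hBV n S (S × S) (backChain μ (P ^ t) h0 h1 h2 h3 h4)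
    (fun m : S × S => f m.2 - f m.1)
    (by
      intro m
      have : (backChain μ (P ^ t) h0 h1 h2 h3 h4).inv m = Prod.swap m := rfl
      rw [this]
      simp) L
  rw [back_E μ (P ^ t) h0 h1 h2 h3 h4 f (2 ^ L) (fun u => nJ n u ^ 2),
    back_E μ (P ^ t) h0 h1 h2 h3 h4 f 1 (fun u => nJ n u ^ 2),
    back_E μ (P ^ t) h0 h1 h2 h3 h4 f 1 (fun u => nJ n u * n1 n u), pow_one, ← pow_mul] at key
  obtain ⟨U, hU⟩ : ∃ U, U = ∑ i, ∑ j, μ i * P i j * n1 n (f j - f i) ^ 2 := ⟨_, rfl⟩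
  have hU0 : 0 ≤ U := by rw [hU]; exact energy_nonneg hc _ fun i j => sq_nonneg _
  have hEN := hR n S μ P hc f
  have hEV := triv_fun n1 h10 h1n hadd t n S μ P hc f
  rw [← hU] at hEN hEV ⊢
  have hc'' : IsChain μ (P ^ t) := ⟨h0, h1, h2, h3, h4⟩
  -- AM-GM for the mixed term
  have hENV : ∑ i, ∑ j, μ i * (P ^ t) i j * (nJ n (f j - f i) * n1 n (f j - f i))
      ≤ r * ((t : ℝ) ^ 2 * U) := by
    have hpt : ∀ i j, nJ n (f j - f i) * n1 n (f j - f i)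
        ≤ (1 / (2 * r)) * nJ n (f j - f i) ^ 2 + (r / 2) * n1 n (f j - f i) ^ 2 := by
      intro i j
      have h := sq_nonneg (nJ n (f j - f i) - r * n1 n (f j - f i))
      have e : (1 / (2 * r)) * nJ n (f j - f i) ^ 2 + (r / 2) * n1 n (f j - f i) ^ 2
          - nJ n (f j - f i) * n1 n (f j - f i)
          = (1 / (2 * r)) * (nJ n (f j - f i) - r * n1 n (f j - f i)) ^ 2 := by
        field_simp
        ring
      have : 0 ≤ (1 / (2 * r)) * (nJ n (f j - f i) - r * n1 n (f j - f i)) ^ 2 := by positivity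
      linarith
    have hm := energy_mono hc'' _ _ hpt
    have hsplit : ∑ i, ∑ j, μ i * (P ^ t) i j *
        ((1 / (2 * r)) * nJ n (f j - f i) ^ 2 + (r / 2) * n1 n (f j - f i) ^ 2)
        = (1 / (2 * r)) * ∑ i, ∑ j, μ i * (P ^ t) i j * nJ n (f j - f i) ^ 2
          + (r / 2) * ∑ i, ∑ j, μ i * (P ^ t) i j * n1 n (f j - f i) ^ 2 := by
      simp only [Finset.mul_sum, ← Finset.sum_add_distrib]
      refine Finset.sum_congr rfl fun i _ => Finset.sum_congr rfl fun j _ => ?_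
      ring
    rw [hsplit] at hm
    have a1 : (1 / (2 * r)) * ∑ i, ∑ j, μ i * (P ^ t) i j * nJ n (f j - f i) ^ 2
        ≤ (1 / (2 * r)) * (r ^ 2 * (t : ℝ) ^ 2 * U) :=
      mul_le_mul_of_nonneg_left hEN (by positivity)
    have a2 : (r / 2) * ∑ i, ∑ j, μ i * (P ^ t) i j * n1 n (f j - f i) ^ 2
        ≤ (r / 2) * ((t : ℝ) ^ 2 * U) := mul_le_mul_of_nonneg_left hEV (by positivity)
    have e : (1 / (2 * r)) * (r ^ 2 * (t : ℝ) ^ 2 * U) + (r / 2) * ((t : ℝ) ^ 2 * U)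
        = r * ((t : ℝ) ^ 2 * U) := by
      field_simp
      ring
    linarith
  have hfin := scalar_step _ _ _ ((t : ℝ) ^ 2 * U) r ((2 : ℝ) ^ L) ((L : ℝ) + 1) hr
    (by positivity) (one_le_pow₀ (by norm_num)) hL (by linarith) hENV key
  have hexp : t * 2 ^ L = 2 ^ L * t := Nat.mul_comm _ _
  rw [hexp] at hfin
  refine hfin.trans (le_of_eq ?_)
  push_cast
  ring

/-- **From (BV) to (alpha).** -/
theorem alpha_of_BV (hJ0 : ∀ n v, 0 ≤ nJ n v) (hJ1 : ∀ n v, nJ n v ≤ n1 n v)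
    (h10 : ∀ n, n1 n 0 = 0) (hadd : ∀ n u v, n1 n (u + v) ≤ n1 n u + n1 n v)
    (hBV : BVhyp nJ n1) :
    ∀ ε : ℝ, 0 < ε → ∃ t : ℕ, 1 ≤ t ∧
      ∀ (n : ℕ) (S : Type) [Fintype S] [DecidableEq S] (μ : S → ℝ) (P : Matrix S S ℝ),
        IsChain μ P → ∀ f : S → Fin n → ℝ,
          ∑ i, ∑ j, μ i * (P ^ t) i j * nJ n (f j - f i) ^ 2 ≤
            ε * (t : ℝ) ^ 2 * ∑ i, ∑ j, μ i * P i j * n1 n (f j - f i) ^ 2 :=
  iterate_abs (RR nJ n1) (RR_mono nJ n1) (RR_one nJ n1 hJ0 hJ1)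
    (fun t L r ht hr hL hR => RR_step nJ n1 hJ0 h10 (fun n v => (hJ0 n v).trans (hJ1 n v)) hadd
      hBV t L r ht hr hL hR)

end Main

end Vale.Agent.P125.Alpha91
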