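import Vale.Agent.P125.Char.Back2
import Vale.Agent.P125.Char.Conv_A
import Vale.Agent.P125.Dich.Iter

set_option linter.unusedSectionVars false
set_option linter.unusedVariables false

/-!
# P125 (alpha): from the one-block inequality (BV) on marked chains to sub-ballisticity for
functions on ordinary reversible chains

Generic in the space `X` and in the two gauges `NJ` (small norm) and `N1` (big norm).
-/

namespace Vale.Agent.P125.Alpha

open Vale.Agent.P125.Dich Vale.Agent.P125.Char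
open scoped BigOperators

/-- Arithmetic of one contraction step: from the (BV) inequality to the improved constant. -/
private theorem bv_to_step51 (X M L κ t U EN2 ENV EV2 : ℝ)
    (hM : 1 ≤ M) (hL : 0 < L + 1) (hκ : 0 < κ) (ht : 0 ≤ t) (hU : 0 ≤ U)
    (hBV : X ≤ M ^ 2 * EN2 - (M / 16) * (EN2 - 4 * (5 * EN2 + 4 * ENV) / (L + 1)))
    (hN0 : 0 ≤ EN2) (hN : EN2 ≤ κ ^ 2 * t ^ 2 * U)
    (hCS : ENV ^ 2 ≤ EN2 * EV2)
    (hV0 : 0 ≤ EV2) (hV : EV2 ≤ t ^ 2 * U)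
    (hLκ : 32 * (5 / 4 + 1 / κ) ≤ L + 1) :
    X ≤ κ ^ 2 * (1 - 1 / (32 * M)) * (M * t) ^ 2 * U := by
  have hM0 : 0 < M := by linarith
  set W : ℝ := t ^ 2 * U with hW
  have hW0 : 0 ≤ W := by positivity
  -- bound on ENV
  have hENV : ENV ≤ κ * W := by
    have h1 : ENV ^ 2 ≤ (κ * W) ^ 2 := by
      calc ENV ^ 2 ≤ EN2 * EV2 := hCS
        _ ≤ (κ ^ 2 * t ^ 2 * U) * (t ^ 2 * U) := mul_le_mul hN hV hV0 (by positivity)
        _ = (κ * W) ^ 2 := by rw [hW]; ring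
    exact abs_le_of_sq_le_sq' h1 (by positivity) |>.2
  have hN' : EN2 ≤ κ ^ 2 * W := by rw [hW]; linarith [hN]
  -- rewrite the right-hand side of (BV)
  have hcoef : 0 ≤ M ^ 2 - M / 16 + (5 / 4) * M / (L + 1) := by
    have : 0 ≤ (5 / 4) * M / (L + 1) := by positivity
    nlinarith
  have h1 : X ≤ (M ^ 2 - M / 16 + (5 / 4) * M / (L + 1)) * EN2 + M / (L + 1) * ENV := by
    have : M ^ 2 * EN2 - (M / 16) * (EN2 - 4 * (5 * EN2 + 4 * ENV) / (L + 1))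
        = (M ^ 2 - M / 16 + (5 / 4) * M / (L + 1)) * EN2 + M / (L + 1) * ENV := by
      field_simp
      ring
    linarith
  have h2 : (M ^ 2 - M / 16 + (5 / 4) * M / (L + 1)) * EN2
      ≤ (M ^ 2 - M / 16 + (5 / 4) * M / (L + 1)) * (κ ^ 2 * W) :=
    mul_le_mul_of_nonneg_left hN' hcoef
  have h3 : M / (L + 1) * ENV ≤ M / (L + 1) * (κ * W) :=
    mul_le_mul_of_nonneg_left hENV (by positivity)
  -- the key inequality (5/4 + 1/κ)/(L+1) ≤ 1/32
  have h4 : (5 / 4 + 1 / κ) / (L + 1) ≤ 1 / 32 := by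
    rw [div_le_iff₀ hL]
    linarith
  have h5 : (M ^ 2 - M / 16 + (5 / 4) * M / (L + 1)) * (κ ^ 2 * W) + M / (L + 1) * (κ * W)
      = κ ^ 2 * W * (M ^ 2 - M / 16 + M * ((5 / 4 + 1 / κ) / (L + 1))) := by
    field_simp
    ring
  have h6 : κ ^ 2 * W * (M ^ 2 - M / 16 + M * ((5 / 4 + 1 / κ) / (L + 1)))
      ≤ κ ^ 2 * W * (M ^ 2 - M / 16 + M * (1 / 32)) := by
    apply mul_le_mul_of_nonneg_left _ (by positivity)
    have := mul_le_mul_of_nonneg_left h4 hM0.le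
    linarith
  have h7 : κ ^ 2 * W * (M ^ 2 - M / 16 + M * (1 / 32))
      = κ ^ 2 * (1 - 1 / (32 * M)) * (M * t) ^ 2 * U := by
    rw [hW]
    field_simp
    ring
  linarith

/-- Iteration of the contraction step: no supremum over chains is needed. -/
private theorem iterate51 (R : ℕ → ℝ → Prop)
    (hmono : ∀ t a b, a ≤ b → R t a → R t b)
    (h1 : R 1 1)
    (hstep : ∀ (t L : ℕ) (κ : ℝ), 1 ≤ t → 0 < κ → 32 * (5 / 4 + 1 / κ) ≤ (L : ℝ) + 1 → R t κ →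
      R (2 ^ L * t) (κ * Real.sqrt (1 - 1 / (32 * 2 ^ L)))) :
    ∀ ε : ℝ, 0 < ε → ∃ t, 1 ≤ t ∧ R t ε := by
  intro ε hε
  obtain ⟨L, hL⟩ := exists_nat_ge (32 * (5 / 4 + 1 / ε))
  have hL' : 32 * (5 / 4 + 1 / ε) ≤ (L : ℝ) + 1 := by linarith
  set ρ : ℝ := Real.sqrt (1 - 1 / (32 * 2 ^ L)) with hρ
  have hpow : (0 : ℝ) < 32 * 2 ^ L := by positivity
  have hρ0 : 0 ≤ ρ := Real.sqrt_nonneg _
  have hρ1 : ρ < 1 := by
    rw [hρ, Real.sqrt_lt' one_pos]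
    have : 0 < 1 / (32 * (2 : ℝ) ^ L) := by positivity
    linarith
  have key : ∀ k : ℕ, ∃ t, 1 ≤ t ∧ R t (max ε (ρ ^ k)) := by
    intro k
    induction k with
    | zero => exact ⟨1, le_refl 1, hmono 1 1 _ (by simp) h1⟩
    | succ k ih =>
      obtain ⟨t, ht, hR⟩ := ih
      have hκ : 0 < max ε (ρ ^ k) := lt_max_of_lt_left hε
      have hκε : ε ≤ max ε (ρ ^ k) := le_max_left _ _
      have hcond : 32 * (5 / 4 + 1 / max ε (ρ ^ k)) ≤ (L : ℝ) + 1 := by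
        have : 1 / max ε (ρ ^ k) ≤ 1 / ε := one_div_le_one_div_of_le hε hκε
        linarith
      have hs := hstep t L _ ht hκ hcond hR
      refine ⟨2 ^ L * t, ?_, hmono _ _ _ ?_ hs⟩
      · exact Nat.one_le_iff_ne_zero.mpr (by positivity)
      · rw [max_mul_of_nonneg _ _ hρ0]
        apply max_le_max
        · nlinarith
        · rw [pow_succ]
  obtain ⟨k, hk⟩ := exists_pow_lt_of_lt_one hε hρ1
  obtain ⟨t, ht, hR⟩ := key k
  exact ⟨t, ht, by rwa [max_eq_left hk.le] at hR⟩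

/-- the one-block inequality (BV) for the pair of gauges `NJ`, `N1` -/
def BVX (X : Type*) [NormedAddCommGroup X] (NJ N1 : X → ℝ) : Prop :=
  ∀ (S M : Type) [Fintype S] [Fintype M] (C : MChain S M) (ω : M → X),
    (∀ m, ω (C.inv m) = - ω m) → ∀ L : ℕ,
      C.E (2 ^ L) (fun l => NJ (sm ω l) ^ 2) ≤
        ((2 : ℝ) ^ L) ^ 2 * C.E 1 (fun l => NJ (sm ω l) ^ 2)
          - ((2 : ℝ) ^ L / 16) * (C.E 1 (fun l => NJ (sm ω l) ^ 2)
            - 4 * (5 * C.E 1 (fun l => NJ (sm ω l) ^ 2)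
                + 4 * C.E 1 (fun l => NJ (sm ω l) * N1 (sm ω l))) / ((L : ℝ) + 1))

/-- at time `t` the `NJ` displacement is at most `κ t` times the one step `N1` displacement
(in `L_2`), for all functions on all stationary reversible chains -/
def RX (X : Type*) [NormedAddCommGroup X] (NJ N1 : X → ℝ) (t : ℕ) (κ : ℝ) : Prop :=
  ∀ (S : Type) [Fintype S] [DecidableEq S] (μ : S → ℝ) (P : Matrix S S ℝ), IsChain μ P →
    ∀ f : S → X,
      ∑ i, ∑ j, μ i * (P ^ t) i j * NJ (f j - f i) ^ 2 ≤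
        κ ^ 2 * (t : ℝ) ^ 2 * ∑ i, ∑ j, μ i * P i j * N1 (f j - f i) ^ 2

private lemma cs_step51 (a s Q n : ℝ) (hn : 0 ≤ n) (hQ : 0 ≤ Q) (h : s ^ 2 ≤ n * Q) :
    (a + s) ^ 2 ≤ (n + 1) * (a ^ 2 + Q) := by
  rcases hn.eq_or_lt with h0 | h0
  · rw [← h0, zero_mul] at h
    have hs : s = 0 := by
      have : s ^ 2 = 0 := le_antisymm h (sq_nonneg s)
      exact pow_eq_zero_iff (two_ne_zero) |>.1 this
    rw [← h0, hs]
    nlinarith
  · have key : n * ((n + 1) * (a ^ 2 + Q) - (a + s) ^ 2)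
        = (n * a - s) ^ 2 + (n + 1) * (n * Q - s ^ 2) := by ring
    have h1 : 0 ≤ n * ((n + 1) * (a ^ 2 + Q) - (a + s) ^ 2) := by
      rw [key]
      have : 0 ≤ (n + 1) * (n * Q - s ^ 2) := mul_nonneg (by linarith) (by linarith)
      nlinarith [sq_nonneg (n * a - s)]
    have h2 := (mul_nonneg_iff_of_pos_left h0).1 h1
    linarith

section gauge

variable {S M : Type} [Fintype S] [Fintype M]
variable {X : Type*} [NormedAddCommGroup X] (N1 : X → ℝ)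

/-- Cauchy-Schwarz along a list for a subadditive gauge -/
lemma gauge_sm_sq_le (h0 : N1 0 = 0) (hnn : ∀ x, 0 ≤ N1 x)
    (hsub : ∀ x y, N1 (x + y) ≤ N1 x + N1 y) (ω : M → X) (l : List M) :
    N1 (sm ω l) ^ 2 ≤ (l.length : ℝ) * (l.map (fun m => N1 (ω m) ^ 2)).sum := by
  induction l with
  | nil => simp [sm, h0]
  | cons m l ih =>
    have hQ : 0 ≤ (l.map (fun m => N1 (ω m) ^ 2)).sum := by
      apply List.sum_nonneg
      intro x hx
      obtain ⟨y, _, rfl⟩ := List.mem_map.1 hx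
      positivity
    have h1 : sm ω (m :: l) = ω m + sm ω l := by simp [sm]
    have h2 : N1 (sm ω (m :: l)) ≤ N1 (ω m) + N1 (sm ω l) := by
      rw [h1]
      exact hsub _ _
    have h3 : N1 (sm ω (m :: l)) ^ 2 ≤ (N1 (ω m) + N1 (sm ω l)) ^ 2 :=
      pow_le_pow_left₀ (hnn _) h2 2
    have h4 := cs_step51 (N1 (ω m)) (N1 (sm ω l)) _ (l.length : ℝ) (Nat.cast_nonneg _) hQ ih
    refine h3.trans (h4.trans (le_of_eq ?_))
    simp only [List.length_cons, List.map_cons, List.sum_cons]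
    push_cast
    ring

/-- the trivial bound for a subadditive gauge on marked chains -/
theorem E_gauge_sq_le (h0 : N1 0 = 0) (hnn : ∀ x, 0 ≤ N1 x)
    (hsub : ∀ x y, N1 (x + y) ≤ N1 x + N1 y) (C : MChain S M) (ω : M → X) (b : ℕ) :
    C.E b (fun l => N1 (sm ω l) ^ 2) ≤ (b : ℝ) ^ 2 * C.E 1 (fun l => N1 (sm ω l) ^ 2) := by
  have h1 : C.E b (fun l => N1 (sm ω l) ^ 2)
      ≤ C.E b (fun l => (b : ℝ) * (l.map (fun m => N1 (ω m) ^ 2)).sum) := by
    apply E_mono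
    intro l hl
    have := gauge_sm_sq_le N1 h0 hnn hsub ω l
    rwa [hl] at this
  have h2 : C.E 1 (fun l => (l.map (fun m => N1 (ω m) ^ 2)).sum)
      = C.E 1 (fun l => N1 (sm ω l) ^ 2) := by
    apply E_congr
    intro l hl
    obtain ⟨m, rfl⟩ := List.length_eq_one_iff.1 hl
    simp [sm]
  rw [E_const_mul, E_sum_marks, h2] at h1
  calc C.E b (fun l => N1 (sm ω l) ^ 2) ≤ _ := h1
    _ = (b : ℝ) ^ 2 * C.E 1 (fun l => N1 (sm ω l) ^ 2) := by ring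

/-- the trivial bound for a subadditive gauge, functions on ordinary chains -/
theorem fun_gauge_sq_le (h0 : N1 0 = 0) (hnn : ∀ x, 0 ≤ N1 x)
    (hsub : ∀ x y, N1 (x + y) ≤ N1 x + N1 y) [DecidableEq S] (μ : S → ℝ) (P : Matrix S S ℝ)
    (hc : IsChain μ P) (f : S → X) (b : ℕ) :
    ∑ i, ∑ j, μ i * (P ^ b) i j * N1 (f j - f i) ^ 2 ≤
      (b : ℝ) ^ 2 * ∑ i, ∑ j, μ i * P i j * N1 (f j - f i) ^ 2 := by
  obtain ⟨c0, c1, c2, c3, c4⟩ := hc
  have key := E_gauge_sq_le N1 h0 hnn hsub (backChain μ P c0 c1 c2 c3 c4)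
    (fun m : S × S => f m.2 - f m.1) b
  rw [back_E μ P c0 c1 c2 c3 c4 f b (fun u => N1 u ^ 2),
    back_E μ P c0 c1 c2 c3 c4 f 1 (fun u => N1 u ^ 2), pow_one] at key
  exact key

end gauge

/-- weighted Cauchy-Schwarz -/
lemma cs_weight {ι : Type*} (s : Finset ι) (w a b : ι → ℝ) (hw : ∀ i ∈ s, 0 ≤ w i) :
    (∑ i ∈ s, w i * (a i * b i)) ^ 2 ≤ (∑ i ∈ s, w i * a i ^ 2) * (∑ i ∈ s, w i * b i ^ 2) := by
  have h := Finset.sum_mul_sq_le_sq_mul_sq s (fun i => Real.sqrt (w i) * a i)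
    (fun i => Real.sqrt (w i) * b i)
  have e1 : ∑ i ∈ s, (Real.sqrt (w i) * a i) * (Real.sqrt (w i) * b i)
      = ∑ i ∈ s, w i * (a i * b i) := by
    refine Finset.sum_congr rfl fun i hi => ?_
    have := Real.mul_self_sqrt (hw i hi)
    calc (Real.sqrt (w i) * a i) * (Real.sqrt (w i) * b i)
        = (Real.sqrt (w i) * Real.sqrt (w i)) * (a i * b i) := by ring
      _ = w i * (a i * b i) := by rw [this]
  have e2 : ∀ c : ι → ℝ, ∑ i ∈ s, (Real.sqrt (w i) * c i) ^ 2 = ∑ i ∈ s, w i * c i ^ 2 := by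
    intro c
    refine Finset.sum_congr rfl fun i hi => ?_
    have := Real.mul_self_sqrt (hw i hi)
    calc (Real.sqrt (w i) * c i) ^ 2
        = (Real.sqrt (w i) * Real.sqrt (w i)) * c i ^ 2 := by ring
      _ = w i * c i ^ 2 := by rw [this]
  rw [e1, e2 a, e2 b] at h
  exact h

/-- weighted Cauchy-Schwarz for double sums -/
lemma cs_weight2 {S : Type} [Fintype S] (w a b : S → S → ℝ) (hw : ∀ i j, 0 ≤ w i j) :
    (∑ i, ∑ j, w i j * (a i j * b i j)) ^ 2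
      ≤ (∑ i, ∑ j, w i j * a i j ^ 2) * (∑ i, ∑ j, w i j * b i j ^ 2) := by
  have h := cs_weight (Finset.univ : Finset (S × S)) (fun p => w p.1 p.2) (fun p => a p.1 p.2)
    (fun p => b p.1 p.2) (fun p _ => hw p.1 p.2)
  rw [Fintype.sum_prod_type, Fintype.sum_prod_type, Fintype.sum_prod_type] at h
  exact h

/-- one contraction step: (BV) applied to the `t`-step chain -/
theorem RX_step {X : Type*} [NormedAddCommGroup X] (NJ N1 : X → ℝ)
    (h0 : N1 0 = 0) (hnn : ∀ x, 0 ≤ N1 x) (hsub : ∀ x y, N1 (x + y) ≤ N1 x + N1 y)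
    (hBV : BVX X NJ N1) (t L : ℕ) (κ : ℝ) (hκ : 0 < κ)
    (hL : 32 * (5 / 4 + 1 / κ) ≤ (L : ℝ) + 1) (hR : RX X NJ N1 t κ) :
    RX X NJ N1 (2 ^ L * t) (κ * Real.sqrt (1 - 1 / (32 * 2 ^ L))) := by
  intro S _ _ μ P hc f
  have hc' : IsChain μ (P ^ t) := isChain_pow hc t
  obtain ⟨c0, c1, c2, c3, c4⟩ := hc'
  have key := hBV S (S × S) (backChain μ (P ^ t) c0 c1 c2 c3 c4)
    (fun m : S × S => f m.2 - f m.1)
    (by
      intro m
      have : (backChain μ (P ^ t) c0 c1 c2 c3 c4).inv m = Prod.swap m := rfl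
      rw [this]
      simp) L
  rw [back_E μ (P ^ t) c0 c1 c2 c3 c4 f (2 ^ L) (fun u => NJ u ^ 2),
    back_E μ (P ^ t) c0 c1 c2 c3 c4 f 1 (fun u => NJ u ^ 2),
    back_E μ (P ^ t) c0 c1 c2 c3 c4 f 1 (fun u => NJ u * N1 u), pow_one] at key
  have epow : (P ^ t) ^ (2 ^ L) = P ^ (2 ^ L * t) := by
    rw [← pow_mul, mul_comm]
  rw [epow] at key
  set U : ℝ := ∑ i, ∑ j, μ i * P i j * N1 (f j - f i) ^ 2 with hU
  have hU0 : 0 ≤ U := by
    obtain ⟨d0, _, d2, _, _⟩ := hc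
    exact Finset.sum_nonneg fun i _ => Finset.sum_nonneg fun j _ =>
      mul_nonneg (mul_nonneg (d0 i) (d2 i j)) (sq_nonneg _)
  set EN2 : ℝ := ∑ i, ∑ j, μ i * (P ^ t) i j * NJ (f j - f i) ^ 2 with hEN2
  set ENV : ℝ := ∑ i, ∑ j, μ i * (P ^ t) i j * (NJ (f j - f i) * N1 (f j - f i)) with hENV
  set EV2 : ℝ := ∑ i, ∑ j, μ i * (P ^ t) i j * N1 (f j - f i) ^ 2 with hEV2
  have hN0 : 0 ≤ EN2 := Finset.sum_nonneg fun i _ => Finset.sum_nonneg fun j _ =>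
      mul_nonneg (mul_nonneg (c0 i) (c2 i j)) (sq_nonneg _)
  have hV0 : 0 ≤ EV2 := Finset.sum_nonneg fun i _ => Finset.sum_nonneg fun j _ =>
      mul_nonneg (mul_nonneg (c0 i) (c2 i j)) (sq_nonneg _)
  have hN : EN2 ≤ κ ^ 2 * (t : ℝ) ^ 2 * U := hR S μ P hc f
  have hV : EV2 ≤ (t : ℝ) ^ 2 * U := fun_gauge_sq_le N1 h0 hnn hsub μ P hc f t
  have hCS : ENV ^ 2 ≤ EN2 * EV2 :=
    cs_weight2 (fun i j => μ i * (P ^ t) i j) (fun i j => NJ (f j - f i))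
      (fun i j => N1 (f j - f i)) (fun i j => mul_nonneg (c0 i) (c2 i j))
  have hM : (1 : ℝ) ≤ (2 : ℝ) ^ L := one_le_pow₀ (by norm_num)
  have hfin := bv_to_step51 _ ((2 : ℝ) ^ L) (L : ℝ) κ (t : ℝ) U EN2 ENV EV2 hM (by positivity) hκ
    (Nat.cast_nonneg _) hU0 key hN0 hN hCS hV0 hV hL
  have hs : 0 ≤ 1 - 1 / (32 * (2 : ℝ) ^ L) := by
    have : 1 / (32 * (2 : ℝ) ^ L) ≤ 1 := by
      rw [div_le_one (by positivity)]
      linarith
    linarith
  refine hfin.trans (le_of_eq ?_)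
  have e5 : (κ * Real.sqrt (1 - 1 / (32 * 2 ^ L))) ^ 2 = κ ^ 2 * (1 - 1 / (32 * 2 ^ L)) := by
    rw [mul_pow, Real.sq_sqrt hs]
  rw [e5]
  push_cast
  ring

/-- **(BV) implies (alpha)**: if the one-block inequality holds for the gauges `NJ n ≤ N1 n` on
`Fin n → ℝ` for all `n`, then for every `ε > 0` there is a time `t ≥ 1`, independent of `n`, of
the chain and of the function, at which the `L_2` displacement in `NJ` is at most `ε t` times the
one step `L_2` displacement in `N1`. -/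
theorem alpha_of_BVX (NJ N1 : ∀ n : ℕ, (Fin n → ℝ) → ℝ)
    (h0 : ∀ n, N1 n 0 = 0) (hnn : ∀ n x, 0 ≤ N1 n x)
    (hsub : ∀ n x y, N1 n (x + y) ≤ N1 n x + N1 n y)
    (hJ0 : ∀ n x, 0 ≤ NJ n x) (hJ1 : ∀ n x, NJ n x ≤ N1 n x)
    (hBV : ∀ n, BVX (Fin n → ℝ) (NJ n) (N1 n)) :
    ∀ ε : ℝ, 0 < ε → ∃ t : ℕ, 1 ≤ t ∧ ∀ n, RX (Fin n → ℝ) (NJ n) (N1 n) t ε := by
  intro ε hε
  obtain ⟨t, ht, _, hR⟩ := iterate51
    (fun t κ => 0 ≤ κ ∧ ∀ n, RX (Fin n → ℝ) (NJ n) (N1 n) t κ)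
    (by
      rintro t a b hab ⟨ha, hR⟩
      refine ⟨ha.trans hab, fun n S _ _ μ P hc f => (hR n S μ P hc f).trans ?_⟩
      have hU0 : 0 ≤ ∑ i, ∑ j, μ i * P i j * N1 n (f j - f i) ^ 2 := by
        obtain ⟨d0, _, d2, _, _⟩ := hc
        exact Finset.sum_nonneg fun i _ => Finset.sum_nonneg fun j _ =>
          mul_nonneg (mul_nonneg (d0 i) (d2 i j)) (sq_nonneg _)
      have hab2 : a ^ 2 ≤ b ^ 2 := pow_le_pow_left₀ ha hab 2
      exact mul_le_mul_of_nonneg_right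
        (mul_le_mul_of_nonneg_right hab2 (sq_nonneg _)) hU0)
    (by
      refine ⟨zero_le_one, fun n S _ _ μ P hc f => ?_⟩
      obtain ⟨d0, _, d2, _, _⟩ := hc
      rw [pow_one]
      simp only [one_pow, Nat.cast_one, one_mul]
      exact Finset.sum_le_sum fun i _ => Finset.sum_le_sum fun j _ =>
        mul_le_mul_of_nonneg_left (pow_le_pow_left₀ (hJ0 n _) (hJ1 n _) 2)
          (mul_nonneg (d0 i) (d2 i j)))
    (by
      rintro t L κ ht hκ hL ⟨_, hR⟩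
      exact ⟨mul_nonneg hκ.le (Real.sqrt_nonneg _), fun n =>
        RX_step (NJ n) (N1 n) (h0 n) (hnn n) (hsub n) (hBV n) t L κ hκ hL (hR n)⟩)
    ε hε
  exact ⟨t, ht, hR⟩

end Vale.Agent.P125.Alpha
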